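import Vale.Agent.Lib.P157.Moment2

open MeasureTheory ProbabilityTheory Real Filter Topology

namespace Vale.Agent.Lib.P157

variable {ρ : Measure ℝ} [IsFiniteMeasure ρ] {A : ℝ}

lemma aN_eq_integral (hA : ρ.real Set.univ < A) (N M : ℕ) :
    aN (fA ρ A) N M = ∫ g : Fin M → Fin N → ℝ,
      Fz (fA ρ A) (Yc N) (fun _ => -(N : ℝ) * Real.log 2) g ∂(Measure.pi fun _ => stdG (Fin N)) := by
  unfold aN Fz
  rw [iter_op_eq (fA_continuous ρ hA) (fA_abs_le ρ hA) (Yc N) LS_isL1]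

lemma Fz_integrable (hA : ρ.real Set.univ < A) (N M : ℕ) :
    Integrable (fun g : Fin M → Fin N → ℝ =>
      Fz (fA ρ A) (Yc N) (fun _ => -(N : ℝ) * Real.log 2) g)
      (Measure.pi fun _ => stdG (Fin N)) := by
  have hc := fA_abs_le ρ hA
  refine Integrable.of_bound (C := |LS (fun _ : Fin N → Bool => -(N : ℝ) * Real.log 2)| + M *
    (|Real.log (A - ρ.real Set.univ)| + |Real.log (A + ρ.real Set.univ)|))
    (Fz_continuous (fA_continuous ρ hA) _ _ M).aestronglyMeasurable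
    (Filter.Eventually.of_forall fun g => ?_)
  rw [Real.norm_eq_abs]
  have h1 := Fz_abs_sub_le hc (Yc N) (fun _ => -(N : ℝ) * Real.log 2) g
  have h2 := abs_sub_abs_le_abs_sub (Fz (fA ρ A) (Yc N) (fun _ => -(N : ℝ) * Real.log 2) g)
    (LS (fun _ : Fin N → Bool => -(N : ℝ) * Real.log 2))
  linarith

/-- Jensen's upper bound. -/
theorem aN_le_annealed (hA : ρ.real Set.univ < A) {N : ℕ} (hN : 0 < N) (M : ℕ) :
    aN (fA ρ A) N M ≤ M * Real.log (A - mOf ρ) := by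
  have hU := Ubar_pos (ρ := ρ) hA
  set m : ℝ := (A - mOf ρ) ^ M with hm
  have hm0 : 0 < m := by positivity
  rw [aN_eq_integral hA]
  have h1 := first_moment (ρ := ρ) (M := M) hA hN
  have hi := exp_Fz_integrable (fA_continuous ρ hA) (fA_abs_le ρ hA) (Yc N)
    (fun _ => -(N : ℝ) * Real.log 2) M 1
  have hpt : ∀ g : Fin M → Fin N → ℝ, Fz (fA ρ A) (Yc N) (fun _ => -(N : ℝ) * Real.log 2) g
      ≤ Real.log m + (1 / m * Real.exp (1 * Fz (fA ρ A) (Yc N) (fun _ => -(N : ℝ) * Real.log 2) g)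
        - 1) := by
    intro g
    set F := Fz (fA ρ A) (Yc N) (fun _ => -(N : ℝ) * Real.log 2) g with hF
    have h2 := Real.add_one_le_exp (F - Real.log m)
    have h3 : Real.exp (F - Real.log m) = 1 / m * Real.exp (1 * F) := by
      rw [Real.exp_sub, Real.exp_log hm0, one_mul]
      field_simp
    rw [h3] at h2
    linarith
  have hi2 : Integrable (fun g : Fin M → Fin N → ℝ => 1 / m *
      Real.exp (1 * Fz (fA ρ A) (Yc N) (fun _ => -(N : ℝ) * Real.log 2) g))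
      (Measure.pi fun _ => stdG (Fin N)) := hi.const_mul (1 / m)
  have hi3 : Integrable (fun g : Fin M → Fin N → ℝ => 1 / m *
      Real.exp (1 * Fz (fA ρ A) (Yc N) (fun _ => -(N : ℝ) * Real.log 2) g) - 1)
      (Measure.pi fun _ => stdG (Fin N)) := hi2.sub (integrable_const 1)
  have hi4 : Integrable (fun g : Fin M → Fin N → ℝ => Real.log m + (1 / m *
      Real.exp (1 * Fz (fA ρ A) (Yc N) (fun _ => -(N : ℝ) * Real.log 2) g) - 1))
      (Measure.pi fun _ => stdG (Fin N)) := (integrable_const (Real.log m)).add hi3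
  have h4 := integral_mono (Fz_integrable hA N M) hi4 hpt
  have e : ∫ g : Fin M → Fin N → ℝ, (Real.log m + (1 / m *
      Real.exp (1 * Fz (fA ρ A) (Yc N) (fun _ => -(N : ℝ) * Real.log 2) g) - 1))
      ∂(Measure.pi fun _ => stdG (Fin N)) = Real.log m := by
    rw [integral_add (integrable_const _) hi3,
      integral_sub hi2 (integrable_const 1), integral_const_mul, h1]
    simp only [integral_const, smul_eq_mul]
    have : (Measure.pi fun _ : Fin M => stdG (Fin N)).real Set.univ = 1 := by simp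
    rw [this]
    field_simp
    ring
  rw [e] at h4
  rw [hm, Real.log_pow] at h4
  exact h4

/-- The lower bound from the second moment. -/
theorem aN_ge_annealed (hA : ρ.real Set.univ < A) {N : ℕ} (hN : 0 < N) {α : ℝ} (hα : 0 < α)
    {M : ℕ} (hM : (M : ℝ) ≤ α * N)
    (hcond : ∀ R : ℝ, |R| ≤ 1 →
      α * Real.log (1 + psiR ρ R / (A - mOf ρ) ^ 2) ≤ rateJ R) {c : ℝ} (hc : ∀ y, |fA ρ A y| ≤ c)
    (hcpos : 0 < c) :
    M * Real.log (A - mOf ρ) - Real.log 2
        - Real.sqrt (2 * ((M + 1) * c ^ 2) * Real.log (4 * ((N : ℝ) + 1)))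
      ≤ aN (fA ρ A) N M := by
  have hU := Ubar_pos (ρ := ρ) hA
  have hN' : (0 : ℝ) < N := by exact_mod_cast hN
  have hK : (1:ℝ) ≤ (N : ℝ) + 1 := by linarith
  have := second_moment_lower (fA_continuous ρ hA) hc hcpos (Yc N) M
    (fun _ => -(N : ℝ) * Real.log 2) (m := (A - mOf ρ) ^ M) (K := (N : ℝ) + 1) (by positivity) hK
    (first_moment hA hN) (second_moment_le hA hN hα hM hcond)
  rw [Real.log_pow] at this
  exact this

lemma tendsto_log_div : Tendsto (fun N : ℕ => Real.log (4 * ((N : ℝ) + 1)) / N) atTop (𝓝 0) := by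
  have h1 : Tendsto (fun N : ℕ => (N : ℝ) + 1) atTop atTop :=
    tendsto_atTop_add_const_right _ _ tendsto_natCast_atTop_atTop
  have h2 := (Real.tendsto_pow_log_div_mul_add_atTop 1 (-1) 1 one_ne_zero).comp h1
  have h3 : Tendsto (fun N : ℕ => Real.log 4 / (N : ℝ)) atTop (𝓝 0) :=
    tendsto_const_div_atTop_nhds_zero_nat _
  have h4 := h3.add h2
  rw [add_zero] at h4
  refine h4.congr' ?_
  filter_upwards [eventually_ge_atTop 1] with N hN
  have hN' : (0 : ℝ) < N := by exact_mod_cast hN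
  simp only [Function.comp]
  rw [Real.log_mul (by norm_num) (by positivity), add_div]
  congr 1
  simp

/-- The annealed formula under the second moment condition. -/
theorem annealed_limit (hA : ρ.real Set.univ < A) {α : ℝ} (hα : 0 < α)
    (hcond : ∀ R : ℝ, |R| ≤ 1 →
      α * Real.log (1 + psiR ρ R / (A - mOf ρ) ^ 2) ≤ rateJ R) :
    Tendsto (fun N : ℕ => expectedPressure (fA ρ A) α N) atTop
      (𝓝 (α * Real.log (A - mOf ρ))) := by
  set c : ℝ := |Real.log (A - ρ.real Set.univ)| + |Real.log (A + ρ.real Set.univ)| + 1 with hcdef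
  have hc : ∀ y, |fA ρ A y| ≤ c := fun y => by
    have := fA_abs_le ρ hA y
    rw [hcdef]
    linarith
  have hcpos : 0 < c := by
    rw [hcdef]
    positivity
  have hf := fA_continuous ρ hA
  set Lu := Real.log (A - mOf ρ) with hLu
  have hratio : Tendsto (fun N : ℕ => (⌊α * N⌋₊ : ℝ) / N) atTop (𝓝 α) :=
    (tendsto_nat_floor_mul_div_atTop hα.le).comp tendsto_natCast_atTop_atTop
  -- the error term
  set D : ℝ := 2 * ((α + 1) * c ^ 2) with hD
  have hD0 : 0 ≤ D := by positivity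
  have herr : Tendsto (fun N : ℕ => Real.sqrt (D * (Real.log (4 * ((N : ℝ) + 1)) / N))
      + Real.log 2 / N) atTop (𝓝 (Real.sqrt (D * 0) + 0)) := by
    refine Tendsto.add ?_ (tendsto_const_div_atTop_nhds_zero_nat _)
    exact Real.continuous_sqrt.continuousAt.tendsto.comp (tendsto_log_div.const_mul D)
  simp only [mul_zero, Real.sqrt_zero, add_zero] at herr
  have hup : Tendsto (fun N : ℕ => ((⌊α * N⌋₊ : ℝ) / N) * Lu) atTop (𝓝 (α * Lu)) :=
    hratio.mul_const _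
  have hlow : Tendsto (fun N : ℕ => ((⌊α * N⌋₊ : ℝ) / N) * Lu
      - (Real.sqrt (D * (Real.log (4 * ((N : ℝ) + 1)) / N)) + Real.log 2 / N)) atTop
      (𝓝 (α * Lu - 0)) := hup.sub herr
  rw [sub_zero] at hlow
  refine tendsto_of_tendsto_of_tendsto_of_le_of_le' hlow hup ?_ ?_
  · filter_upwards [eventually_ge_atTop 1] with N hN
    have hN0 : 0 < N := hN
    have hN' : (0 : ℝ) < N := by exact_mod_cast hN
    have hN1 : (1 : ℝ) ≤ N := by exact_mod_cast hN
    rw [expectedPressure_eq hf hc]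
    have hM : ((⌊α * N⌋₊ : ℕ) : ℝ) ≤ α * N := Nat.floor_le (by positivity)
    have h := aN_ge_annealed hA hN0 hα hM hcond hc hcpos
    have hlog0 : 0 ≤ Real.log (4 * ((N : ℝ) + 1)) :=
      Real.log_nonneg (by linarith)
    have hsq : Real.sqrt (2 * (((⌊α * N⌋₊ : ℝ) + 1) * c ^ 2) * Real.log (4 * ((N : ℝ) + 1)))
        ≤ Real.sqrt (D * (Real.log (4 * ((N : ℝ) + 1)) / N)) * N := by
      have hx : 0 ≤ D * (Real.log (4 * ((N : ℝ) + 1)) / N) :=
        mul_nonneg hD0 (div_nonneg hlog0 hN'.le)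
      have e0 : Real.sqrt (D * (Real.log (4 * ((N : ℝ) + 1)) / N)) * N
          = Real.sqrt (D * (Real.log (4 * ((N : ℝ) + 1)) / N) * (N : ℝ) ^ 2) := by
        rw [Real.sqrt_mul hx, Real.sqrt_sq hN'.le]
      rw [e0]
      apply Real.sqrt_le_sqrt
      have e1 : D * (Real.log (4 * ((N : ℝ) + 1)) / N) * (N : ℝ) ^ 2
          = 2 * (((α + 1) * N) * c ^ 2) * Real.log (4 * ((N : ℝ) + 1)) := by
        rw [hD]
        field_simp
      rw [e1]
      have hM1 : (⌊α * N⌋₊ : ℝ) + 1 ≤ (α + 1) * N := by nlinarith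
      gcongr
    have hmain : ((⌊α * N⌋₊ : ℝ) / N) * Lu
        - (Real.sqrt (D * (Real.log (4 * ((N : ℝ) + 1)) / N)) + Real.log 2 / N)
        ≤ (1 / (N : ℝ)) * aN (fA ρ A) N ⌊α * N⌋₊ := by
      have h2 := mul_le_mul_of_nonneg_left (h.trans' (by
        have : (⌊α * N⌋₊ : ℝ) * Lu - Real.log 2
            - Real.sqrt (D * (Real.log (4 * ((N : ℝ) + 1)) / N)) * N
            ≤ (⌊α * N⌋₊ : ℝ) * Lu - Real.log 2
            - Real.sqrt (2 * (((⌊α * N⌋₊ : ℝ) + 1) * c ^ 2) * Real.log (4 * ((N : ℝ) + 1))) := by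
          linarith
        exact this)) (by positivity : 0 ≤ 1 / (N : ℝ))
      refine le_trans (le_of_eq ?_) h2
      field_simp
      ring
    exact hmain
  · filter_upwards [eventually_ge_atTop 1] with N hN
    have hN0 : 0 < N := hN
    have hN' : (0 : ℝ) < N := by exact_mod_cast hN
    rw [expectedPressure_eq hf hc]
    have h := aN_le_annealed hA hN0 ⌊α * N⌋₊
    have h2 := mul_le_mul_of_nonneg_left h (by positivity : 0 ≤ 1 / (N : ℝ))
    have e5 : 1 / (N : ℝ) * ((⌊α * N⌋₊ : ℝ) * Real.log (A - mOf ρ))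
        = (⌊α * N⌋₊ : ℝ) / N * Lu := by
      rw [hLu]
      ring
    exact h2.trans e5.le

/-- The second Gaussian moment of the spectral measure. -/
noncomputable def aTwo (ρ : Measure ℝ) : ℝ := ∫ ξ, ξ ^ 2 * Real.exp (-(ξ ^ 2) / 2) ∂ρ

lemma sq_exp_le (x : ℝ) : x ^ 2 * Real.exp (-(x ^ 2) / 2) ≤ 2 := by
  have h := Real.add_one_le_exp (x ^ 2 / 2)
  have e : Real.exp (-(x ^ 2) / 2) = (Real.exp (x ^ 2 / 2))⁻¹ := by
    rw [← Real.exp_neg]
    congr 1
    ring
  rw [e, ← div_eq_mul_inv, div_le_iff₀ (Real.exp_pos _)]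
  nlinarith [sq_nonneg x]

lemma aTwo_term_integrable : Integrable (fun ξ : ℝ => ξ ^ 2 * Real.exp (-(ξ ^ 2) / 2)) ρ := by
  refine Integrable.of_bound (C := 2) (Continuous.aestronglyMeasurable (by fun_prop))
    (Filter.Eventually.of_forall fun ξ => ?_)
  rw [Real.norm_eq_abs, abs_of_nonneg (by positivity)]
  exact sq_exp_le ξ

lemma aTwo_sq : aTwo ρ ^ 2 = ∫ p : ℝ × ℝ, Real.exp (-(p.1 ^ 2 + p.2 ^ 2) / 2) * (p.1 * p.2) ^ 2
    ∂(ρ.prod ρ) := by
  have h := integral_prod_mul (μ := ρ) (ν := ρ) (fun ξ => ξ ^ 2 * Real.exp (-(ξ ^ 2) / 2))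
    (fun ξ => ξ ^ 2 * Real.exp (-(ξ ^ 2) / 2))
  unfold aTwo
  rw [sq, ← h]
  refine integral_congr_ae (Filter.Eventually.of_forall fun p => ?_)
  simp only
  have : Real.exp (-(p.1 ^ 2 + p.2 ^ 2) / 2)
      = Real.exp (-(p.1 ^ 2) / 2) * Real.exp (-(p.2 ^ 2) / 2) := by
    rw [← Real.exp_add]
    congr 1
    ring
  rw [this]
  ring

lemma rateJ_nonneg (R : ℝ) : 0 ≤ rateJ R := by
  unfold rateJ
  linarith [Real.binEntropy_le_log_two (p := (1 + R) / 2)]

/-- The overlap function is dominated by the rate function for small spectral support. -/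
lemma psiR_le (hρ : ∀ᵐ ξ ∂ρ, ξ ^ 4 ≤ 2) {R : ℝ} (hR : |R| ≤ 1) :
    psiR ρ R ≤ aTwo ρ ^ 2 * rateJ R := by
  rw [aTwo_sq, ← integral_mul_const]
  unfold psiR
  have hi1 : Integrable (fun p : ℝ × ℝ =>
      Real.exp (-(p.1 ^ 2 + p.2 ^ 2) / 2) * (Real.cosh (p.1 * p.2 * R) - 1)) (ρ.prod ρ) := by
    have := (gc_integrable ρ hR).sub (g0_integrable ρ)
    refine this.congr (Filter.Eventually.of_forall fun p => ?_)
    simp only [Pi.sub_apply]
    ring
  have hi2 : Integrable (fun p : ℝ × ℝ =>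
      Real.exp (-(p.1 ^ 2 + p.2 ^ 2) / 2) * (p.1 * p.2) ^ 2 * rateJ R) (ρ.prod ρ) := by
    refine Integrable.mul_const ?_ _
    refine Integrable.of_bound (C := 4) (Continuous.aestronglyMeasurable (by fun_prop))
      (Filter.Eventually.of_forall fun p => ?_)
    rw [Real.norm_eq_abs, abs_of_nonneg (by positivity)]
    have h1 := sq_exp_le p.1
    have h2 := sq_exp_le p.2
    have e : Real.exp (-(p.1 ^ 2 + p.2 ^ 2) / 2) * (p.1 * p.2) ^ 2
        = (p.1 ^ 2 * Real.exp (-(p.1 ^ 2) / 2)) * (p.2 ^ 2 * Real.exp (-(p.2 ^ 2) / 2)) := by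
      have : Real.exp (-(p.1 ^ 2 + p.2 ^ 2) / 2)
          = Real.exp (-(p.1 ^ 2) / 2) * Real.exp (-(p.2 ^ 2) / 2) := by
        rw [← Real.exp_add]
        congr 1
        ring
      rw [this]
      ring
    rw [e]
    calc _ ≤ (2:ℝ) * 2 := mul_le_mul h1 h2 (by positivity) (by norm_num)
      _ = 4 := by norm_num
  refine integral_mono_ae hi1 hi2 ?_
  have h1 : ∀ᵐ p ∂(ρ.prod ρ), p.1 ^ 4 ≤ 2 := Measure.quasiMeasurePreserving_fst.ae hρ
  have h2 : ∀ᵐ p ∂(ρ.prod ρ), p.2 ^ 4 ≤ 2 := Measure.quasiMeasurePreserving_snd.ae hρ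
  filter_upwards [h1, h2] with p hp1 hp2
  have ht : (p.1 * p.2) ^ 2 ≤ 2 := by
    have e1 : ((p.1 * p.2) ^ 2) ^ 2 = p.1 ^ 4 * p.2 ^ 4 := by ring
    have e2 : ((p.1 * p.2) ^ 2) ^ 2 ≤ 2 ^ 2 := by
      rw [e1]
      calc p.1 ^ 4 * p.2 ^ 4 ≤ 2 * 2 := mul_le_mul hp1 hp2 (by positivity) (by norm_num)
        _ = 2 ^ 2 := by norm_num
    exact abs_le_of_sq_le_sq' e2 (by norm_num) |>.2
  have := cosh_sub_one_le_rate ht hR
  have e6 : Real.exp (-(p.1 ^ 2 + p.2 ^ 2) / 2) * (p.1 * p.2) ^ 2 * rateJ R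
      = Real.exp (-(p.1 ^ 2 + p.2 ^ 2) / 2) * ((p.1 * p.2) ^ 2 * rateJ R) := by ring
  rw [e6]
  exact mul_le_mul_of_nonneg_left this (Real.exp_pos _).le

/-- The annealed formula below the threshold for small spectral support. -/
theorem annealed_below (hA : ρ.real Set.univ < A) {α : ℝ} (hα : 0 < α)
    (hρ : ∀ᵐ ξ ∂ρ, ξ ^ 4 ≤ 2) (hth : α * aTwo ρ ^ 2 ≤ (A - mOf ρ) ^ 2) :
    Tendsto (fun N : ℕ => expectedPressure (fA ρ A) α N) atTop
      (𝓝 (α * Real.log (A - mOf ρ))) := by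
  refine annealed_limit hA hα fun R hR => ?_
  have hU := Ubar_pos (ρ := ρ) hA
  have hU2 : 0 < (A - mOf ρ) ^ 2 := by positivity
  have h1 : Real.log (1 + psiR ρ R / (A - mOf ρ) ^ 2) ≤ psiR ρ R / (A - mOf ρ) ^ 2 := by
    have h0 : 0 ≤ psiR ρ R / (A - mOf ρ) ^ 2 := div_nonneg (psiR_nonneg ρ R) hU2.le
    have := Real.log_le_sub_one_of_pos (by linarith : 0 < 1 + psiR ρ R / (A - mOf ρ) ^ 2)
    linarith
  have h2 := psiR_le hρ hR
  have hJ := rateJ_nonneg R
  calc α * Real.log (1 + psiR ρ R / (A - mOf ρ) ^ 2)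
      ≤ α * (psiR ρ R / (A - mOf ρ) ^ 2) := mul_le_mul_of_nonneg_left h1 hα.le
    _ ≤ α * ((aTwo ρ ^ 2 * rateJ R) / (A - mOf ρ) ^ 2) := by
        refine mul_le_mul_of_nonneg_left ?_ hα.le
        exact div_le_div_of_nonneg_right h2 hU2.le
    _ = (α * aTwo ρ ^ 2 / (A - mOf ρ) ^ 2) * rateJ R := by ring
    _ ≤ 1 * rateJ R := by
        refine mul_le_mul_of_nonneg_right ?_ hJ
        rw [div_le_one hU2]
        exact hth
    _ = rateJ R := one_mul _

end Vale.Agent.Lib.P157
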