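import Vale.Agent.Lib.P157.Cube

open MeasureTheory ProbabilityTheory Real Filter Topology

namespace Vale.Agent.Lib.P157

variable {S : Type*} [Fintype S] [Nonempty S] {κ : Type*} [Fintype κ]

/-- The log partition function of a pattern array, from the starting weights `v`. -/
noncomputable def Fz (f : ℝ → ℝ) (e : S → κ → ℝ) (v : S → ℝ) {M : ℕ} (g : Fin M → κ → ℝ) : ℝ :=
  LS (fun x => v x + ∑ a, f (∑ k, g a k * e x k))

omit [Nonempty S] in
lemma sum_f_abs_le {f : ℝ → ℝ} {c : ℝ} (hc : ∀ y, |f y| ≤ c) (e : S → κ → ℝ) {M : ℕ}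
    (g : Fin M → κ → ℝ) (x : S) : |∑ a, f (∑ k, g a k * e x k)| ≤ M * c := by
  calc |∑ a, f (∑ k, g a k * e x k)| ≤ ∑ a, |f (∑ k, g a k * e x k)| :=
        Finset.abs_sum_le_sum_abs _ _
    _ ≤ ∑ _a : Fin M, c := Finset.sum_le_sum fun a _ => hc _
    _ = M * c := by simp

lemma Fz_abs_sub_le {f : ℝ → ℝ} {c : ℝ} (hc : ∀ y, |f y| ≤ c) (e : S → κ → ℝ) (v : S → ℝ)
    {M : ℕ} (g : Fin M → κ → ℝ) : |Fz f e v g - LS v| ≤ M * c := by
  refine LS_isL1 _ _ _ fun x => ?_
  simpa using sum_f_abs_le hc e g x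

lemma Fz_continuous {f : ℝ → ℝ} (hf : Continuous f) (e : S → κ → ℝ) (v : S → ℝ) (M : ℕ) :
    Continuous (fun g : Fin M → κ → ℝ => Fz f e v g) := by
  refine (LS_isL1 (S := S)).continuous.comp ?_
  refine continuous_pi fun x => continuous_const.add ?_
  refine continuous_finsetSum _ fun a _ => hf.comp ?_
  fun_prop

lemma exp_Fz_integrable {f : ℝ → ℝ} (hf : Continuous f) {c : ℝ} (hc : ∀ y, |f y| ≤ c)
    (e : S → κ → ℝ) (v : S → ℝ) (M : ℕ) (s : ℝ) :
    Integrable (fun g : Fin M → κ → ℝ => Real.exp (s * Fz f e v g))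
      (Measure.pi fun _ => stdG κ) := by
  refine Integrable.of_bound (C := Real.exp (|s| * (|LS v| + M * c))) ?_ ?_
  · exact (Real.continuous_exp.comp (continuous_const.mul (Fz_continuous hf e v M))).aestronglyMeasurable
  · refine Filter.Eventually.of_forall fun g => ?_
    rw [Real.norm_eq_abs, abs_of_pos (Real.exp_pos _)]
    apply Real.exp_le_exp.2
    have h1 := Fz_abs_sub_le hc e v g
    have h2 : |Fz f e v g| ≤ |LS v| + M * c := by
      have := abs_sub_abs_le_abs_sub (Fz f e v g) (LS v)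
      linarith
    calc s * Fz f e v g ≤ |s * Fz f e v g| := le_abs_self _
      _ = |s| * |Fz f e v g| := abs_mul _ _
      _ ≤ _ := mul_le_mul_of_nonneg_left h2 (abs_nonneg _)

/-- Splitting off the first pattern in the exponential moment. -/
lemma exp_Fz_split {f : ℝ → ℝ} (hf : Continuous f) {c : ℝ} (hc : ∀ y, |f y| ≤ c)
    (e : S → κ → ℝ) (v : S → ℝ) (M : ℕ) (s : ℝ) :
    Integrable (fun g₀ : κ → ℝ => ∫ g' : Fin M → κ → ℝ,
        Real.exp (s * Fz f e (fun x => v x + f (∑ k, g₀ k * e x k)) g')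
          ∂(Measure.pi fun _ => stdG κ)) (stdG κ) ∧
    ∫ g : Fin (M + 1) → κ → ℝ, Real.exp (s * Fz f e v g) ∂(Measure.pi fun _ => stdG κ)
      = ∫ g₀ : κ → ℝ, ∫ g' : Fin M → κ → ℝ,
          Real.exp (s * Fz f e (fun x => v x + f (∑ k, g₀ k * e x k)) g')
            ∂(Measure.pi fun _ => stdG κ) ∂(stdG κ) := by
  have hc0 : 0 ≤ c := le_trans (abs_nonneg _) (hc 0)
  have hcont : Continuous (fun p : (κ → ℝ) × (Fin M → κ → ℝ) =>
      Real.exp (s * LS (fun x => v x + (f (∑ k, p.1 k * e x k)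
        + ∑ a : Fin M, f (∑ k, p.2 a k * e x k))))) := by
    refine Real.continuous_exp.comp (continuous_const.mul ?_)
    refine (LS_isL1 (S := S)).continuous.comp ?_
    refine continuous_pi fun x => continuous_const.add (Continuous.add (hf.comp ?_) ?_)
    · fun_prop
    · refine continuous_finsetSum _ fun a _ => hf.comp ?_
      fun_prop
  have hint : Integrable (fun p : (κ → ℝ) × (Fin M → κ → ℝ) =>
      Real.exp (s * LS (fun x => v x + (f (∑ k, p.1 k * e x k)
        + ∑ a : Fin M, f (∑ k, p.2 a k * e x k)))))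
      ((stdG κ).prod (Measure.pi fun _ : Fin M => stdG κ)) := by
    refine Integrable.of_bound hcont.aestronglyMeasurable
      (Real.exp (|s| * (|LS v| + (M + 1) * c))) (Filter.Eventually.of_forall fun p => ?_)
    rw [Real.norm_eq_abs, abs_of_pos (Real.exp_pos _)]
    apply Real.exp_le_exp.2
    have h1 := LS_isL1 (fun x => v x + (f (∑ k, p.1 k * e x k)
      + ∑ a : Fin M, f (∑ k, p.2 a k * e x k))) v ((M + 1) * c) (fun x => by
        have h2 : |f (∑ k, p.1 k * e x k) + ∑ a : Fin M, f (∑ k, p.2 a k * e x k)|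
            ≤ (M + 1) * c := by
          calc _ ≤ |f (∑ k, p.1 k * e x k)| + |∑ a : Fin M, f (∑ k, p.2 a k * e x k)| :=
                abs_add_le _ _
            _ ≤ c + M * c := add_le_add (hc _) (sum_f_abs_le hc e p.2 x)
            _ = (M + 1) * c := by ring
        simpa using h2)
    have h3 := abs_sub_abs_le_abs_sub (LS (fun x => v x + (f (∑ k, p.1 k * e x k)
      + ∑ a : Fin M, f (∑ k, p.2 a k * e x k)))) (LS v)
    have h4 : |LS (fun x => v x + (f (∑ k, p.1 k * e x k)
      + ∑ a : Fin M, f (∑ k, p.2 a k * e x k)))| ≤ |LS v| + (M + 1) * c := by linarith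
    calc _ ≤ |s * LS (fun x => v x + (f (∑ k, p.1 k * e x k)
          + ∑ a : Fin M, f (∑ k, p.2 a k * e x k)))| := le_abs_self _
      _ = |s| * |LS (fun x => v x + (f (∑ k, p.1 k * e x k)
          + ∑ a : Fin M, f (∑ k, p.2 a k * e x k)))| := abs_mul _ _
      _ ≤ _ := mul_le_mul_of_nonneg_left h4 (abs_nonneg _)
  have hassoc : ∀ (g₀ : κ → ℝ) (g' : Fin M → κ → ℝ),
      Real.exp (s * Fz f e (fun x => v x + f (∑ k, g₀ k * e x k)) g')
        = Real.exp (s * LS (fun x => v x + (f (∑ k, g₀ k * e x k)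
          + ∑ a : Fin M, f (∑ k, g' a k * e x k)))) := by
    intro g₀ g'
    unfold Fz
    congr 3
    funext x
    ring
  constructor
  · have := hint.integral_prod_left
    refine this.congr (Filter.Eventually.of_forall fun g₀ => ?_)
    refine integral_congr_ae (Filter.Eventually.of_forall fun g' => ?_)
    exact (hassoc g₀ g').symm
  · rw [← ((measurePreserving_piFinSuccAbove (fun _ : Fin (M + 1) => stdG κ) 0).symm).integral_comp']
    simp_rw [MeasurableEquiv.piFinSuccAbove_symm_apply, Fin.insertNthEquiv]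
    simp only [Equiv.coe_fn_mk, Fz, Fin.sum_univ_succ, Fin.insertNth_zero, Fin.cons_zero,
      Fin.cons_succ, cast_eq]
    rw [integral_prod _ hint]
    refine integral_congr_ae (Filter.Eventually.of_forall fun g₀ => ?_)
    refine integral_congr_ae (Filter.Eventually.of_forall fun g' => ?_)
    have := hassoc g₀ g'
    simpa [Fz] using this.symm

/-- Hoeffding's lemma applied to one pattern. -/
lemma hoeffding_step {f : ℝ → ℝ} (hf : Continuous f) {c : ℝ} (hc : ∀ y, |f y| ≤ c)
    (e : S → κ → ℝ) {H : (S → ℝ) → ℝ} (hH : IsL1 H) (v : S → ℝ) (s : ℝ) :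
    ∫ g₀ : κ → ℝ, Real.exp (s * H (fun x => v x + f (∑ k, g₀ k * e x k))) ∂(stdG κ)
      ≤ Real.exp (s * op f e H v + s ^ 2 * c ^ 2 / 2) := by
  have hc0 : 0 ≤ c := le_trans (abs_nonneg _) (hc 0)
  set m := op f e H v with hm
  let X : (κ → ℝ) → ℝ := fun g₀ => H (fun x => v x + f (∑ k, g₀ k * e x k)) - m
  have hXc : Continuous X := (op_integrand_continuous hf hc hH e v).sub continuous_const
  have hb : ∀ᵐ g ∂(stdG κ), X g ∈ Set.Icc (H v - c - m) (H v + c - m) := by
    refine Filter.Eventually.of_forall fun g => ?_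
    have := abs_le.1 (op_integrand_bound hf hc hH e v g)
    constructor <;> simp only [X] <;> linarith [this.1, this.2]
  have hX0 : (stdG κ)[X] = 0 := by
    simp only [X]
    rw [integral_sub (op_integrable hf hc hH e v) (integrable_const _)]
    simp [hm, op]
  have hsub := hasSubgaussianMGF_of_mem_Icc_of_integral_eq_zero (μ := stdG κ)
    hXc.aemeasurable hb hX0
  have hmgf := hsub.mgf_le s
  have e1 : (((‖(H v + c - m) - (H v - c - m)‖₊ / 2) ^ 2 : NNReal) : ℝ) = c ^ 2 := by
    have e2 : (H v + c - m) - (H v - c - m) = 2 * c := by ring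
    rw [e2]
    push_cast
    rw [Real.norm_of_nonneg (by positivity)]
    ring
  rw [e1] at hmgf
  have e3 : ∀ g₀ : κ → ℝ, Real.exp (s * H (fun x => v x + f (∑ k, g₀ k * e x k)))
      = Real.exp (s * m) * Real.exp (s * X g₀) := by
    intro g₀
    rw [← Real.exp_add]
    congr 1
    simp only [X]
    ring
  simp_rw [e3]
  rw [integral_const_mul, Real.exp_add]
  refine mul_le_mul_of_nonneg_left ?_ (Real.exp_pos _).le
  have e4 : c ^ 2 * s ^ 2 / 2 = s ^ 2 * c ^ 2 / 2 := by ring
  rw [← e4]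
  exact hmgf

/-- The sub-Gaussian moment bound for the log partition function. -/
theorem mgf_Fz_le {f : ℝ → ℝ} (hf : Continuous f) {c : ℝ} (hc : ∀ y, |f y| ≤ c)
    (e : S → κ → ℝ) (s : ℝ) (M : ℕ) (v : S → ℝ) :
    ∫ g : Fin M → κ → ℝ, Real.exp (s * Fz f e v g) ∂(Measure.pi fun _ => stdG κ)
      ≤ Real.exp (s * (op f e)^[M] LS v + M * (s ^ 2 * c ^ 2 / 2)) := by
  induction M generalizing v with
  | zero =>
    simp [Fz]
  | succ M ih =>
    obtain ⟨hint, hsplit⟩ := exp_Fz_split hf hc e v M s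
    rw [hsplit, Function.iterate_succ_apply']
    have hH : IsL1 ((op f e)^[M] LS) := iter_isL1 hf hc e LS_isL1 M
    have hHint : Integrable (fun g₀ : κ → ℝ =>
        Real.exp (M * (s ^ 2 * c ^ 2 / 2)) *
          Real.exp (s * (op f e)^[M] LS (fun x => v x + f (∑ k, g₀ k * e x k)))) (stdG κ) := by
      refine Integrable.const_mul ?_ _
      refine Integrable.of_bound (C := Real.exp (|s| * (|(op f e)^[M] LS v| + c))) ?_ ?_
      · exact (Real.continuous_exp.comp (continuous_const.mul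
          (op_integrand_continuous hf hc hH e v))).aestronglyMeasurable
      · refine Filter.Eventually.of_forall fun g => ?_
        rw [Real.norm_eq_abs, abs_of_pos (Real.exp_pos _)]
        apply Real.exp_le_exp.2
        have h1 := op_integrand_bound hf hc hH e v g
        have h2 := abs_sub_abs_le_abs_sub
          ((op f e)^[M] LS (fun x => v x + f (∑ k, g k * e x k))) ((op f e)^[M] LS v)
        have h3 : |(op f e)^[M] LS (fun x => v x + f (∑ k, g k * e x k))|
            ≤ |(op f e)^[M] LS v| + c := by linarith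
        calc _ ≤ |s * (op f e)^[M] LS (fun x => v x + f (∑ k, g k * e x k))| := le_abs_self _
          _ = |s| * |(op f e)^[M] LS (fun x => v x + f (∑ k, g k * e x k))| := abs_mul _ _
          _ ≤ _ := mul_le_mul_of_nonneg_left h3 (abs_nonneg _)
    calc ∫ g₀ : κ → ℝ, ∫ g' : Fin M → κ → ℝ,
            Real.exp (s * Fz f e (fun x => v x + f (∑ k, g₀ k * e x k)) g')
              ∂(Measure.pi fun _ => stdG κ) ∂(stdG κ)
        ≤ ∫ g₀ : κ → ℝ, Real.exp (M * (s ^ 2 * c ^ 2 / 2)) *
            Real.exp (s * (op f e)^[M] LS (fun x => v x + f (∑ k, g₀ k * e x k))) ∂(stdG κ) := by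
          refine integral_mono hint hHint fun g₀ => ?_
          refine (ih _).trans (le_of_eq ?_)
          rw [← Real.exp_add]
          congr 1
          ring
      _ = Real.exp (M * (s ^ 2 * c ^ 2 / 2)) * ∫ g₀ : κ → ℝ,
            Real.exp (s * (op f e)^[M] LS (fun x => v x + f (∑ k, g₀ k * e x k))) ∂(stdG κ) :=
          integral_const_mul _ _
      _ ≤ Real.exp (M * (s ^ 2 * c ^ 2 / 2)) *
            Real.exp (s * op f e ((op f e)^[M] LS) v + s ^ 2 * c ^ 2 / 2) :=
          mul_le_mul_of_nonneg_left (hoeffding_step hf hc e hH v s) (Real.exp_pos _).le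
      _ = _ := by
          rw [← Real.exp_add]
          congr 1
          push_cast
          ring

/-- From a second moment bound to a lower bound on the expected log partition function. -/
theorem second_moment_lower {f : ℝ → ℝ} (hf : Continuous f) {c : ℝ} (hc : ∀ y, |f y| ≤ c)
    (hcpos : 0 < c) (e : S → κ → ℝ) (M : ℕ) (v : S → ℝ) {m K : ℝ} (hm : 0 < m) (hK : 1 ≤ K)
    (h1 : ∫ g : Fin M → κ → ℝ, Real.exp (1 * Fz f e v g) ∂(Measure.pi fun _ => stdG κ) = m)
    (h2 : ∫ g : Fin M → κ → ℝ, Real.exp (2 * Fz f e v g) ∂(Measure.pi fun _ => stdG κ)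
      ≤ K * m ^ 2) :
    Real.log m - Real.log 2 - Real.sqrt (2 * ((M + 1) * c ^ 2) * Real.log (4 * K))
      ≤ (op f e)^[M] LS v := by
  set μ := (op f e)^[M] LS v with hμ
  set D : ℝ := (M + 1) * c ^ 2 with hD
  have hDpos : 0 < D := by positivity
  have hlogK : 0 < Real.log (4 * K) := Real.log_pos (by linarith)
  set t : ℝ := Real.sqrt (2 * D * Real.log (4 * K)) with ht
  have ht0 : 0 ≤ t := Real.sqrt_nonneg _
  have ht2 : t ^ 2 = 2 * D * Real.log (4 * K) := Real.sq_sqrt (by positivity)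
  set lam : ℝ := t / (2 * D) with hlam
  have hlam0 : 0 ≤ lam := by positivity
  set σ : ℝ := 2 * lam with hσ
  set P := (Measure.pi fun _ : Fin M => stdG κ) with hP
  -- the pointwise inequality
  have hs : 0 < 1 / (2 * K * m) := by positivity
  set s₀ : ℝ := 1 / (2 * K * m) with hs₀
  let E : (Fin M → κ → ℝ) → ℝ := fun g => Real.exp (lam * (Fz f e v g - μ - t))
  have hpt : ∀ g : Fin M → κ → ℝ, Real.exp (1 * Fz f e v g)
      ≤ Real.exp (μ + t) + (s₀ / 2 * Real.exp (2 * Fz f e v g)
        + 1 / (2 * s₀) * Real.exp (-(σ * (μ + t))) * Real.exp (σ * Fz f e v g)) := by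
    intro g
    set F := Fz f e v g with hF
    have hE2 : Real.exp (-(σ * (μ + t))) * Real.exp (σ * F)
        = Real.exp (lam * (F - μ - t)) ^ 2 := by
      rw [← Real.exp_add, ← Real.exp_nat_mul]
      congr 1
      rw [hσ]
      push_cast
      ring
    have hZ2 : Real.exp (2 * F) = Real.exp F ^ 2 := by
      rw [← Real.exp_nat_mul]
      push_cast
      ring_nf
    rw [mul_assoc, hE2, hZ2, one_mul]
    set Z := Real.exp F with hZ
    set Ee := Real.exp (lam * (F - μ - t)) with hEe
    have hZ0 : 0 < Z := Real.exp_pos _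
    have hEe0 : 0 < Ee := Real.exp_pos _
    have hmain : Z ≤ Real.exp (μ + t) + Z * Ee := by
      rcases le_or_gt F (μ + t) with h | h
      · have : Z ≤ Real.exp (μ + t) := Real.exp_le_exp.2 h
        have : 0 ≤ Z * Ee := by positivity
        linarith
      · have h1 : 1 ≤ Ee := by
          rw [hEe]
          apply Real.one_le_exp
          exact mul_nonneg hlam0 (by linarith)
        have : Z ≤ Z * Ee := le_mul_of_one_le_right hZ0.le h1
        have : 0 < Real.exp (μ + t) := Real.exp_pos _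
        linarith
    have hamgm : Z * Ee ≤ s₀ / 2 * Z ^ 2 + 1 / (2 * s₀) * Ee ^ 2 := by
      have h0 : 0 ≤ (s₀ * Z - Ee) ^ 2 / (2 * s₀) := by positivity
      have e1 : (s₀ * Z - Ee) ^ 2 / (2 * s₀) = s₀ / 2 * Z ^ 2 + 1 / (2 * s₀) * Ee ^ 2 - Z * Ee := by
        field_simp
        ring
      linarith
    linarith
  -- integrating
  have hi1 := exp_Fz_integrable hf hc e v M 1
  have hi2 := exp_Fz_integrable hf hc e v M 2
  have hiσ := exp_Fz_integrable hf hc e v M σ
  have hi3 : Integrable (fun g => s₀ / 2 * Real.exp (2 * Fz f e v g)) P := hi2.const_mul _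
  have hi4 : Integrable (fun g => 1 / (2 * s₀) * Real.exp (-(σ * (μ + t)))
      * Real.exp (σ * Fz f e v g)) P := hiσ.const_mul _
  have hi5 : Integrable (fun g => s₀ / 2 * Real.exp (2 * Fz f e v g)
      + 1 / (2 * s₀) * Real.exp (-(σ * (μ + t))) * Real.exp (σ * Fz f e v g)) P := hi3.add hi4
  have hint : ∫ g, Real.exp (1 * Fz f e v g) ∂P
      ≤ ∫ g, (Real.exp (μ + t) + (s₀ / 2 * Real.exp (2 * Fz f e v g)
        + 1 / (2 * s₀) * Real.exp (-(σ * (μ + t))) * Real.exp (σ * Fz f e v g))) ∂P :=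
    integral_mono hi1 ((integrable_const _).add hi5) hpt
  rw [integral_add (integrable_const _) hi5,
    integral_add hi3 hi4, integral_const_mul, integral_const_mul,
    integral_const, h1] at hint
  have hPuniv : P.real Set.univ = 1 := by
    rw [hP]
    simp
  rw [hPuniv] at hint
  simp only [smul_eq_mul, one_mul] at hint
  have hmgf := mgf_Fz_le hf hc e σ M v
  rw [← hμ] at hmgf
  -- estimates of the two error terms
  have herr1 : s₀ / 2 * ∫ g, Real.exp (2 * Fz f e v g) ∂P ≤ m / 4 := by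
    have := mul_le_mul_of_nonneg_left h2 (by positivity : 0 ≤ s₀ / 2)
    refine this.trans (le_of_eq ?_)
    rw [hs₀]
    field_simp
    ring
  have herr2 : 1 / (2 * s₀) * Real.exp (-(σ * (μ + t))) * ∫ g, Real.exp (σ * Fz f e v g) ∂P
      ≤ m / 4 := by
    have h3 : Real.exp (-(σ * (μ + t))) * ∫ g, Real.exp (σ * Fz f e v g) ∂P
        ≤ Real.exp (-(σ * (μ + t))) * Real.exp (σ * μ + M * (σ ^ 2 * c ^ 2 / 2)) :=
      mul_le_mul_of_nonneg_left hmgf (Real.exp_pos _).le
    have h4 : Real.exp (-(σ * (μ + t))) * Real.exp (σ * μ + M * (σ ^ 2 * c ^ 2 / 2))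
        ≤ Real.exp (-Real.log (4 * K)) := by
      rw [← Real.exp_add]
      apply Real.exp_le_exp.2
      have e1 : -(σ * (μ + t)) + (σ * μ + M * (σ ^ 2 * c ^ 2 / 2))
          = M * (σ ^ 2 * c ^ 2 / 2) - σ * t := by ring
      rw [e1]
      have e2 : (M:ℝ) * (σ ^ 2 * c ^ 2 / 2) ≤ D * σ ^ 2 / 2 := by
        rw [hD]
        have : 0 ≤ c ^ 2 * σ ^ 2 / 2 := by positivity
        nlinarith
      have e3 : D * σ ^ 2 / 2 - σ * t = - t ^ 2 / (2 * D) := by
        rw [hσ, hlam]
        field_simp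
        ring
      have e4 : - t ^ 2 / (2 * D) = -Real.log (4 * K) := by
        rw [ht2]
        field_simp
      linarith
    have h5 : Real.exp (-Real.log (4 * K)) = 1 / (4 * K) := by
      rw [Real.exp_neg, Real.exp_log (by linarith), one_div]
    rw [h5] at h4
    have h6 := h3.trans h4
    have h7 : 0 ≤ 1 / (2 * s₀) := by positivity
    have h8 := mul_le_mul_of_nonneg_left h6 h7
    rw [mul_assoc]
    refine h8.trans (le_of_eq ?_)
    rw [hs₀]
    field_simp
  have hfinal : m / 2 ≤ Real.exp (μ + t) := by linarith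
  have hlog := Real.log_le_log (by positivity) hfinal
  rw [Real.log_exp, Real.log_div hm.ne' (by norm_num)] at hlog
  linarith

end Vale.Agent.Lib.P157
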