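import Mathlib

open MeasureTheory ProbabilityTheory Real Filter Topology

namespace Vale.Agent.Lib.P157

/-- The standard Gaussian product measure. -/
noncomputable abbrev stdG (κ : Type*) [Fintype κ] : Measure (κ → ℝ) :=
  Measure.pi fun _ : κ => gaussianReal 0 1

instance stdG_isProb (κ : Type*) [Fintype κ] : IsProbabilityMeasure (stdG κ) := by
  unfold stdG; infer_instance

lemma integral_cos_dot {κ : Type*} [Fintype κ] (d : κ → ℝ) :
    ∫ g : κ → ℝ, Real.cos (∑ k, g k * d k) ∂(stdG κ) = Real.exp (-(∑ k, d k ^ 2) / 2) := by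
  have h1 : ∀ g : κ → ℝ, Complex.exp (((∑ k, g k * d k : ℝ) : ℂ) * Complex.I)
      = ∏ k, Complex.exp ((d k : ℂ) * (g k : ℂ) * Complex.I) := by
    intro g
    rw [← Complex.exp_sum]
    congr 1
    push_cast
    rw [Finset.sum_mul]
    refine Finset.sum_congr rfl fun k _ => ?_
    ring
  have h2 : ∫ g : κ → ℝ, Complex.exp (((∑ k, g k * d k : ℝ) : ℂ) * Complex.I) ∂(stdG κ)
      = ∏ k, Complex.exp (-(((d k ^ 2 : ℝ) : ℂ)) / 2) := by
    simp_rw [h1]
    rw [integral_fintype_prod_eq_prod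
      (f := fun k (x : ℝ) => Complex.exp ((d k : ℂ) * (x : ℂ) * Complex.I))]
    refine Finset.prod_congr rfl fun k _ => ?_
    have := charFun_gaussianReal (μ := 0) (v := 1) (d k)
    rw [charFun_apply_real] at this
    rw [this]
    congr 1
    push_cast
    simp
    ring
  have hint : Integrable (fun g : κ → ℝ => Complex.exp (((∑ k, g k * d k : ℝ) : ℂ) * Complex.I))
      (stdG κ) := by
    refine Integrable.of_bound ?_ 1 ?_
    · apply Continuous.aestronglyMeasurable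
      fun_prop
    · refine Filter.Eventually.of_forall fun g => ?_
      rw [Complex.norm_exp_ofReal_mul_I]
  have h3 : ∫ g : κ → ℝ, Real.cos (∑ k, g k * d k) ∂(stdG κ)
      = (∫ g : κ → ℝ, Complex.exp (((∑ k, g k * d k : ℝ) : ℂ) * Complex.I) ∂(stdG κ)).re := by
    have := Complex.reCLM.integral_comp_comm hint
    simp only [Complex.reCLM_apply] at this
    rw [← this]
    congr 1
    funext g
    rw [Complex.exp_ofReal_mul_I_re]
  rw [h3, h2, ← Complex.exp_sum]
  have h4 : ∑ k, -(((d k ^ 2 : ℝ) : ℂ)) / 2 = ((-(∑ k, d k ^ 2) / 2 : ℝ) : ℂ) := by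
    push_cast
    rw [← Finset.sum_neg_distrib, Finset.sum_div]
  rw [h4, ← Complex.ofReal_exp, Complex.ofReal_re]

variable {S : Type*} [Fintype S] {κ : Type*} [Fintype κ]

/-- Linear combination of the coefficient vectors. -/
def lin (Y : S → κ → ℝ) (t : S → ℝ) (k : κ) : ℝ := ∑ x, t x * Y x k

lemma lin_add (Y : S → κ → ℝ) (t t' : S → ℝ) (k : κ) :
    lin Y (t + t') k = lin Y t k + lin Y t' k := by
  simp [lin, add_mul, Finset.sum_add_distrib]

lemma lin_sub (Y : S → κ → ℝ) (t t' : S → ℝ) (k : κ) :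
    lin Y (t - t') k = lin Y t k - lin Y t' k := by
  simp [lin, sub_mul, Finset.sum_sub_distrib]

/-- Product of cosines of linear forms. -/
noncomputable def cosP (Y : S → κ → ℝ) (L : List (S → ℝ)) (g : κ → ℝ) : ℝ :=
  (L.map fun t => Real.cos (∑ k, g k * lin Y t k)).prod

lemma cosP_nil (Y : S → κ → ℝ) (g : κ → ℝ) : cosP Y [] g = 1 := rfl

lemma cosP_cons (Y : S → κ → ℝ) (t : S → ℝ) (L : List (S → ℝ)) (g : κ → ℝ) :
    cosP Y (t :: L) g = Real.cos (∑ k, g k * lin Y t k) * cosP Y L g := by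
  simp [cosP]

lemma cosP_continuous (Y : S → κ → ℝ) (L : List (S → ℝ)) : Continuous (cosP Y L) := by
  induction L with
  | nil => exact continuous_const
  | cons t L ih =>
    have : cosP Y (t :: L) = fun g => Real.cos (∑ k, g k * lin Y t k) * cosP Y L g := by
      funext g; exact cosP_cons Y t L g
    rw [this]
    exact (Real.continuous_cos.comp (by fun_prop)).mul ih

lemma cosP_abs_le (Y : S → κ → ℝ) (L : List (S → ℝ)) (g : κ → ℝ) : |cosP Y L g| ≤ 1 := by
  induction L with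
  | nil => simp [cosP_nil]
  | cons t L ih =>
    rw [cosP_cons, abs_mul]
    calc |Real.cos (∑ k, g k * lin Y t k)| * |cosP Y L g| ≤ 1 * 1 :=
          mul_le_mul (Real.abs_cos_le_one _) ih (abs_nonneg _) zero_le_one
      _ = 1 := by ring

lemma cosP_integrable (Y : S → κ → ℝ) (L : List (S → ℝ)) :
    Integrable (cosP Y L) (stdG κ) := by
  refine Integrable.of_bound (cosP_continuous Y L).aestronglyMeasurable 1 ?_
  exact Filter.Eventually.of_forall fun g => by simpa using cosP_abs_le Y L g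

lemma cosP_two (Y : S → κ → ℝ) (t₀ t₁ : S → ℝ) (R : List (S → ℝ)) (g : κ → ℝ) :
    cosP Y (t₀ :: t₁ :: R) g
      = (1 / 2) * cosP Y ((t₀ + t₁) :: R) g + (1 / 2) * cosP Y ((t₀ - t₁) :: R) g := by
  simp only [cosP_cons]
  have e1 : (∑ k, g k * lin Y (t₀ + t₁) k)
      = (∑ k, g k * lin Y t₀ k) + ∑ k, g k * lin Y t₁ k := by
    rw [← Finset.sum_add_distrib]
    refine Finset.sum_congr rfl fun k _ => ?_
    rw [lin_add]; ring
  have e2 : (∑ k, g k * lin Y (t₀ - t₁) k)
      = (∑ k, g k * lin Y t₀ k) - ∑ k, g k * lin Y t₁ k := by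
    rw [← Finset.sum_sub_distrib]
    refine Finset.sum_congr rfl fun k _ => ?_
    rw [lin_sub]; ring
  rw [e1, e2, Real.cos_add, Real.cos_sub]
  ring

lemma integral_cosP_singleton (Y : S → κ → ℝ) (t : S → ℝ) :
    ∫ g, cosP Y [t] g ∂(stdG κ) = Real.exp (-(∑ k, lin Y t k ^ 2) / 2) := by
  have : ∀ g, cosP Y [t] g = Real.cos (∑ k, g k * lin Y t k) := by
    intro g; simp [cosP]
  simp_rw [this]
  exact integral_cos_dot _

lemma integral_cosP_two (Y : S → κ → ℝ) (t₀ t₁ : S → ℝ) (R : List (S → ℝ)) :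
    ∫ g, cosP Y (t₀ :: t₁ :: R) g ∂(stdG κ)
      = (1 / 2) * ∫ g, cosP Y ((t₀ + t₁) :: R) g ∂(stdG κ)
        + (1 / 2) * ∫ g, cosP Y ((t₀ - t₁) :: R) g ∂(stdG κ) := by
  simp_rw [cosP_two]
  rw [integral_add ((cosP_integrable _ _).const_mul _) ((cosP_integrable _ _).const_mul _),
    integral_const_mul, integral_const_mul]

/-- Reduction to the single-factor case: moment inequality for products of cosines. -/
theorem cosP_ineq {κ₁ κ₂ : Type*} [Fintype κ₁] [Fintype κ₂]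
    (Y : S → κ → ℝ) (W₁ : S → κ₁ → ℝ) (W₂ : S → κ₂ → ℝ)
    {l₁ l₂ : ℝ} (hl₁ : 0 ≤ l₁) (hl₂ : 0 ≤ l₂) (hl : l₁ + l₂ = 1)
    (hN : ∀ t : S → ℝ, (∑ k, lin Y t k ^ 2)
      = l₁ * (∑ k, lin W₁ t k ^ 2) + l₂ * (∑ k, lin W₂ t k ^ 2))
    (L : List (S → ℝ)) :
    ∫ g, cosP Y L g ∂(stdG κ)
      ≤ l₁ * ∫ g, cosP W₁ L g ∂(stdG κ₁) + l₂ * ∫ g, cosP W₂ L g ∂(stdG κ₂) := by
  induction' h : L.length using Nat.strong_induction_on with n ih generalizing L
  match L, h with
  | [], _ =>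
    simp only [cosP_nil, integral_const, smul_eq_mul, mul_one]
    simp [hl]
  | [t], _ =>
    rw [integral_cosP_singleton Y, integral_cosP_singleton W₁, integral_cosP_singleton W₂, hN t]
    have hconv := convexOn_exp.2 (Set.mem_univ (-(∑ k, lin W₁ t k ^ 2) / 2))
      (Set.mem_univ (-(∑ k, lin W₂ t k ^ 2) / 2)) hl₁ hl₂ hl
    simp only [smul_eq_mul] at hconv
    have e : -(l₁ * (∑ k, lin W₁ t k ^ 2) + l₂ * (∑ k, lin W₂ t k ^ 2)) / 2
        = l₁ * ((-∑ k, lin W₁ t k ^ 2) / 2) + l₂ * ((-∑ k, lin W₂ t k ^ 2) / 2) := by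
      ring
    rw [e]
    exact hconv
  | t₀ :: t₁ :: R, h =>
    have hlen : R.length + 2 = n := by simpa using h
    rw [integral_cosP_two Y, integral_cosP_two W₁, integral_cosP_two W₂]
    have i1 := ih (R.length + 1) (by omega) ((t₀ + t₁) :: R) (by simp)
    have i2 := ih (R.length + 1) (by omega) ((t₀ - t₁) :: R) (by simp)
    linarith

end Vale.Agent.Lib.P157
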