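import Vale.Agent.Lib.P157.LogIneq

open MeasureTheory ProbabilityTheory Real Filter Topology

namespace Vale.Agent.Lib.P157

section General

variable {S : Type*} [Fintype S]
variable {f : ℝ → ℝ} (hf : Continuous f) {c : ℝ} (hc : ∀ y, |f y| ≤ c)
include hf hc

lemma iter_isL1 {κ : Type*} [Fintype κ] (e : S → κ → ℝ) {G : (S → ℝ) → ℝ} (hG : IsL1 G) (m : ℕ) :
    IsL1 ((op f e)^[m] G) := by
  induction m with
  | zero => simpa using hG
  | succ m ih =>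
    rw [Function.iterate_succ_apply']
    exact op_isL1 hf hc ih e

lemma op_iter_comm {κ κ' : Type*} [Fintype κ] [Fintype κ'] (e : S → κ → ℝ) (e' : S → κ' → ℝ)
    {G : (S → ℝ) → ℝ} (hG : IsL1 G) (m : ℕ) :
    op f e ((op f e')^[m] G) = (op f e')^[m] (op f e G) := by
  induction m with
  | zero => rfl
  | succ m ih =>
    rw [Function.iterate_succ_apply', Function.iterate_succ_apply', ← ih]
    funext v
    exact op_comm hf hc (iter_isL1 hf hc e' hG m) e e' v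

end General

lemma IsL1.combo {S : Type*} {G H : (S → ℝ) → ℝ} (hG : IsL1 G) (hH : IsL1 H)
    {a b : ℝ} (ha : 0 ≤ a) (hb : 0 ≤ b) (hab : a + b = 1) :
    IsL1 (fun u => a * G u + b * H u) := by
  intro v v' δ h
  have h1 := hG v v' δ h
  have h2 := hH v v' δ h
  have e : a * G v + b * H v - (a * G v' + b * H v')
      = a * (G v - G v') + b * (H v - H v') := by ring
  rw [e]
  calc |a * (G v - G v') + b * (H v - H v')|
      ≤ |a * (G v - G v')| + |b * (H v - H v')| := abs_add_le _ _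
    _ = a * |G v - G v'| + b * |H v - H v'| := by
        rw [abs_mul, abs_mul, abs_of_nonneg ha, abs_of_nonneg hb]
    _ ≤ a * δ + b * δ := by gcongr
    _ = δ := by rw [← add_mul, hab, one_mul]

section Sup

variable {S : Type*} [Fintype S]
variable {κ κ₁ κ₂ : Type*} [Fintype κ] [Fintype κ₁] [Fintype κ₂]

/-- The concavity property of a functional under one new pattern. -/
def SupG (f : ℝ → ℝ) (Y : S → κ → ℝ) (W₁ : S → κ₁ → ℝ) (W₂ : S → κ₂ → ℝ) (l₁ l₂ : ℝ)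
    (G : (S → ℝ) → ℝ) : Prop :=
  IsL1 G ∧ ∀ v, l₁ * op f W₁ G v + l₂ * op f W₂ G v ≤ op f Y G v

variable {f : ℝ → ℝ} (hf : Continuous f) {c : ℝ} (hc : ∀ y, |f y| ≤ c)
variable {Y : S → κ → ℝ} {W₁ : S → κ₁ → ℝ} {W₂ : S → κ₂ → ℝ} {l₁ l₂ : ℝ}
variable (hl₁ : 0 ≤ l₁) (hl₂ : 0 ≤ l₂) (hl : l₁ + l₂ = 1)
include hf hc hl₁ hl₂ hl

lemma SupG.op_closed {G : (S → ℝ) → ℝ} (h : SupG f Y W₁ W₂ l₁ l₂ G)
    {κ' : Type*} [Fintype κ'] (e : S → κ' → ℝ) :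
    SupG f Y W₁ W₂ l₁ l₂ (op f e G) := by
  refine ⟨op_isL1 hf hc h.1 e, fun v => ?_⟩
  have hG := h.1
  have h1 := op_isL1 hf hc hG W₁
  have h2 := op_isL1 hf hc hG W₂
  rw [op_comm hf hc hG W₁ e v, op_comm hf hc hG W₂ e v, op_comm hf hc hG Y e v,
    ← op_add_mul hf hc h1 h2]
  exact op_mono hf hc (h1.combo h2 hl₁ hl₂ hl) (op_isL1 hf hc hG Y) h.2 e v

lemma SupG.iter_closed {G : (S → ℝ) → ℝ} (h : SupG f Y W₁ W₂ l₁ l₂ G)
    {κ' : Type*} [Fintype κ'] (e : S → κ' → ℝ) (m : ℕ) :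
    SupG f Y W₁ W₂ l₁ l₂ ((op f e)^[m] G) := by
  induction m with
  | zero => simpa using h
  | succ m ih =>
    rw [Function.iterate_succ_apply']
    exact ih.op_closed hf hc hl₁ hl₂ hl e

/-- One replacement step on the hybrid functional. -/
lemma hybrid_step {L0 : (S → ℝ) → ℝ} (h0 : SupG f Y W₁ W₂ l₁ l₂ L0) (m j k : ℕ) (v : S → ℝ) :
    l₁ * (op f Y)^[m] ((op f W₁)^[j + 1] ((op f W₂)^[k] L0)) v
      + l₂ * (op f Y)^[m] ((op f W₁)^[j] ((op f W₂)^[k + 1] L0)) v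
      ≤ (op f Y)^[m + 1] ((op f W₁)^[j] ((op f W₂)^[k] L0)) v := by
  have hk : SupG f Y W₁ W₂ l₁ l₂ ((op f W₂)^[k] L0) := h0.iter_closed hf hc hl₁ hl₂ hl W₂ k
  have hj : SupG f Y W₁ W₂ l₁ l₂ ((op f W₁)^[j] ((op f W₂)^[k] L0)) :=
    hk.iter_closed hf hc hl₁ hl₂ hl W₁ j
  have hm : SupG f Y W₁ W₂ l₁ l₂ ((op f Y)^[m] ((op f W₁)^[j] ((op f W₂)^[k] L0))) :=
    hj.iter_closed hf hc hl₁ hl₂ hl Y m
  have e1 : op f W₁ ((op f Y)^[m] ((op f W₁)^[j] ((op f W₂)^[k] L0)))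
      = (op f Y)^[m] ((op f W₁)^[j + 1] ((op f W₂)^[k] L0)) := by
    rw [op_iter_comm hf hc W₁ Y hj.1 m, Function.iterate_succ_apply']
  have e2 : op f W₂ ((op f Y)^[m] ((op f W₁)^[j] ((op f W₂)^[k] L0)))
      = (op f Y)^[m] ((op f W₁)^[j] ((op f W₂)^[k + 1] L0)) := by
    rw [op_iter_comm hf hc W₂ Y hj.1 m, op_iter_comm hf hc W₂ W₁ hk.1 j,
      Function.iterate_succ_apply']
  have := hm.2 v
  rw [e1, e2] at this
  have e3 : (op f Y)^[m + 1] ((op f W₁)^[j] ((op f W₂)^[k] L0))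
      = op f Y ((op f Y)^[m] ((op f W₁)^[j] ((op f W₂)^[k] L0))) :=
    Function.iterate_succ_apply' _ _ _
  rw [e3]
  exact this

end Sup

section Factor

variable {S S₁ S₂ : Type*} [Fintype S] [Fintype S₁] [Fintype S₂]
variable {κ₁ κ₂ : Type*} [Fintype κ₁] [Fintype κ₂]
variable {f : ℝ → ℝ} (hf : Continuous f) {c : ℝ} (hc : ∀ y, |f y| ≤ c)
variable (π₁ : S → S₁) (π₂ : S → S₂) (e₁ : S₁ → κ₁ → ℝ) (e₂ : S₂ → κ₂ → ℝ)
include hf hc

lemma factor_step₁ {G : (S → ℝ) → ℝ} {H₁ : (S₁ → ℝ) → ℝ} {H₂ : (S₂ → ℝ) → ℝ} (hH₁ : IsL1 H₁)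
    (h : ∀ v₁ v₂, G (fun x => v₁ (π₁ x) + v₂ (π₂ x)) = H₁ v₁ + H₂ v₂) (v₁ : S₁ → ℝ) (v₂ : S₂ → ℝ) :
    op f (fun x => e₁ (π₁ x)) G (fun x => v₁ (π₁ x) + v₂ (π₂ x)) = op f e₁ H₁ v₁ + H₂ v₂ := by
  unfold op
  have e : ∀ g : κ₁ → ℝ, G (fun x => v₁ (π₁ x) + v₂ (π₂ x) + f (∑ k, g k * e₁ (π₁ x) k))
      = H₁ (fun y => v₁ y + f (∑ k, g k * e₁ y k)) + H₂ v₂ := by
    intro g
    rw [← h]
    congr 1
    funext x
    ring
  simp_rw [e]
  rw [integral_add (op_integrable hf hc hH₁ e₁ v₁) (integrable_const _)]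
  simp

lemma factor_step₂ {G : (S → ℝ) → ℝ} {H₁ : (S₁ → ℝ) → ℝ} {H₂ : (S₂ → ℝ) → ℝ} (hH₂ : IsL1 H₂)
    (h : ∀ v₁ v₂, G (fun x => v₁ (π₁ x) + v₂ (π₂ x)) = H₁ v₁ + H₂ v₂) (v₁ : S₁ → ℝ) (v₂ : S₂ → ℝ) :
    op f (fun x => e₂ (π₂ x)) G (fun x => v₁ (π₁ x) + v₂ (π₂ x)) = H₁ v₁ + op f e₂ H₂ v₂ := by
  unfold op
  have e : ∀ g : κ₂ → ℝ, G (fun x => v₁ (π₁ x) + v₂ (π₂ x) + f (∑ k, g k * e₂ (π₂ x) k))
      = H₁ v₁ + H₂ (fun y => v₂ y + f (∑ k, g k * e₂ y k)) := by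
    intro g
    rw [← h]
    congr 1
    funext x
    ring
  simp_rw [e]
  rw [integral_add (integrable_const _) (op_integrable hf hc hH₂ e₂ v₂)]
  simp

/-- Factorization of the hybrid functional once all patterns are block patterns. -/
lemma factor_iter {L0 : (S → ℝ) → ℝ} {L₁ : (S₁ → ℝ) → ℝ} {L₂ : (S₂ → ℝ) → ℝ}
    (hL₁ : IsL1 L₁) (hL₂ : IsL1 L₂)
    (h : ∀ v₁ v₂, L0 (fun x => v₁ (π₁ x) + v₂ (π₂ x)) = L₁ v₁ + L₂ v₂) (j k : ℕ)
    (v₁ : S₁ → ℝ) (v₂ : S₂ → ℝ) :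
    (op f (fun x => e₁ (π₁ x)))^[j] ((op f (fun x => e₂ (π₂ x)))^[k] L0)
        (fun x => v₁ (π₁ x) + v₂ (π₂ x))
      = (op f e₁)^[j] L₁ v₁ + (op f e₂)^[k] L₂ v₂ := by
  induction j generalizing v₁ v₂ with
  | zero =>
    simp only [Function.iterate_zero, id]
    induction k generalizing v₁ v₂ with
    | zero => simpa using h v₁ v₂
    | succ k ih =>
      rw [Function.iterate_succ_apply', Function.iterate_succ_apply']
      exact factor_step₂ hf hc π₁ π₂ e₂ (iter_isL1 hf hc e₂ hL₂ k) ih v₁ v₂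
  | succ j ih =>
    rw [Function.iterate_succ_apply', Function.iterate_succ_apply']
    exact factor_step₁ hf hc π₁ π₂ e₁ (iter_isL1 hf hc e₁ hL₁ j) ih v₁ v₂

end Factor

/-- Integer-step Lipschitz bound. -/
lemma nat_lip {A : ℕ → ℝ} {c : ℝ} (h : ∀ j, |A (j + 1) - A j| ≤ c) (j j' : ℕ) :
    |A j - A j'| ≤ c * |(j : ℝ) - j'| := by
  have hc : 0 ≤ c := le_trans (abs_nonneg _) (h 0)
  have key : ∀ d j, |A (j + d) - A j| ≤ c * d := by
    intro d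
    induction d with
    | zero => intro j; simp
    | succ d ih =>
      intro j
      have h1 := h (j + d)
      have h2 := ih j
      calc |A (j + (d + 1)) - A j|
          = |(A (j + d + 1) - A (j + d)) + (A (j + d) - A j)| := by
            rw [show j + (d + 1) = j + d + 1 by omega]; ring_nf
        _ ≤ |A (j + d + 1) - A (j + d)| + |A (j + d) - A j| := abs_add_le _ _
        _ ≤ c + c * d := add_le_add h1 h2
        _ = c * ((d + 1 : ℕ) : ℝ) := by push_cast; ring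
  rcases le_total j j' with hj | hj
  · obtain ⟨d, rfl⟩ := Nat.exists_eq_add_of_le hj
    have e : |(j : ℝ) - ((j + d : ℕ) : ℝ)| = d := by
      push_cast
      rw [show (j : ℝ) - (j + d) = -(d : ℝ) by ring, abs_neg, Nat.abs_cast]
    rw [abs_sub_comm, e]
    exact key d j
  · obtain ⟨d, rfl⟩ := Nat.exists_eq_add_of_le hj
    have e : |((j' + d : ℕ) : ℝ) - (j' : ℝ)| = d := by
      push_cast
      rw [show (j' : ℝ) + d - j' = (d : ℝ) by ring, Nat.abs_cast]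
    rw [e]
    exact key d j'

end Vale.Agent.Lib.P157
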