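import Vale.Agent.Lib.P157.Defs
import Vale.Agent.Lib.P157.Hybrid

open MeasureTheory ProbabilityTheory Real Filter Topology

namespace Vale.Agent.Lib.P157

/-- Iterated pattern operators as one integral over the pattern array. -/
lemma iter_op_eq {S : Type*} [Fintype S] {κ : Type*} [Fintype κ]
    {f : ℝ → ℝ} (hf : Continuous f) {c : ℝ} (hc : ∀ y, |f y| ≤ c)
    (e : S → κ → ℝ) {G : (S → ℝ) → ℝ} (hG : IsL1 G) (M : ℕ) (v : S → ℝ) :
    (op f e)^[M] G v
      = ∫ g : Fin M → κ → ℝ, G (fun x => v x + ∑ a, f (∑ k, g a k * e x k))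
          ∂(Measure.pi fun _ => stdG κ) := by
  induction M generalizing v with
  | zero =>
    simp
  | succ M ih =>
    rw [Function.iterate_succ_apply']
    show ∫ g, ((op f e)^[M] G) (fun x => v x + f (∑ k, g k * e x k)) ∂(stdG κ) = _
    simp_rw [ih]
    rw [← ((measurePreserving_piFinSuccAbove (fun _ : Fin (M + 1) => stdG κ) 0).symm).integral_comp']
    simp_rw [MeasurableEquiv.piFinSuccAbove_symm_apply, Fin.insertNthEquiv]
    simp only [Equiv.coe_fn_mk, Fin.sum_univ_succ, Fin.insertNth_zero, Fin.cons_zero, Fin.cons_succ,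
      cast_eq]
    have hcont : Continuous (fun p : (κ → ℝ) × (Fin M → κ → ℝ) =>
        G (fun x => v x + (f (∑ k, p.1 k * e x k) + ∑ a : Fin M, f (∑ k, p.2 a k * e x k)))) := by
      refine hG.continuous.comp ?_
      refine continuous_pi fun x => continuous_const.add (Continuous.add (hf.comp ?_) ?_)
      · fun_prop
      · refine continuous_finsetSum _ fun a _ => hf.comp ?_
        fun_prop
    have hint : Integrable (fun p : (κ → ℝ) × (Fin M → κ → ℝ) =>
        G (fun x => v x + (f (∑ k, p.1 k * e x k) + ∑ a : Fin M, f (∑ k, p.2 a k * e x k))))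
        ((stdG κ).prod (Measure.pi fun _ : Fin M => stdG κ)) := by
      refine Integrable.of_bound hcont.aestronglyMeasurable (|G v| + (M + 1) * c)
        (Filter.Eventually.of_forall fun p => ?_)
      rw [Real.norm_eq_abs]
      have hc0 : 0 ≤ c := le_trans (abs_nonneg _) (hc 0)
      have h1 := hG (fun x => v x + (f (∑ k, p.1 k * e x k)
        + ∑ a : Fin M, f (∑ k, p.2 a k * e x k))) v ((M + 1) * c) (fun x => by
          have h2 : |f (∑ k, p.1 k * e x k) + ∑ a : Fin M, f (∑ k, p.2 a k * e x k)|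
              ≤ (M + 1) * c := by
            calc |f (∑ k, p.1 k * e x k) + ∑ a : Fin M, f (∑ k, p.2 a k * e x k)|
                ≤ |f (∑ k, p.1 k * e x k)| + |∑ a : Fin M, f (∑ k, p.2 a k * e x k)| :=
                  abs_add_le _ _
              _ ≤ c + ∑ a : Fin M, |f (∑ k, p.2 a k * e x k)| :=
                  add_le_add (hc _) (Finset.abs_sum_le_sum_abs _ _)
              _ ≤ c + ∑ _a : Fin M, c := by
                  gcongr with a _
                  exact hc _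
              _ = (M + 1) * c := by simp; ring
          simpa using h2)
      have := abs_sub_abs_le_abs_sub
        (G (fun x => v x + (f (∑ k, p.1 k * e x k)
          + ∑ a : Fin M, f (∑ k, p.2 a k * e x k)))) (G v)
      linarith
    have := integral_prod _ hint
    rw [this]
    refine integral_congr_ae (Filter.Eventually.of_forall fun g₀ => ?_)
    refine integral_congr_ae (Filter.Eventually.of_forall fun g' => ?_)
    show G _ = G _
    congr 1
    funext x
    ring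

/-- Coefficient vectors of the cube. -/
noncomputable def Yc (N : ℕ) (x : Fin N → Bool) (k : Fin N) : ℝ := spin (x k) / Real.sqrt N

lemma sum_Yc {N : ℕ} (g : Fin N → ℝ) (x : Fin N → Bool) :
    ∑ k, g k * Yc N x k = field g x := by
  unfold field Yc
  rw [Finset.sum_div]
  refine Finset.sum_congr rfl fun k _ => ?_
  ring

/-- `N` times the expected pressure, as an iterated functional. -/
noncomputable def aN (f : ℝ → ℝ) (N M : ℕ) : ℝ :=
  (op f (Yc N))^[M] LS (fun _ => -(N : ℝ) * Real.log 2)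

lemma exp_neg_log2 (N : ℕ) : Real.exp (-(N : ℝ) * Real.log 2) = 1 / 2 ^ N := by
  rw [neg_mul, Real.exp_neg, mul_comm, Real.exp_mul, Real.exp_log (by norm_num : (0:ℝ) < 2),
    Real.rpow_natCast]
  simp

lemma expectedPressure_eq {f : ℝ → ℝ} (hf : Continuous f) {c : ℝ} (hc : ∀ y, |f y| ≤ c)
    (α : ℝ) (N : ℕ) :
    expectedPressure f α N = (1 / (N : ℝ)) * aN f N ⌊α * N⌋₊ := by
  unfold expectedPressure aN
  rw [iter_op_eq hf hc (Yc N) LS_isL1]
  have : ∀ g : Fin ⌊α * N⌋₊ → Fin N → ℝ, pressure f g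
      = (1 / (N : ℝ)) * LS (fun x => -(N : ℝ) * Real.log 2
          + ∑ a, f (∑ k, g a k * Yc N x k)) := by
    intro g
    unfold pressure LS
    congr 2
    rw [Finset.mul_sum]
    refine Finset.sum_congr rfl fun x _ => ?_
    rw [Real.exp_add, exp_neg_log2]
    simp_rw [sum_Yc]
  simp_rw [this]
  rw [integral_const_mul]

/-- The main superadditivity estimate for block decompositions. -/
theorem aN_superadd {ρ : Measure ℝ} [IsFiniteMeasure ρ] {A : ℝ} (hA : ρ.real Set.univ < A)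
    {c : ℝ} (hc : ∀ y, |fA ρ A y| ≤ c) {N₁ N₂ : ℕ} (hN₁ : 0 < N₁) (hN₂ : 0 < N₂)
    (M M₁ M₂ : ℕ) {s : ℝ} (hs : 0 < s) :
    aN (fA ρ A) N₁ M₁ + aN (fA ρ A) N₂ M₂
        - c * ((((M : ℝ) * (N₁ / (N₁ + N₂ : ℝ)) - M₁) ^ 2
              + (M : ℝ) * (N₁ / (N₁ + N₂ : ℝ)) * (N₂ / (N₁ + N₂ : ℝ))
              + ((M : ℝ) * (N₂ / (N₁ + N₂ : ℝ)) - M₂) ^ 2
              + (M : ℝ) * (N₁ / (N₁ + N₂ : ℝ)) * (N₂ / (N₁ + N₂ : ℝ))) / (2 * s) + s)
      ≤ aN (fA ρ A) (N₁ + N₂) M := by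
  classical
  have hf := fA_continuous ρ hA
  have hc0 : 0 ≤ c := le_trans (abs_nonneg _) (hc 0)
  set f := fA ρ A with hfdef
  have hN₁' : (0 : ℝ) < N₁ := by exact_mod_cast hN₁
  have hN₂' : (0 : ℝ) < N₂ := by exact_mod_cast hN₂
  have hN : (0 : ℝ) < (N₁ + N₂ : ℝ) := by positivity
  set l₁ : ℝ := N₁ / (N₁ + N₂ : ℝ) with hl₁def
  set l₂ : ℝ := N₂ / (N₁ + N₂ : ℝ) with hl₂def
  have hl₁ : 0 ≤ l₁ := by positivity
  have hl₂ : 0 ≤ l₂ := by positivity
  have hl : l₁ + l₂ = 1 := by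
    rw [hl₁def, hl₂def]; field_simp
  let π₁ : (Fin (N₁ + N₂) → Bool) → (Fin N₁ → Bool) := fun x i => x (Fin.castAdd N₂ i)
  let π₂ : (Fin (N₁ + N₂) → Bool) → (Fin N₂ → Bool) := fun x i => x (Fin.natAdd N₁ i)
  let Y := Yc (N₁ + N₂)
  let W₁ : (Fin (N₁ + N₂) → Bool) → Fin N₁ → ℝ := fun x => Yc N₁ (π₁ x)
  let W₂ : (Fin (N₁ + N₂) → Bool) → Fin N₂ → ℝ := fun x => Yc N₂ (π₂ x)
  -- the norm identity
  have hNorm : ∀ t : (Fin (N₁ + N₂) → Bool) → ℝ, (∑ k, lin Y t k ^ 2)
      = l₁ * (∑ k, lin W₁ t k ^ 2) + l₂ * (∑ k, lin W₂ t k ^ 2) := by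
    intro t
    rw [Fin.sum_univ_add, Finset.mul_sum, Finset.mul_sum]
    have hcast : ((N₁ + N₂ : ℕ) : ℝ) = (N₁ + N₂ : ℝ) := by push_cast; ring
    congr 1
    · refine Finset.sum_congr rfl fun k _ => ?_
      have e1 : lin Y t (Fin.castAdd N₂ k)
          = (∑ x, t x * spin (π₁ x k)) / Real.sqrt ((N₁ + N₂ : ℕ) : ℝ) := by
        simp only [lin, Y, Yc, Finset.sum_div, mul_div_assoc]
        rfl
      have e2 : lin W₁ t k = (∑ x, t x * spin (π₁ x k)) / Real.sqrt N₁ := by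
        simp only [lin, W₁, Yc, Finset.sum_div, mul_div_assoc]
      rw [e1, e2, div_pow, div_pow, Real.sq_sqrt (by positivity), Real.sq_sqrt hN₁'.le, hcast,
        hl₁def]
      field_simp
    · refine Finset.sum_congr rfl fun k _ => ?_
      have e1 : lin Y t (Fin.natAdd N₁ k)
          = (∑ x, t x * spin (π₂ x k)) / Real.sqrt ((N₁ + N₂ : ℕ) : ℝ) := by
        simp only [lin, Y, Yc, Finset.sum_div, mul_div_assoc]
        rfl
      have e2 : lin W₂ t k = (∑ x, t x * spin (π₂ x k)) / Real.sqrt N₂ := by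
        simp only [lin, W₂, Yc, Finset.sum_div, mul_div_assoc]
      rw [e1, e2, div_pow, div_pow, Real.sq_sqrt (by positivity), Real.sq_sqrt hN₂'.le, hcast,
        hl₂def]
      field_simp
  have h0 : SupG f Y W₁ W₂ l₁ l₂ (LS : ((Fin (N₁ + N₂) → Bool) → ℝ) → ℝ) :=
    ⟨LS_isL1, fun v => base_ineq ρ hA Y W₁ W₂ hl₁ hl₂ hl hNorm v⟩
  -- factorization of the log-sum functional
  have hLS : ∀ (v₁ : (Fin N₁ → Bool) → ℝ) (v₂ : (Fin N₂ → Bool) → ℝ),
      LS (fun x => v₁ (π₁ x) + v₂ (π₂ x)) = LS v₁ + LS v₂ := by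
    intro v₁ v₂
    unfold LS
    have hpos₁ : 0 < ∑ x, Real.exp (v₁ x) :=
      Finset.sum_pos (fun x _ => Real.exp_pos _) Finset.univ_nonempty
    have hpos₂ : 0 < ∑ x, Real.exp (v₂ x) :=
      Finset.sum_pos (fun x _ => Real.exp_pos _) Finset.univ_nonempty
    rw [← Real.log_mul hpos₁.ne' hpos₂.ne', Finset.sum_mul_sum, ← Finset.sum_product',
      ← (Fin.appendEquiv N₁ N₂).sum_comp]
    congr 1
    refine Finset.sum_congr rfl fun p _ => ?_
    rw [Real.exp_add]
    have e1 : π₁ ((Fin.appendEquiv N₁ N₂) p) = p.1 := by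
      funext i
      simp [π₁, Fin.appendEquiv]
    have e2 : π₂ ((Fin.appendEquiv N₁ N₂) p) = p.2 := by
      funext i
      simp [π₂, Fin.appendEquiv]
    rw [e1, e2]
  set v₁ : (Fin N₁ → Bool) → ℝ := fun _ => -(N₁ : ℝ) * Real.log 2 with hv₁
  set v₂ : (Fin N₂ → Bool) → ℝ := fun _ => -(N₂ : ℝ) * Real.log 2 with hv₂
  have hv : (fun _ : Fin (N₁ + N₂) → Bool => -((N₁ + N₂ : ℕ) : ℝ) * Real.log 2)
      = fun x => v₁ (π₁ x) + v₂ (π₂ x) := by
    funext x
    simp only [hv₁, hv₂]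
    push_cast
    ring
  let A₁ : ℕ → ℝ := fun j => (op f (Yc N₁))^[j] LS v₁
  let A₂ : ℕ → ℝ := fun k => (op f (Yc N₂))^[k] LS v₂
  have hA₁ : ∀ j, |A₁ (j + 1) - A₁ j| ≤ c := by
    intro j
    simp only [A₁]
    rw [Function.iterate_succ_apply']
    exact op_sub_abs_le hf hc (iter_isL1 hf hc (Yc N₁) LS_isL1 j) (Yc N₁) v₁
  have hA₂ : ∀ k, |A₂ (k + 1) - A₂ k| ≤ c := by
    intro k
    simp only [A₂]
    rw [Function.iterate_succ_apply']
    exact op_sub_abs_le hf hc (iter_isL1 hf hc (Yc N₂) LS_isL1 k) (Yc N₂) v₂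
  -- the bound, by induction on the number of full patterns
  have key : ∀ (m j k : ℕ),
      A₁ M₁ + A₂ M₂ - c * ((((j : ℝ) + m * l₁ - M₁) ^ 2 + m * l₁ * l₂
          + ((k : ℝ) + m * l₂ - M₂) ^ 2 + m * l₁ * l₂) / (2 * s) + s)
        ≤ (op f Y)^[m] ((op f W₁)^[j] ((op f W₂)^[k] LS)) (fun x => v₁ (π₁ x) + v₂ (π₂ x)) := by
    intro m
    induction m with
    | zero =>
      intro j k
      simp only [Function.iterate_zero, id]
      rw [show (op f W₁)^[j] ((op f W₂)^[k] LS) (fun x => v₁ (π₁ x) + v₂ (π₂ x))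
          = (op f (Yc N₁))^[j] LS v₁ + (op f (Yc N₂))^[k] LS v₂ from
        factor_iter hf hc π₁ π₂ (Yc N₁) (Yc N₂) LS_isL1 LS_isL1 hLS j k v₁ v₂]
      have h1 := nat_lip hA₁ j M₁
      have h2 := nat_lip hA₂ k M₂
      have q : ∀ u : ℝ, |u| ≤ u ^ 2 / (2 * s) + s / 2 := by
        intro u
        have h3 : 0 ≤ (|u| - s) ^ 2 := sq_nonneg _
        have h4 : |u| ^ 2 = u ^ 2 := sq_abs u
        have h5 : u ^ 2 / (2 * s) + s / 2 - |u| = (|u| - s) ^ 2 / (2 * s) := by
          field_simp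
          rw [← h4]
          ring
        have h6 : 0 ≤ (|u| - s) ^ 2 / (2 * s) := by positivity
        linarith
      have q1 := q ((j : ℝ) - M₁)
      have q2 := q ((k : ℝ) - M₂)
      have b1 : A₁ M₁ - c * (((j : ℝ) - M₁) ^ 2 / (2 * s) + s / 2) ≤ A₁ j := by
        have := abs_le.1 h1
        have h7 : c * |(j : ℝ) - M₁| ≤ c * (((j : ℝ) - M₁) ^ 2 / (2 * s) + s / 2) :=
          mul_le_mul_of_nonneg_left q1 hc0
        linarith [this.1]
      have b2 : A₂ M₂ - c * (((k : ℝ) - M₂) ^ 2 / (2 * s) + s / 2) ≤ A₂ k := by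
        have := abs_le.1 h2
        have h7 : c * |(k : ℝ) - M₂| ≤ c * (((k : ℝ) - M₂) ^ 2 / (2 * s) + s / 2) :=
          mul_le_mul_of_nonneg_left q2 hc0
        linarith [this.1]
      have e : A₁ M₁ + A₂ M₂ - c * ((((j : ℝ) + ((0 : ℕ) : ℝ) * l₁ - M₁) ^ 2
            + ((0 : ℕ) : ℝ) * l₁ * l₂
            + ((k : ℝ) + ((0 : ℕ) : ℝ) * l₂ - M₂) ^ 2 + ((0 : ℕ) : ℝ) * l₁ * l₂) / (2 * s) + s)
          = (A₁ M₁ - c * (((j : ℝ) - M₁) ^ 2 / (2 * s) + s / 2))
            + (A₂ M₂ - c * (((k : ℝ) - M₂) ^ 2 / (2 * s) + s / 2)) := by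
        push_cast
        ring
      rw [e]
      exact add_le_add b1 b2
    | succ m ih =>
      intro j k
      have step := hybrid_step hf hc hl₁ hl₂ hl h0 m j k (fun x => v₁ (π₁ x) + v₂ (π₂ x))
      refine le_trans ?_ step
      have i1 := ih (j + 1) k
      have i2 := ih j (k + 1)
      have i1' := mul_le_mul_of_nonneg_left i1 hl₁
      have i2' := mul_le_mul_of_nonneg_left i2 hl₂
      refine le_trans (le_of_eq ?_) (add_le_add i1' i2')
      have hl₂' : l₂ = 1 - l₁ := by linarith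
      rw [hl₂']
      push_cast
      ring
  have final := key M 0 0
  simp only [Function.iterate_zero, id] at final
  unfold aN
  rw [hv]
  convert final using 2
  simp

end Vale.Agent.Lib.P157
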