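import Mathlib

open MeasureTheory ProbabilityTheory

namespace Vale.Agent.Lib.P157

/-- The spin value of a Boolean: `1` for `true`, `-1` for `false`. -/
def spin (b : Bool) : ℝ := if b then 1 else -1

/-- The normalized field `g · x / √N` of a pattern `g` at a cube point `x`. -/
noncomputable def field {N : ℕ} (g : Fin N → ℝ) (x : Fin N → Bool) : ℝ :=
  (∑ i, g i * spin (x i)) / Real.sqrt N

/-- The pressure `p_N(f) = N⁻¹ log (2^{-N} ∑_x exp ∑_a f (g^a · x / √N))` on the Ising cube,
for a pattern array `g`. -/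
noncomputable def pressure (f : ℝ → ℝ) {N M : ℕ} (g : Fin M → Fin N → ℝ) : ℝ :=
  (1 / (N : ℝ)) *
    Real.log ((1 / 2 ^ N : ℝ) * ∑ x : Fin N → Bool, Real.exp (∑ a, f (field (g a) x)))

/-- The expected pressure with `M = ⌊α N⌋` independent standard Gaussian patterns. -/
noncomputable def expectedPressure (f : ℝ → ℝ) (α : ℝ) (N : ℕ) : ℝ :=
  ∫ g : Fin ⌊α * N⌋₊ → Fin N → ℝ, pressure f g
    ∂(Measure.pi fun _ => Measure.pi fun _ => gaussianReal 0 1)

end Vale.Agent.Lib.P157
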