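import Vale.Agent.Lib.P157.RSLog

/-! Gaussian field operators on functionals of weights. -/

open MeasureTheory ProbabilityTheory Real Filter Topology

set_option linter.unusedSectionVars false

namespace Vale.Agent.Lib.P157

variable {S : Type*} [Fintype S] {κ κ' : Type*} [Fintype κ] [Fintype κ']

lemma integrable_abs_gam : Integrable (fun y : ℝ => |y|) gam := by
  have h : MemLp id 1 gam := memLp_id_gaussianReal 1
  have h' : Integrable id gam := memLp_one_iff_integrable.mp h
  exact h'.abs

lemma integrable_coord {u : ℝ → ℝ} (hu : Integrable u gam) (k : κ) :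
    Integrable (fun z : κ → ℝ => u (z k)) (stdG κ) :=
  ((measurePreserving_eval (fun _ : κ => gam) k).integrable_comp hu.aestronglyMeasurable).mpr hu

lemma integral_coord {u : ℝ → ℝ} (hu : Integrable u gam) (k : κ) :
    ∫ z : κ → ℝ, u (z k) ∂(stdG κ) = ∫ y, u y ∂gam := by
  have h := (measurePreserving_eval (fun _ : κ => gam) k)
  have h2 := integral_map (μ := stdG κ) (f := u) (φ := Function.eval k)
    (measurable_pi_apply k).aemeasurable
    (by rw [h.map_eq]; exact hu.aestronglyMeasurable)
  rw [h.map_eq] at h2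
  rw [h2]

lemma integrable_absSum : Integrable (fun z : κ → ℝ => ∑ k, |z k|) (stdG κ) :=
  integrable_finsetSum _ fun k _ => integrable_coord integrable_abs_gam k

/-- The Gaussian field operator. -/
noncomputable def fieldOp (a : ℝ) (e : S → κ → ℝ) (G : (S → ℝ) → ℝ) (v : S → ℝ) : ℝ :=
  ∫ z, G (fun s => v s + a * ∑ k, z k * e s k) ∂(stdG κ)

variable {e : S → κ → ℝ} (he : ∀ s k, |e s k| ≤ 1)

lemma field_shift_bound (he : ∀ s k, |e s k| ≤ 1) (a : ℝ) (z : κ → ℝ) (s : S) :
    |a * ∑ k, z k * e s k| ≤ |a| * ∑ k, |z k| := by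
  rw [abs_mul]
  apply mul_le_mul_of_nonneg_left _ (abs_nonneg a)
  refine (Finset.abs_sum_le_sum_abs _ _).trans (Finset.sum_le_sum fun k _ => ?_)
  rw [abs_mul]
  calc |z k| * |e s k| ≤ |z k| * 1 := mul_le_mul_of_nonneg_left (he s k) (abs_nonneg _)
    _ = |z k| := mul_one _

include he

lemma fieldOp_integrand_le {G : (S → ℝ) → ℝ} (hG : IsL1 G) (a : ℝ) (v w : S → ℝ) (z : κ → ℝ) :
    |G (fun s => v s + w s + a * ∑ k, z k * e s k) - G (fun s => v s + w s)|
      ≤ |a| * ∑ k, |z k| := by
  refine hG _ _ _ fun s => ?_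
  have := field_shift_bound he a z s
  simpa using this

lemma fieldOp_integrable {G : (S → ℝ) → ℝ} (hG : IsL1 G) (a : ℝ) (v : S → ℝ) :
    Integrable (fun z : κ → ℝ => G (fun s => v s + a * ∑ k, z k * e s k)) (stdG κ) := by
  have hcont : Continuous (fun z : κ → ℝ => G (fun s => v s + a * ∑ k, z k * e s k)) := by
    refine hG.continuous.comp (continuous_pi fun s => ?_)
    fun_prop
  refine Integrable.mono' (((integrable_const (|G v|)).add
    (integrable_absSum.const_mul |a|))) hcont.aestronglyMeasurable
    (Filter.Eventually.of_forall fun z => ?_)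
  rw [Real.norm_eq_abs]
  have h := hG (fun s => v s + a * ∑ k, z k * e s k) v (|a| * ∑ k, |z k|) (fun s => by
    have := field_shift_bound he a z s
    simpa using this)
  have h2 := abs_sub_abs_le_abs_sub (G (fun s => v s + a * ∑ k, z k * e s k)) (G v)
  simp only [Pi.add_apply]
  linarith

lemma fieldOp_isL1 {G : (S → ℝ) → ℝ} (hG : IsL1 G) (a : ℝ) : IsL1 (fieldOp a e G) := by
  intro v v' δ hδ
  unfold fieldOp
  rw [← integral_sub (fieldOp_integrable he hG a v) (fieldOp_integrable he hG a v')]
  have h := norm_integral_le_of_norm_le_const (μ := stdG κ) (C := δ)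
    (f := fun z => G (fun s => v s + a * ∑ k, z k * e s k)
      - G (fun s => v' s + a * ∑ k, z k * e s k))
    (Filter.Eventually.of_forall fun z => by
      rw [Real.norm_eq_abs]
      refine hG _ _ δ fun s => ?_
      have := hδ s
      simpa using this)
  simpa using h

lemma fieldOp_mono {G H : (S → ℝ) → ℝ} (hG : IsL1 G) (hH : IsL1 H) (hGH : ∀ v, G v ≤ H v)
    (a : ℝ) (v : S → ℝ) : fieldOp a e G v ≤ fieldOp a e H v :=
  integral_mono (fieldOp_integrable he hG a v) (fieldOp_integrable he hH a v) fun _ => hGH _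

lemma fieldOp_add_const {G : (S → ℝ) → ℝ} (hG : IsL1 G) (d a : ℝ) :
    fieldOp a e (fun u => G u + d) = fun v => fieldOp a e G v + d := by
  funext v
  unfold fieldOp
  rw [integral_add (fieldOp_integrable he hG a v) (integrable_const _)]
  simp

lemma fieldOp_combo {G H : (S → ℝ) → ℝ} (hG : IsL1 G) (hH : IsL1 H) (x y a : ℝ) (v : S → ℝ) :
    fieldOp a e (fun u => x * G u + y * H u) v = x * fieldOp a e G v + y * fieldOp a e H v := by
  unfold fieldOp
  rw [integral_add ((fieldOp_integrable he hG a v).const_mul x)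
    ((fieldOp_integrable he hH a v).const_mul y), integral_const_mul, integral_const_mul]

omit he in
/-- Fubini for a field operator and a pattern operator. -/
lemma field_op_comm (he : ∀ s k, |e s k| ≤ 1) {f : ℝ → ℝ} (hf : Continuous f) {c : ℝ}
    (hc : ∀ y, |f y| ≤ c) {G : (S → ℝ) → ℝ} (hG : IsL1 G) (a : ℝ) (Y : S → κ' → ℝ) (v : S → ℝ) :
    fieldOp a e (op f Y G) v = op f Y (fieldOp a e G) v := by
  unfold fieldOp op
  have hc0 : 0 ≤ c := le_trans (abs_nonneg _) (hc 0)
  have hint : Integrable (Function.uncurry fun (z : κ → ℝ) (g : κ' → ℝ) =>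
      G (fun s => v s + a * ∑ k, z k * e s k + f (∑ k, g k * Y s k)))
      ((stdG κ).prod (stdG κ')) := by
    have hcont : Continuous (Function.uncurry fun (z : κ → ℝ) (g : κ' → ℝ) =>
        G (fun s => v s + a * ∑ k, z k * e s k + f (∑ k, g k * Y s k))) := by
      refine hG.continuous.comp (continuous_pi fun s => ?_)
      refine Continuous.add ?_ (hf.comp ?_)
      · have : Continuous fun p : (κ → ℝ) × (κ' → ℝ) => v s + a * ∑ k, p.1 k * e s k := by fun_prop
        exact this
      · have : Continuous fun p : (κ → ℝ) × (κ' → ℝ) => ∑ k, p.2 k * Y s k := by fun_prop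
        exact this
    have hdom : Integrable (fun p : (κ → ℝ) × (κ' → ℝ) =>
        (|G v| + c) + |a| * ∑ k, |p.1 k|) ((stdG κ).prod (stdG κ')) := by
      refine (integrable_const _).add ?_
      exact (integrable_absSum.const_mul |a|).comp_fst _
    refine Integrable.mono' hdom hcont.aestronglyMeasurable
      (Filter.Eventually.of_forall fun p => ?_)
    rcases p with ⟨z, g⟩
    simp only [Function.uncurry_apply_pair, Real.norm_eq_abs]
    have h := hG (fun s => v s + a * ∑ k, z k * e s k + f (∑ k, g k * Y s k)) v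
      (|a| * ∑ k, |z k| + c) (fun s => by
        have h1 := abs_le.1 (field_shift_bound he a z s)
        have h2 := abs_le.1 (hc (∑ k, g k * Y s k))
        rw [abs_le]
        constructor <;> linarith [h1.1, h1.2, h2.1, h2.2])
    have h2 := abs_sub_abs_le_abs_sub
      (G (fun s => v s + a * ∑ k, z k * e s k + f (∑ k, g k * Y s k))) (G v)
    linarith
  rw [integral_integral_swap hint]
  refine integral_congr_ae (Filter.Eventually.of_forall fun g => ?_)
  refine integral_congr_ae (Filter.Eventually.of_forall fun z => ?_)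
  show G _ = G _
  congr 1
  funext s
  ring

end Vale.Agent.Lib.P157
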