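import Vale.Agent.Lib.P157.Field

/-! The second order lower bound for the Gaussian field operator acting on the log-sum. -/

open MeasureTheory ProbabilityTheory Real Filter Topology

set_option linter.unusedSectionVars false

namespace Vale.Agent.Lib.P157

variable {S : Type*} [Fintype S] [DecidableEq S] {κ : Type*} [Fintype κ]

/-- Lower bound for the hyperbolic cosine. -/
lemma one_add_sq_div_two_le_cosh (x : ℝ) : 1 + x ^ 2 / 2 ≤ Real.cosh x := by
  have h1 : Real.cosh x = 1 + 2 * Real.sinh (x / 2) ^ 2 := by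
    have := Real.cosh_two_mul (x / 2)
    have e : 2 * (x / 2) = x := by ring
    rw [e] at this
    rw [this, Real.cosh_sq]
    ring
  have h2 : (x / 2) ^ 2 ≤ Real.sinh (x / 2) ^ 2 := by
    rw [← sq_abs (x / 2), ← sq_abs (Real.sinh (x / 2))]
    apply pow_le_pow_left₀ (abs_nonneg _)
    rcases le_total 0 (x / 2) with h | h
    · rw [abs_of_nonneg h, abs_of_nonneg (Real.sinh_nonneg_iff.mpr h)]
      exact Real.self_le_sinh_iff.mpr h
    · rw [abs_of_nonpos h, abs_of_nonpos (Real.sinh_nonpos_iff.mpr h)]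
      have := Real.self_le_sinh_iff.mpr (neg_nonneg.mpr h)
      rw [Real.sinh_neg] at this
      exact this
  rw [h1]
  nlinarith

lemma log_one_add_ge {y : ℝ} (hy : 0 ≤ y) : y - y ^ 2 / 2 ≤ Real.log (1 + y) := by
  have h1 := Real.le_log_one_add_of_nonneg hy
  refine le_trans ?_ h1
  rw [le_div_iff₀ (by linarith)]
  nlinarith [mul_nonneg hy (mul_nonneg hy hy)]

/-- The log-sum after a shift. -/
lemma LS_shift [Nonempty S] (v u : S → ℝ) :
    LS (fun s => v s + u s) = LS v + Real.log (∑ s, gibbs v s * Real.exp (u s)) := by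
  have hW : 0 < ∑ x, Real.exp (v x) :=
    Finset.sum_pos (fun x _ => Real.exp_pos _) Finset.univ_nonempty
  have hP : 0 < ∑ s, gibbs v s * Real.exp (u s) := by
    apply Finset.sum_pos _ Finset.univ_nonempty
    intro s _
    unfold gibbs
    positivity
  unfold LS
  rw [← Real.log_mul hW.ne' hP.ne']
  congr 1
  rw [Finset.mul_sum]
  refine Finset.sum_congr rfl fun s _ => ?_
  rw [Real.exp_add]
  unfold gibbs
  field_simp

/-- The symmetrized second difference of the log-sum. -/
lemma LS_second_diff [Nonempty S] (v u : S → ℝ) :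
    2 * LS v + Real.log (1 + (1 / 2) * ∑ s, ∑ s', gibbs v s * gibbs v s' * (u s - u s') ^ 2)
      ≤ LS (fun s => v s + u s) + LS (fun s => v s + -u s) := by
  rw [LS_shift, LS_shift]
  set w := gibbs v with hw
  have hw0 : ∀ s, 0 ≤ w s := gibbs_nonneg v
  have hw1 : ∑ s, w s = 1 := gibbs_sum v
  have hP1 : 0 < ∑ s, w s * Real.exp (u s) := by
    apply Finset.sum_pos' (fun s _ => mul_nonneg (hw0 s) (Real.exp_pos _).le)
    obtain ⟨s, _, hs⟩ : ∃ s ∈ Finset.univ, w s ≠ 0 := by
      by_contra h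
      push Not at h
      have : ∑ s, w s = 0 := Finset.sum_eq_zero h
      rw [hw1] at this
      exact one_ne_zero this
    exact ⟨s, Finset.mem_univ _, mul_pos (lt_of_le_of_ne (hw0 s) hs.symm) (Real.exp_pos _)⟩
  have hP2 : 0 < ∑ s, w s * Real.exp (-u s) := by
    apply Finset.sum_pos' (fun s _ => mul_nonneg (hw0 s) (Real.exp_pos _).le)
    obtain ⟨s, _, hs⟩ : ∃ s ∈ Finset.univ, w s ≠ 0 := by
      by_contra h
      push Not at h
      have : ∑ s, w s = 0 := Finset.sum_eq_zero h
      rw [hw1] at this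
      exact one_ne_zero this
    exact ⟨s, Finset.mem_univ _, mul_pos (lt_of_le_of_ne (hw0 s) hs.symm) (Real.exp_pos _)⟩
  have hprod : (∑ s, w s * Real.exp (u s)) * (∑ s, w s * Real.exp (-u s))
      = ∑ s, ∑ s', w s * w s' * Real.cosh (u s - u s') := by
    have e1 : (∑ s, w s * Real.exp (u s)) * (∑ s, w s * Real.exp (-u s))
        = ∑ s, ∑ s', w s * w s' * Real.exp (u s - u s') := by
      rw [Finset.sum_mul_sum]
      refine Finset.sum_congr rfl fun s _ => Finset.sum_congr rfl fun s' _ => ?_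
      rw [sub_eq_add_neg, Real.exp_add]
      ring
    have e2 : (∑ s, w s * Real.exp (u s)) * (∑ s, w s * Real.exp (-u s))
        = ∑ s, ∑ s', w s * w s' * Real.exp (-(u s - u s')) := by
      rw [mul_comm, Finset.sum_mul_sum]
      refine Finset.sum_congr rfl fun s _ => Finset.sum_congr rfl fun s' _ => ?_
      rw [neg_sub, sub_eq_add_neg, Real.exp_add]
      ring
    have e3 : ∑ s, ∑ s', w s * w s' * Real.cosh (u s - u s')
        = (1 / 2) * ((∑ s, ∑ s', w s * w s' * Real.exp (u s - u s'))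
          + ∑ s, ∑ s', w s * w s' * Real.exp (-(u s - u s'))) := by
      rw [← Finset.sum_add_distrib, Finset.mul_sum]
      refine Finset.sum_congr rfl fun s _ => ?_
      rw [← Finset.sum_add_distrib, Finset.mul_sum]
      refine Finset.sum_congr rfl fun s' _ => ?_
      rw [Real.cosh_eq]
      ring
    rw [e3, ← e1, ← e2]
    ring
  have hlow : 1 + (1 / 2) * ∑ s, ∑ s', w s * w s' * (u s - u s') ^ 2
      ≤ (∑ s, w s * Real.exp (u s)) * (∑ s, w s * Real.exp (-u s)) := by
    rw [hprod]
    have h1 : (1:ℝ) = ∑ s, ∑ s', w s * w s' := by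
      rw [← Finset.sum_mul_sum, hw1, one_mul]
    have h2 : 1 + (1 / 2) * ∑ s, ∑ s', w s * w s' * (u s - u s') ^ 2
        = ∑ s, ∑ s', w s * w s' * (1 + (u s - u s') ^ 2 / 2) := by
      have h3 : 1 + (1 / 2) * ∑ s, ∑ s', w s * w s' * (u s - u s') ^ 2
          = (∑ s, ∑ s', w s * w s') + (1 / 2) * ∑ s, ∑ s', w s * w s' * (u s - u s') ^ 2 := by
        rw [← h1]
      rw [h3, Finset.mul_sum, ← Finset.sum_add_distrib]
      refine Finset.sum_congr rfl fun s _ => ?_
      rw [Finset.mul_sum, ← Finset.sum_add_distrib]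
      refine Finset.sum_congr rfl fun s' _ => ?_
      ring
    rw [h2]
    refine Finset.sum_le_sum fun s _ => Finset.sum_le_sum fun s' _ => ?_
    exact mul_le_mul_of_nonneg_left (one_add_sq_div_two_le_cosh _)
      (mul_nonneg (hw0 s) (hw0 s'))
  have hy : 0 ≤ (1 / 2) * ∑ s, ∑ s', w s * w s' * (u s - u s') ^ 2 := by
    apply mul_nonneg (by norm_num)
    exact Finset.sum_nonneg fun s _ => Finset.sum_nonneg fun s' _ =>
      mul_nonneg (mul_nonneg (hw0 s) (hw0 s')) (sq_nonneg _)
  have hlog := Real.log_le_log (by linarith) hlow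
  rw [Real.log_mul hP1.ne' hP2.ne'] at hlog
  linarith

/-- Second moment of a linear form of independent standard Gaussians. -/
lemma integral_coord_mul {k l : κ} (hkl : k ≠ l) :
    ∫ z : κ → ℝ, z k * z l ∂(stdG κ) = 0 := by
  classical
  have h := integral_fintype_prod_eq_prod (𝕜 := ℝ) (μ := fun _ : κ => gam)
    (f := fun i (y : ℝ) => if i = k then y else if i = l then y else 1)
  have e : ∀ z : κ → ℝ, ∏ i, (if i = k then z i else if i = l then z i else 1) = z k * z l := by
    intro z
    rw [Finset.prod_eq_mul k l hkl]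
    · simp [hkl.symm]
    · intro c _ hc
      simp [hc.1, hc.2]
    · simp
    · simp
  simp_rw [e] at h
  rw [h]
  apply Finset.prod_eq_zero (Finset.mem_univ k)
  simp [integral_id_gaussianReal]

lemma integral_sq_gam : ∫ y, y ^ 2 ∂gam = 1 := by
  have h := variance_fun_id_gaussianReal (μ := 0) (v := 1)
  rw [variance_eq_integral aemeasurable_id'] at h
  simp only [integral_id_gaussianReal, sub_zero] at h
  simpa using h

lemma integrable_sq_gam : Integrable (fun y : ℝ => y ^ 2) gam := by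
  have h : MemLp id 2 gam := by
    have := memLp_id_gaussianReal (μ := 0) (v := 1) 2
    simpa using this
  have := h.integrable_norm_pow (by norm_num)
  simpa using this

lemma integrable_fourth_gam : Integrable (fun y : ℝ => |y| ^ 4) gam := by
  have h : MemLp id 4 gam := by
    have := memLp_id_gaussianReal (μ := 0) (v := 1) 4
    simpa using this
  have := h.integrable_norm_pow (by norm_num)
  simpa using this

lemma integrable_coord_mul (k l : κ) : Integrable (fun z : κ → ℝ => z k * z l) (stdG κ) := by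
  have h1 : Integrable (fun z : κ → ℝ => (z k) ^ 2 + (z l) ^ 2) (stdG κ) :=
    (integrable_coord integrable_sq_gam k).add (integrable_coord integrable_sq_gam l)
  refine Integrable.mono' h1 (by apply Continuous.aestronglyMeasurable; fun_prop)
    (Filter.Eventually.of_forall fun z => ?_)
  rw [Real.norm_eq_abs, abs_le]
  constructor <;> nlinarith [sq_nonneg (z k - z l), sq_nonneg (z k + z l)]

lemma integral_dot_sq (d : κ → ℝ) :
    ∫ z : κ → ℝ, (∑ k, z k * d k) ^ 2 ∂(stdG κ) = ∑ k, d k ^ 2 := by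
  classical
  have e : ∀ z : κ → ℝ, (∑ k, z k * d k) ^ 2 = ∑ k, ∑ l, d k * d l * (z k * z l) := by
    intro z
    rw [sq, Finset.sum_mul_sum]
    refine Finset.sum_congr rfl fun k _ => Finset.sum_congr rfl fun l _ => ?_
    ring
  simp_rw [e]
  rw [integral_finsetSum _ (fun k _ => integrable_finsetSum _ fun l _ =>
    (integrable_coord_mul k l).const_mul _)]
  refine Finset.sum_congr rfl fun k _ => ?_
  rw [integral_finsetSum _ (fun l _ => (integrable_coord_mul k l).const_mul _)]
  rw [Finset.sum_eq_single k]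
  · rw [integral_const_mul]
    have : ∫ z : κ → ℝ, z k * z k ∂(stdG κ) = 1 := by
      have h := integral_coord (κ := κ) integrable_sq_gam k
      rw [integral_sq_gam] at h
      simp only [sq] at h
      exact h
    rw [this]
    ring
  · intro l _ hl
    rw [integral_const_mul, integral_coord_mul hl.symm, mul_zero]
  · simp

lemma integrable_dot_sq (d : κ → ℝ) :
    Integrable (fun z : κ → ℝ => (∑ k, z k * d k) ^ 2) (stdG κ) := by
  have e : ∀ z : κ → ℝ, (∑ k, z k * d k) ^ 2 = ∑ k, ∑ l, d k * d l * (z k * z l) := by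
    intro z
    rw [sq, Finset.sum_mul_sum]
    refine Finset.sum_congr rfl fun k _ => Finset.sum_congr rfl fun l _ => ?_
    ring
  simp_rw [e]
  exact integrable_finsetSum _ (fun k _ => integrable_finsetSum _ fun l _ =>
    (integrable_coord_mul k l).const_mul _)

/-- The fourth moment of the sum of absolute values. -/
lemma integrable_absSum_fourth : Integrable (fun z : κ → ℝ => (∑ k, |z k|) ^ 4) (stdG κ) := by
  have h1 : ∀ k : κ, MemLp (fun z : κ → ℝ => |z k|) 4 (stdG κ) := by
    intro k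
    have h : MemLp id ((4 : NNReal) : ENNReal) gam := memLp_id_gaussianReal 4
    have h2 := h.comp_measurePreserving (measurePreserving_eval (fun _ : κ => gam) k)
    have h3 := h2.norm
    exact h3
  have h2 : MemLp (fun z : κ → ℝ => ∑ k, |z k|) 4 (stdG κ) := by
    have := memLp_finsetSum' (Finset.univ : Finset κ) (fun k _ => h1 k)
    refine this.ae_eq ?_ |> id
    exact Filter.Eventually.of_forall fun z => by simp
  have h3 := h2.integrable_norm_pow (p := 4) (by norm_num)
  refine h3.congr (Filter.Eventually.of_forall fun z => ?_)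
  simp only [Real.norm_eq_abs]
  rw [abs_of_nonneg (Finset.sum_nonneg fun k _ => abs_nonneg _)]

/-- Symmetry of the standard Gaussian under negation. -/
lemma integral_neg_stdG (F : (κ → ℝ) → ℝ) :
    ∫ z, F (-z) ∂(stdG κ) = ∫ z, F z ∂(stdG κ) := by
  have h : MeasurePreserving (Pi.map fun _ : κ => (fun y : ℝ => -y)) (stdG κ) (stdG κ) := by
    apply measurePreserving_pi
    intro _
    refine ⟨measurable_neg, ?_⟩
    rw [gaussianReal_map_neg]
    simp
  have h' : MeasurePreserving (MeasurableEquiv.neg (κ → ℝ)) (stdG κ) (stdG κ) := by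
    refine ⟨measurable_neg, ?_⟩
    have := h.map_eq
    convert this using 2
    funext z k
    simp [Pi.map]
  have := h'.integral_comp' F
  exact this

/-- The constant in the second order bound. -/
noncomputable def KK (κ : Type*) [Fintype κ] : ℝ := ∫ z : κ → ℝ, 16 * (∑ k, |z k|) ^ 4 ∂(stdG κ)

lemma KK_nonneg : 0 ≤ KK κ := integral_nonneg fun z => by positivity

/-- The quadratic form in the Gaussian field. -/
noncomputable def Qz (w : S → ℝ) (e : S → κ → ℝ) (z : κ → ℝ) : ℝ :=
  ∑ s, ∑ s', w s * w s' * (∑ k, z k * (e s k - e s' k)) ^ 2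

/-- The Gibbs average of the squared distance. -/
noncomputable def Dd (w : S → ℝ) (e : S → κ → ℝ) : ℝ :=
  ∑ s, ∑ s', w s * w s' * ∑ k, (e s k - e s' k) ^ 2

lemma Qz_integrable (w : S → ℝ) (e : S → κ → ℝ) : Integrable (Qz w e) (stdG κ) := by
  unfold Qz
  exact integrable_finsetSum _ fun s _ => integrable_finsetSum _ fun s' _ =>
    (integrable_dot_sq _).const_mul _

lemma Qz_integral (w : S → ℝ) (e : S → κ → ℝ) : ∫ z, Qz w e z ∂(stdG κ) = Dd w e := by
  unfold Qz Dd
  rw [integral_finsetSum _ fun s _ => integrable_finsetSum _ fun s' _ =>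
    (integrable_dot_sq _).const_mul _]
  refine Finset.sum_congr rfl fun s _ => ?_
  rw [integral_finsetSum _ fun s' _ => (integrable_dot_sq _).const_mul _]
  refine Finset.sum_congr rfl fun s' _ => ?_
  rw [integral_const_mul, integral_dot_sq]

lemma Qz_bounds {w : S → ℝ} (hw0 : ∀ s, 0 ≤ w s) (hw1 : ∑ s, w s = 1) {e : S → κ → ℝ}
    (he : ∀ s k, |e s k| ≤ 1) (z : κ → ℝ) :
    0 ≤ Qz w e z ∧ Qz w e z ≤ 4 * (∑ k, |z k|) ^ 2 := by
  constructor
  · exact Finset.sum_nonneg fun s _ => Finset.sum_nonneg fun s' _ =>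
      mul_nonneg (mul_nonneg (hw0 s) (hw0 s')) (sq_nonneg _)
  · have h1 : ∀ s s', (∑ k, z k * (e s k - e s' k)) ^ 2 ≤ 4 * (∑ k, |z k|) ^ 2 := by
      intro s s'
      have h2 : |∑ k, z k * (e s k - e s' k)| ≤ 2 * ∑ k, |z k| := by
        refine (Finset.abs_sum_le_sum_abs _ _).trans ?_
        rw [Finset.mul_sum]
        refine Finset.sum_le_sum fun k _ => ?_
        rw [abs_mul, mul_comm]
        apply mul_le_mul_of_nonneg_right _ (abs_nonneg _)
        have := abs_le.1 (he s k)
        have := abs_le.1 (he s' k)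
        rw [abs_le]
        constructor <;> linarith [(abs_le.1 (he s k)).1, (abs_le.1 (he s k)).2,
          (abs_le.1 (he s' k)).1, (abs_le.1 (he s' k)).2]
      calc (∑ k, z k * (e s k - e s' k)) ^ 2 = |∑ k, z k * (e s k - e s' k)| ^ 2 := (sq_abs _).symm
        _ ≤ (2 * ∑ k, |z k|) ^ 2 := pow_le_pow_left₀ (abs_nonneg _) h2 2
        _ = 4 * (∑ k, |z k|) ^ 2 := by ring
    calc Qz w e z ≤ ∑ s, ∑ s', w s * w s' * (4 * (∑ k, |z k|) ^ 2) := by
          refine Finset.sum_le_sum fun s _ => Finset.sum_le_sum fun s' _ => ?_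
          exact mul_le_mul_of_nonneg_left (h1 s s') (mul_nonneg (hw0 s) (hw0 s'))
      _ = (∑ s, ∑ s', w s * w s') * (4 * (∑ k, |z k|) ^ 2) := by
          rw [Finset.sum_mul]
          refine Finset.sum_congr rfl fun s _ => ?_
          rw [Finset.sum_mul]
      _ = 4 * (∑ k, |z k|) ^ 2 := by
          rw [← Finset.sum_mul_sum, hw1]
          ring

/-- The second order lower bound for the Gaussian field operator on the log-sum. -/
theorem field_second_order [Nonempty S] {e : S → κ → ℝ} (he : ∀ s k, |e s k| ≤ 1) (a : ℝ)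
    (v : S → ℝ) :
    LS v + (a ^ 2 / 4) * Dd (gibbs v) e - (a ^ 4 / 16) * KK κ ≤ fieldOp a e LS v := by
  set w := gibbs v with hw
  have hw0 : ∀ s, 0 ≤ w s := gibbs_nonneg v
  have hw1 : ∑ s, w s = 1 := gibbs_sum v
  have hint1 := fieldOp_integrable (κ := κ) he (LS_isL1 (S := S)) a v
  -- the reflected integrand
  have hsym : ∫ z, LS (fun s => v s + -(a * ∑ k, z k * e s k)) ∂(stdG κ) = fieldOp a e LS v := by
    have h := integral_neg_stdG (fun z : κ → ℝ => LS (fun s => v s + a * ∑ k, z k * e s k))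
    unfold fieldOp
    rw [← h]
    refine integral_congr_ae (Filter.Eventually.of_forall fun z => ?_)
    simp only
    congr 1
    funext s
    congr 1
    simp only [Pi.neg_apply, neg_mul, Finset.sum_neg_distrib, mul_neg]
  have hint2 : Integrable (fun z : κ → ℝ => LS (fun s => v s + -(a * ∑ k, z k * e s k)))
      (stdG κ) := by
    have h := fieldOp_integrable (κ := κ) (fun s k => by simpa using he s k :
      ∀ s k, |(-e s k)| ≤ 1) (LS_isL1 (S := S)) a v
    refine h.congr (Filter.Eventually.of_forall fun z => ?_)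
    simp only
    congr 1
    funext s
    congr 1
    simp only [mul_neg, Finset.sum_neg_distrib]
  -- the lower integrand
  set y : (κ → ℝ) → ℝ := fun z => (a ^ 2 / 2) * Qz w e z with hy
  have hQ := Qz_integrable w e
  have hQ2 : Integrable (fun z => (Qz w e z) ^ 2) (stdG κ) := by
    have hdom : Integrable (fun z : κ → ℝ => 16 * (∑ k, |z k|) ^ 4) (stdG κ) :=
      integrable_absSum_fourth.const_mul 16
    have hcont : Continuous (Qz w e) := by
      unfold Qz
      fun_prop
    refine Integrable.mono' hdom (hcont.pow 2).aestronglyMeasurable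
      (Filter.Eventually.of_forall fun z => ?_)
    obtain ⟨h0, h1⟩ := Qz_bounds hw0 hw1 he z
    rw [Real.norm_eq_abs, abs_of_nonneg (sq_nonneg _)]
    calc (Qz w e z) ^ 2 ≤ (4 * (∑ k, |z k|) ^ 2) ^ 2 := pow_le_pow_left₀ h0 h1 2
      _ = 16 * (∑ k, |z k|) ^ 4 := by ring
  have hQ2le : ∫ z, (Qz w e z) ^ 2 ∂(stdG κ) ≤ KK κ := by
    unfold KK
    refine integral_mono hQ2 (integrable_absSum_fourth.const_mul 16) fun z => ?_
    obtain ⟨h0, h1⟩ := Qz_bounds hw0 hw1 he z
    calc (Qz w e z) ^ 2 ≤ (4 * (∑ k, |z k|) ^ 2) ^ 2 := pow_le_pow_left₀ h0 h1 2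
      _ = 16 * (∑ k, |z k|) ^ 4 := by ring
  have hpt : ∀ z, 2 * LS v + (y z - (y z) ^ 2 / 2)
      ≤ LS (fun s => v s + a * ∑ k, z k * e s k) + LS (fun s => v s + -(a * ∑ k, z k * e s k)) := by
    intro z
    have h := LS_second_diff v (fun s => a * ∑ k, z k * e s k)
    have hy0 : 0 ≤ y z := by
      apply mul_nonneg (by positivity) (Qz_bounds hw0 hw1 he z).1
    have hl := log_one_add_ge hy0
    have e1 : (1 / 2) * ∑ s, ∑ s', gibbs v s * gibbs v s'
        * (a * ∑ k, z k * e s k - a * ∑ k, z k * e s' k) ^ 2 = y z := by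
      have e3 : ∀ s s', gibbs v s * gibbs v s'
          * (a * ∑ k, z k * e s k - a * ∑ k, z k * e s' k) ^ 2
          = a ^ 2 * (gibbs v s * gibbs v s' * (∑ k, z k * (e s k - e s' k)) ^ 2) := by
        intro s s'
        have e2 : a * ∑ k, z k * e s k - a * ∑ k, z k * e s' k
            = a * ∑ k, z k * (e s k - e s' k) := by
          rw [← mul_sub, ← Finset.sum_sub_distrib]
          congr 1
          refine Finset.sum_congr rfl fun k _ => ?_
          ring
        rw [e2]
        ring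
      simp_rw [e3]
      show _ = (a ^ 2 / 2) * Qz (gibbs v) e z
      unfold Qz
      simp_rw [← Finset.mul_sum]
      ring
    rw [e1] at h
    linarith
  have hI1 := hQ.const_mul (a ^ 2 / 2)
  have hI2 := hQ2.const_mul ((a ^ 2 / 2) ^ 2 / 2)
  have hI3 := (integrable_const (μ := stdG κ) (2 * LS v)).add (hI1.sub hI2)
  have hyeq : ∀ z, 2 * LS v + (y z - (y z) ^ 2 / 2)
      = 2 * LS v + ((a ^ 2 / 2) * Qz w e z - ((a ^ 2 / 2) ^ 2 / 2) * (Qz w e z) ^ 2) := by
    intro z
    simp only [hy]
    ring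
  have hint3 : Integrable (fun z => 2 * LS v + (y z - (y z) ^ 2 / 2)) (stdG κ) := by
    refine hI3.congr (Filter.Eventually.of_forall fun z => ?_)
    simp only [Pi.add_apply, Pi.sub_apply]
    rw [hyeq]
  have hmono := integral_mono hint3 (hint1.add hint2) hpt
  rw [integral_add' hint1 hint2, hsym] at hmono
  have hL : ∫ z, (2 * LS v + (y z - (y z) ^ 2 / 2)) ∂(stdG κ)
      = 2 * LS v + ((a ^ 2 / 2) * Dd w e - ((a ^ 2 / 2) ^ 2 / 2) * ∫ z, (Qz w e z) ^ 2 ∂(stdG κ)) := by
    simp_rw [hyeq]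
    have hI4 : Integrable (fun z => (a ^ 2 / 2) * Qz w e z - ((a ^ 2 / 2) ^ 2 / 2) * (Qz w e z) ^ 2)
        (stdG κ) := hI1.sub hI2
    have e5 : ∫ z, ((a ^ 2 / 2) ^ 2 / 2) * (Qz w e z) ^ 2 ∂(stdG κ)
        = ((a ^ 2 / 2) ^ 2 / 2) * ∫ z, (Qz w e z) ^ 2 ∂(stdG κ) := integral_const_mul _ _
    have e6 : ∫ z, (a ^ 2 / 2) * Qz w e z ∂(stdG κ) = (a ^ 2 / 2) * ∫ z, Qz w e z ∂(stdG κ) :=
      integral_const_mul _ _
    rw [integral_add (integrable_const _) hI4, integral_sub hI1 hI2, e5, e6, Qz_integral]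
    simp
  rw [hL] at hmono
  have hfield : ∫ z, LS (fun s => v s + a * ∑ k, z k * e s k) ∂(stdG κ) = fieldOp a e LS v := rfl
  rw [hfield] at hmono
  have h4 : ((a ^ 2 / 2) ^ 2 / 2) * ∫ z, (Qz w e z) ^ 2 ∂(stdG κ)
      ≤ ((a ^ 2 / 2) ^ 2 / 2) * KK κ := mul_le_mul_of_nonneg_left hQ2le (by positivity)
  have h5 : ((a ^ 2 / 2) ^ 2 / 2) * KK κ = 2 * ((a ^ 4 / 16) * KK κ) := by ring
  have h6 : (a ^ 2 / 2) * Dd w e = 2 * ((a ^ 2 / 4) * Dd w e) := by ring
  linarith

end Vale.Agent.Lib.P157
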