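import Vale.Agent.Lib.P157.Cube

open MeasureTheory ProbabilityTheory Real Filter Topology

namespace Vale.Agent.Lib.P157

lemma LS_const_zero (N : ℕ) :
    LS (fun _ : Fin N → Bool => -(N : ℝ) * Real.log 2) = 0 := by
  unfold LS
  simp only [exp_neg_log2]
  rw [Finset.sum_const, Finset.card_univ]
  simp

lemma aN_abs_le {f : ℝ → ℝ} (hf : Continuous f) {c : ℝ} (hc : ∀ y, |f y| ≤ c) (N M : ℕ) :
    |aN f N M| ≤ c * M := by
  have hA : ∀ j, |aN f N (j + 1) - aN f N j| ≤ c := by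
    intro j
    unfold aN
    rw [Function.iterate_succ_apply']
    exact op_sub_abs_le hf hc (iter_isL1 hf hc (Yc N) LS_isL1 j) (Yc N) _
  have h := nat_lip hA M 0
  have h0 : aN f N 0 = 0 := by
    unfold aN
    simpa using LS_const_zero N
  rw [h0] at h
  simpa using h

lemma sqrt_add_le (a b : ℕ) (h : b ≤ a) :
    Real.sqrt ((a + b : ℕ) : ℝ) + (1 / 2) * Real.sqrt (b : ℝ)
      ≤ Real.sqrt (a : ℝ) + Real.sqrt (b : ℝ) := by
  have ha : (0 : ℝ) ≤ a := Nat.cast_nonneg a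
  have hb : (0 : ℝ) ≤ b := Nat.cast_nonneg b
  have hba : (b : ℝ) ≤ a := by exact_mod_cast h
  have hs : Real.sqrt (b : ℝ) ≤ Real.sqrt (a : ℝ) := Real.sqrt_le_sqrt hba
  have hs0 : 0 ≤ Real.sqrt (b : ℝ) := Real.sqrt_nonneg _
  have sa : Real.sqrt (a : ℝ) ^ 2 = a := Real.sq_sqrt ha
  have sb : Real.sqrt (b : ℝ) ^ 2 = b := Real.sq_sqrt hb
  have key : Real.sqrt ((a + b : ℕ) : ℝ) ≤ Real.sqrt (a : ℝ) + (1 / 2) * Real.sqrt (b : ℝ) := by
    apply Real.sqrt_le_iff.2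
    constructor
    · positivity
    · push_cast
      nlinarith [mul_nonneg (sub_nonneg.2 hs) hs0]
  linarith

/-- The block superadditivity with the explicit square-root error. -/
theorem aN_block {ρ : Measure ℝ} [IsFiniteMeasure ρ] {A : ℝ} (hA : ρ.real Set.univ < A)
    {c : ℝ} (hc : ∀ y, |fA ρ A y| ≤ c) {α : ℝ} (hα : 0 < α) {N₁ N₂ : ℕ} (hN₁ : 0 < N₁)
    (hN₂ : 0 < N₂) (n : ℕ) (hn₁ : n ≤ N₁) (hn₂ : n ≤ N₂) (hn : 0 < n)
    (hnmin : n = N₁ ∨ n = N₂) :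
    aN (fA ρ A) N₁ ⌊α * N₁⌋₊ + aN (fA ρ A) N₂ ⌊α * N₂⌋₊ - c * (2 + α) * Real.sqrt n
      ≤ aN (fA ρ A) (N₁ + N₂) ⌊α * ((N₁ + N₂ : ℕ) : ℝ)⌋₊ := by
  have hc0 : 0 ≤ c := le_trans (abs_nonneg _) (hc 0)
  set M := ⌊α * ((N₁ + N₂ : ℕ) : ℝ)⌋₊ with hM
  set M₁ := ⌊α * N₁⌋₊ with hM₁
  set M₂ := ⌊α * N₂⌋₊ with hM₂
  have hN₁' : (0 : ℝ) < N₁ := by exact_mod_cast hN₁
  have hN₂' : (0 : ℝ) < N₂ := by exact_mod_cast hN₂
  have hn' : (1 : ℝ) ≤ n := by exact_mod_cast hn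
  set s : ℝ := Real.sqrt n with hs
  have hs1 : 1 ≤ s := by
    rw [hs]; exact Real.one_le_sqrt.2 hn'
  have hs0 : 0 < s := by linarith
  have hss : s ^ 2 = n := Real.sq_sqrt (by linarith)
  have main := aN_superadd hA hc hN₁ hN₂ M M₁ M₂ hs0
  refine le_trans ?_ main
  set N : ℝ := (N₁ + N₂ : ℝ) with hNdef
  have hNpos : 0 < N := by positivity
  set l₁ : ℝ := N₁ / N with hl₁
  set l₂ : ℝ := N₂ / N with hl₂
  have hl₁0 : 0 ≤ l₁ := by positivity
  have hl₂0 : 0 ≤ l₂ := by positivity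
  have hl : l₁ + l₂ = 1 := by
    rw [hl₁, hl₂]; field_simp; rw [hNdef]
  -- floor bounds
  have hMle : (M : ℝ) ≤ α * N := by
    have := Nat.floor_le (a := α * ((N₁ + N₂ : ℕ) : ℝ)) (by positivity)
    rw [hM]
    simpa [hNdef] using this
  have hMgt : α * N - 1 < (M : ℝ) := by
    have := Nat.lt_floor_add_one (α * ((N₁ + N₂ : ℕ) : ℝ))
    rw [hM]
    have e : α * ((N₁ + N₂ : ℕ) : ℝ) = α * N := by
      rw [hNdef]; push_cast; ring
    rw [e] at this ⊢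
    linarith
  have hM₁le : (M₁ : ℝ) ≤ α * N₁ := Nat.floor_le (by positivity)
  have hM₁gt : α * N₁ - 1 < (M₁ : ℝ) := by
    have := Nat.lt_floor_add_one (α * (N₁ : ℝ))
    rw [hM₁]; linarith
  have hM₂le : (M₂ : ℝ) ≤ α * N₂ := Nat.floor_le (by positivity)
  have hM₂gt : α * N₂ - 1 < (M₂ : ℝ) := by
    have := Nat.lt_floor_add_one (α * (N₂ : ℝ))
    rw [hM₂]; linarith
  have hl₁1 : l₁ ≤ 1 := by linarith
  have hl₂1 : l₂ ≤ 1 := by linarith
  have e1 : α * N * l₁ = α * N₁ := by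
    rw [hl₁]; field_simp
  have e2 : α * N * l₂ = α * N₂ := by
    rw [hl₂]; field_simp
  have b1 : ((M : ℝ) * l₁ - M₁) ^ 2 ≤ 1 := by
    have u1 : (M : ℝ) * l₁ ≤ α * N * l₁ := mul_le_mul_of_nonneg_right hMle hl₁0
    have u2 : (α * N - 1) * l₁ ≤ (M : ℝ) * l₁ := mul_le_mul_of_nonneg_right hMgt.le hl₁0
    have u3 : (α * N - 1) * l₁ = α * N₁ - l₁ := by rw [sub_mul, e1, one_mul]
    rw [e1] at u1
    have : |(M : ℝ) * l₁ - M₁| ≤ 1 := by
      rw [abs_le]; constructor <;> linarith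
    calc ((M : ℝ) * l₁ - M₁) ^ 2 = |(M : ℝ) * l₁ - M₁| ^ 2 := (sq_abs _).symm
      _ ≤ 1 ^ 2 := pow_le_pow_left₀ (abs_nonneg _) this 2
      _ = 1 := by norm_num
  have b2 : ((M : ℝ) * l₂ - M₂) ^ 2 ≤ 1 := by
    have u1 : (M : ℝ) * l₂ ≤ α * N * l₂ := mul_le_mul_of_nonneg_right hMle hl₂0
    have u2 : (α * N - 1) * l₂ ≤ (M : ℝ) * l₂ := mul_le_mul_of_nonneg_right hMgt.le hl₂0
    have u3 : (α * N - 1) * l₂ = α * N₂ - l₂ := by rw [sub_mul, e2, one_mul]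
    rw [e2] at u1
    have : |(M : ℝ) * l₂ - M₂| ≤ 1 := by
      rw [abs_le]; constructor <;> linarith
    calc ((M : ℝ) * l₂ - M₂) ^ 2 = |(M : ℝ) * l₂ - M₂| ^ 2 := (sq_abs _).symm
      _ ≤ 1 ^ 2 := pow_le_pow_left₀ (abs_nonneg _) this 2
      _ = 1 := by norm_num
  have b3 : (M : ℝ) * l₁ * l₂ ≤ α * n := by
    have u1 : (M : ℝ) * l₁ * l₂ ≤ α * N * l₁ * l₂ :=
      mul_le_mul_of_nonneg_right (mul_le_mul_of_nonneg_right hMle hl₁0) hl₂0
    have u2 : α * N * l₁ * l₂ = α * (N₁ * N₂ / N) := by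
      rw [hl₁, hl₂]; field_simp
    have u3 : (N₁ : ℝ) * N₂ / N ≤ n := by
      rw [div_le_iff₀ hNpos]
      rcases hnmin with h | h
      · rw [h]
        have : (N₂ : ℝ) ≤ N := by rw [hNdef]; linarith
        exact mul_le_mul_of_nonneg_left this hN₁'.le
      · rw [h]
        have : (N₁ : ℝ) ≤ N := by rw [hNdef]; linarith
        rw [mul_comm]
        exact mul_le_mul_of_nonneg_left this hN₂'.le
    calc (M : ℝ) * l₁ * l₂ ≤ α * N * l₁ * l₂ := u1
      _ = α * (N₁ * N₂ / N) := u2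
      _ ≤ α * n := mul_le_mul_of_nonneg_left u3 hα.le
  -- the error term
  have hX : (((M : ℝ) * l₁ - M₁) ^ 2 + (M : ℝ) * l₁ * l₂ + ((M : ℝ) * l₂ - M₂) ^ 2
      + (M : ℝ) * l₁ * l₂) / (2 * s) + s ≤ (2 + α) * s := by
    have h1 : ((M : ℝ) * l₁ - M₁) ^ 2 + (M : ℝ) * l₁ * l₂ + ((M : ℝ) * l₂ - M₂) ^ 2
        + (M : ℝ) * l₁ * l₂ ≤ 2 * (s ^ 2 + α * s ^ 2) := by
      rw [hss]
      have : (1 : ℝ) ≤ n := hn'
      have : 0 ≤ α * n := by positivity
      linarith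
    have h2 : (((M : ℝ) * l₁ - M₁) ^ 2 + (M : ℝ) * l₁ * l₂ + ((M : ℝ) * l₂ - M₂) ^ 2
        + (M : ℝ) * l₁ * l₂) / (2 * s) ≤ (1 + α) * s := by
      rw [div_le_iff₀ (by positivity)]
      calc _ ≤ 2 * (s ^ 2 + α * s ^ 2) := h1
        _ = (1 + α) * s * (2 * s) := by ring
    have h3 : (2 + α) * s = (1 + α) * s + s := by ring
    linarith
  have hmul := mul_le_mul_of_nonneg_left hX hc0
  have e3 : c * ((2 + α) * s) = c * (2 + α) * s := by ring
  rw [e3] at hmul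
  linarith

/-- Existence of the limit for the class of potentials. -/
theorem exists_limit {ρ : Measure ℝ} [IsFiniteMeasure ρ] {A : ℝ} (hA : ρ.real Set.univ < A)
    {α : ℝ} (hα : 0 < α) :
    ∃ L : ℝ, Tendsto (fun N : ℕ => expectedPressure (fA ρ A) α N) atTop (𝓝 L) := by
  set c : ℝ := |Real.log (A - ρ.real Set.univ)| + |Real.log (A + ρ.real Set.univ)| with hcdef
  have hc : ∀ y, |fA ρ A y| ≤ c := fA_abs_le ρ hA
  have hf := fA_continuous ρ hA
  have hc0 : 0 ≤ c := le_trans (abs_nonneg _) (hc 0)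
  set C : ℝ := c * (2 + α) with hCdef
  have hC0 : 0 ≤ C := by positivity
  -- the shifted sequence is subadditive
  let u : ℕ → ℝ := fun N => -aN (fA ρ A) N ⌊α * N⌋₊ + 2 * C * Real.sqrt N
  have hu0 : u 0 = 0 := by
    simp only [u]
    have : aN (fA ρ A) 0 ⌊α * ((0 : ℕ) : ℝ)⌋₊ = 0 := by
      simp only [Nat.cast_zero, mul_zero, Nat.floor_zero, aN]
      simpa using LS_const_zero 0
    rw [this]
    simp
  have hsub : Subadditive u := by
    intro m n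
    rcases Nat.eq_zero_or_pos m with rfl | hm
    · rw [zero_add, hu0, zero_add]
    rcases Nat.eq_zero_or_pos n with rfl | hn
    · rw [add_zero, hu0, add_zero]
    simp only [u]
    rcases le_total n m with h | h
    · have h1 := aN_block hA hc hα hm hn n h le_rfl hn (Or.inr rfl)
      have h2 := sqrt_add_le m n h
      have h3 := mul_le_mul_of_nonneg_left h2 (by positivity : 0 ≤ 2 * C)
      rw [← hCdef] at h1
      nlinarith
    · have h1 := aN_block hA hc hα hm hn m le_rfl h hm (Or.inl rfl)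
      have h2 := sqrt_add_le n m h
      have h3 := mul_le_mul_of_nonneg_left h2 (by positivity : 0 ≤ 2 * C)
      rw [← hCdef] at h1
      rw [add_comm n m] at h3
      nlinarith
  have hbdd : BddBelow (Set.range fun n : ℕ => u n / n) := by
    refine ⟨-(c * α), ?_⟩
    rintro _ ⟨n, rfl⟩
    simp only
    rcases Nat.eq_zero_or_pos n with rfl | hn
    · simp
      positivity
    have hn' : (0 : ℝ) < n := by exact_mod_cast hn
    rw [le_div_iff₀ hn']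
    simp only [u]
    have h1 := aN_abs_le hf hc n ⌊α * n⌋₊
    have h2 : (⌊α * (n : ℝ)⌋₊ : ℝ) ≤ α * n := Nat.floor_le (by positivity)
    have h3 := (abs_le.1 h1).2
    have h4 : c * (⌊α * (n : ℝ)⌋₊ : ℝ) ≤ c * (α * n) := mul_le_mul_of_nonneg_left h2 hc0
    have h5 : 0 ≤ 2 * C * Real.sqrt n := by positivity
    nlinarith
  have hlim := hsub.tendsto_lim hbdd
  refine ⟨-hsub.lim, ?_⟩
  have hsq : Tendsto (fun n : ℕ => 2 * C * (Real.sqrt n / n)) atTop (𝓝 (2 * C * 0)) := by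
    apply Tendsto.const_mul
    have : (fun n : ℕ => Real.sqrt n / n) = fun n : ℕ => (Real.sqrt n)⁻¹ := by
      funext n
      rw [Real.sqrt_div_self', one_div]
    rw [this]
    exact tendsto_inv_atTop_zero.comp
      (Real.tendsto_sqrt_atTop.comp tendsto_natCast_atTop_atTop)
  have hsum := (hlim.neg).add hsq
  have hsum' : Tendsto (fun n : ℕ => -(u n / n) + 2 * C * (Real.sqrt n / n)) atTop
      (𝓝 (-hsub.lim)) := by
    simpa using hsum
  refine hsum'.congr fun n => ?_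
  rw [expectedPressure_eq hf hc]
  simp only [u]
  rw [add_div, neg_div, one_div, mul_div_assoc]
  rw [div_eq_inv_mul (aN _ _ _)]
  ring

end Vale.Agent.Lib.P157
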