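import Vale.Agent.Lib.P157.RSCube

open MeasureTheory ProbabilityTheory Real Filter Topology

namespace Vale.Agent.Lib.P157

lemma nonneg_of_step {f f' : ℝ → ℝ} (h0 : f 0 = 0) (hd : ∀ x, HasDerivAt f (f' x) x)
    (hpos : ∀ x, 0 ≤ x → 0 ≤ f' x) : ∀ x, 0 ≤ x → 0 ≤ f x := by
  intro x hx
  have hmono : MonotoneOn f (Set.Ici 0) := by
    refine monotoneOn_of_deriv_nonneg (convex_Ici 0) ?_ ?_ ?_
    · exact fun y _ => (hd y).continuousAt.continuousWithinAt
    · exact fun y _ => (hd y).differentiableAt.differentiableWithinAt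
    · intro y hy
      rw [(hd y).deriv]
      rw [interior_Ici] at hy
      exact hpos y (le_of_lt hy)
  have := hmono (Set.mem_Ici.2 le_rfl) (Set.mem_Ici.2 hx) hx
  rwa [h0] at this

lemma hasDerivAt_cc {a b : ℝ → ℝ} {a' b' x : ℝ} (ha : HasDerivAt a a' x) (hb : HasDerivAt b b' x) :
    HasDerivAt (fun x => a x * Real.cosh x + b x * Real.sinh x)
      ((a' + b x) * Real.cosh x + (b' + a x) * Real.sinh x) x := by
  have h := (ha.mul (Real.hasDerivAt_cosh x)).add (hb.mul (Real.hasDerivAt_sinh x))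
  refine h.congr_deriv ?_
  ring

lemma tanh_bound {x : ℝ} (hx : 0 ≤ x) :
    Real.sinh x ≤ (x - x ^ 3 / 3 + 2 * x ^ 5 / 15) * Real.cosh x := by
  have hp (n : ℕ) (y : ℝ) : HasDerivAt (fun y : ℝ => y ^ n) ((n : ℝ) * y ^ (n - 1)) y :=
    hasDerivAt_pow n y
  let D0 : ℝ → ℝ := fun x => (x - x ^ 3 / 3 + 2 * x ^ 5 / 15) * Real.cosh x + (-1) * Real.sinh x
  let D1 : ℝ → ℝ := fun x => (-x ^ 2 + 2 * x ^ 4 / 3) * Real.cosh x
    + (x - x ^ 3 / 3 + 2 * x ^ 5 / 15) * Real.sinh x
  let D2 : ℝ → ℝ := fun x => (-x + 7 * x ^ 3 / 3 + 2 * x ^ 5 / 15) * Real.cosh x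
    + (1 - 2 * x ^ 2 + 4 * x ^ 4 / 3) * Real.sinh x
  let D3 : ℝ → ℝ := fun x => (5 * x ^ 2 + 2 * x ^ 4) * Real.cosh x
    + (-5 * x + 23 * x ^ 3 / 3 + 2 * x ^ 5 / 15) * Real.sinh x
  let D4 : ℝ → ℝ := fun x => (5 * x + 47 * x ^ 3 / 3 + 2 * x ^ 5 / 15) * Real.cosh x
    + (-5 + 28 * x ^ 2 + 8 * x ^ 4 / 3) * Real.sinh x
  let D5 : ℝ → ℝ := fun x => (75 * x ^ 2 + 10 * x ^ 4 / 3) * Real.cosh x
    + (61 * x + 79 * x ^ 3 / 3 + 2 * x ^ 5 / 15) * Real.sinh x
  have h01 : ∀ y, HasDerivAt D0 (D1 y) y := by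
    intro y
    have ha : HasDerivAt (fun x : ℝ => x - x ^ 3 / 3 + 2 * x ^ 5 / 15) (1 - y ^ 2 + 2 * y ^ 4 / 3) y := by
      have h := ((hasDerivAt_id y).sub ((hp 3 y).div_const 3)).add (((hp 5 y).const_mul 2).div_const 15)
      refine HasDerivAt.congr_deriv h ?_
      norm_num
      ring
    have hb : HasDerivAt (fun _ : ℝ => (-1 : ℝ)) 0 y := hasDerivAt_const _ _
    refine HasDerivAt.congr_deriv (hasDerivAt_cc ha hb) ?_
    simp only [D1]
    ring
  have h12 : ∀ y, HasDerivAt D1 (D2 y) y := by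
    intro y
    have ha : HasDerivAt (fun x : ℝ => -x ^ 2 + 2 * x ^ 4 / 3) (-2 * y + 8 * y ^ 3 / 3) y := by
      have h := (hp 2 y).neg.add (((hp 4 y).const_mul 2).div_const 3)
      refine HasDerivAt.congr_deriv h ?_
      norm_num
      ring
    have hb : HasDerivAt (fun x : ℝ => x - x ^ 3 / 3 + 2 * x ^ 5 / 15) (1 - y ^ 2 + 2 * y ^ 4 / 3) y := by
      have h := ((hasDerivAt_id y).sub ((hp 3 y).div_const 3)).add (((hp 5 y).const_mul 2).div_const 15)
      refine HasDerivAt.congr_deriv h ?_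
      norm_num
      ring
    refine HasDerivAt.congr_deriv (hasDerivAt_cc ha hb) ?_
    simp only [D2]
    ring
  have h23 : ∀ y, HasDerivAt D2 (D3 y) y := by
    intro y
    have ha : HasDerivAt (fun x : ℝ => -x + 7 * x ^ 3 / 3 + 2 * x ^ 5 / 15) (-1 + 7 * y ^ 2 + 2 * y ^ 4 / 3) y := by
      have h := ((hasDerivAt_id y).neg.add (((hp 3 y).const_mul 7).div_const 3)).add
        (((hp 5 y).const_mul 2).div_const 15)
      refine HasDerivAt.congr_deriv h ?_
      norm_num
      ring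
    have hb : HasDerivAt (fun x : ℝ => 1 - 2 * x ^ 2 + 4 * x ^ 4 / 3) (-4 * y + 16 * y ^ 3 / 3) y := by
      have h := ((hasDerivAt_const y (1:ℝ)).sub ((hp 2 y).const_mul 2)).add
        (((hp 4 y).const_mul 4).div_const 3)
      refine HasDerivAt.congr_deriv h ?_
      norm_num
      ring
    refine HasDerivAt.congr_deriv (hasDerivAt_cc ha hb) ?_
    simp only [D3]
    ring
  have h34 : ∀ y, HasDerivAt D3 (D4 y) y := by
    intro y
    have ha : HasDerivAt (fun x : ℝ => 5 * x ^ 2 + 2 * x ^ 4) (10 * y + 8 * y ^ 3) y := by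
      have h := ((hp 2 y).const_mul 5).add ((hp 4 y).const_mul 2)
      refine HasDerivAt.congr_deriv h ?_
      norm_num
      ring
    have hb : HasDerivAt (fun x : ℝ => -5 * x + 23 * x ^ 3 / 3 + 2 * x ^ 5 / 15)
        (-5 + 23 * y ^ 2 + 2 * y ^ 4 / 3) y := by
      have h := (((hasDerivAt_id y).const_mul (-5:ℝ)).add (((hp 3 y).const_mul 23).div_const 3)).add
        (((hp 5 y).const_mul 2).div_const 15)
      refine HasDerivAt.congr_deriv h ?_
      norm_num
      ring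
    refine HasDerivAt.congr_deriv (hasDerivAt_cc ha hb) ?_
    simp only [D4]
    ring
  have h45 : ∀ y, HasDerivAt D4 (D5 y) y := by
    intro y
    have ha : HasDerivAt (fun x : ℝ => 5 * x + 47 * x ^ 3 / 3 + 2 * x ^ 5 / 15)
        (5 + 47 * y ^ 2 + 2 * y ^ 4 / 3) y := by
      have h := (((hasDerivAt_id y).const_mul (5:ℝ)).add (((hp 3 y).const_mul 47).div_const 3)).add
        (((hp 5 y).const_mul 2).div_const 15)
      refine HasDerivAt.congr_deriv h ?_
      norm_num
      ring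
    have hb : HasDerivAt (fun x : ℝ => -5 + 28 * x ^ 2 + 8 * x ^ 4 / 3)
        (56 * y + 32 * y ^ 3 / 3) y := by
      have h := ((hasDerivAt_const y (-5:ℝ)).add ((hp 2 y).const_mul 28)).add
        (((hp 4 y).const_mul 8).div_const 3)
      refine HasDerivAt.congr_deriv h ?_
      norm_num
      ring
    refine HasDerivAt.congr_deriv (hasDerivAt_cc ha hb) ?_
    simp only [D5]
    ring
  have hD5 : ∀ y, 0 ≤ y → 0 ≤ D5 y := by
    intro y hy
    simp only [D5]
    have h1 : 0 ≤ Real.sinh y := Real.sinh_nonneg_iff.2 hy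
    have h2 := (Real.cosh_pos y).le
    positivity
  have hD4 := nonneg_of_step (by simp [D4]) h45 hD5
  have hD3 := nonneg_of_step (by simp [D3]) h34 hD4
  have hD2 := nonneg_of_step (by simp [D2]) h23 hD3
  have hD1 := nonneg_of_step (by simp [D1]) h12 hD2
  have hD0 := nonneg_of_step (by simp [D0]) h01 hD1
  have := hD0 x hx
  simp only [D0] at this
  linarith

/-- The polynomial upper bound for `log cosh`. -/
lemma lc_le_poly (x : ℝ) : lc x ≤ x ^ 2 / 2 - x ^ 4 / 12 + x ^ 6 / 45 := by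
  have key : ∀ x : ℝ, 0 ≤ x → lc x ≤ x ^ 2 / 2 - x ^ 4 / 12 + x ^ 6 / 45 := by
    intro x hx
    let L : ℝ → ℝ := fun x => x ^ 2 / 2 - x ^ 4 / 12 + x ^ 6 / 45 - lc x
    let L' : ℝ → ℝ := fun x => x - x ^ 3 / 3 + 2 * x ^ 5 / 15 - Real.sinh x / Real.cosh x
    have hd : ∀ y, HasDerivAt L (L' y) y := by
      intro y
      have hp (n : ℕ) : HasDerivAt (fun y : ℝ => y ^ n) ((n : ℝ) * y ^ (n - 1)) y :=
        hasDerivAt_pow n y
      have h1 : HasDerivAt lc (Real.sinh y / Real.cosh y) y :=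
        (Real.hasDerivAt_cosh y).log (Real.cosh_pos y).ne'
      have h := ((((hp 2).div_const 2).sub ((hp 4).div_const 12)).add ((hp 6).div_const 45)).sub h1
      refine HasDerivAt.congr_deriv h ?_
      simp only [L']
      norm_num
      ring
    have hL' : ∀ y, 0 ≤ y → 0 ≤ L' y := by
      intro y hy
      simp only [L']
      have h1 := tanh_bound hy
      have h2 : Real.sinh y / Real.cosh y ≤ y - y ^ 3 / 3 + 2 * y ^ 5 / 15 := by
        rw [div_le_iff₀ (Real.cosh_pos y)]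
        exact h1
      linarith
    have := nonneg_of_step (by simp [L]) hd hL' x hx
    simp only [L] at this
    linarith
  have hlc : lc x = lc |x| := by
    unfold lc
    rw [Real.cosh_abs]
  have h := key |x| (abs_nonneg x)
  rw [← hlc] at h
  have e2 : |x| ^ 2 = x ^ 2 := sq_abs x
  have e4 : |x| ^ 4 = x ^ 4 := by
    have : |x| ^ 4 = (|x| ^ 2) ^ 2 := by ring
    rw [this, e2]
    ring
  have e6 : |x| ^ 6 = x ^ 6 := by
    have : |x| ^ 6 = (|x| ^ 2) ^ 3 := by ring
    rw [this, e2]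
    ring
  rwa [e2, e4, e6] at h

/-- The fourth Gaussian moment. -/
lemma integral_fourth_gam : ∫ y, y ^ 4 ∂gam = 3 := by
  have h0 : (0:ℝ) ∈ interior (integrableExpSet id gam) := by
    rw [integrableExpSet_id_gaussianReal]
    simp
  have h := iteratedDeriv_mgf_zero (X := id) (μ := gam) h0 4
  have hm : mgf id gam = fun t : ℝ => Real.exp (t ^ 2 / 2) := by
    rw [mgf_id_gaussianReal]
    funext t
    simp
  rw [hm] at h
  have d1 : ∀ t : ℝ, HasDerivAt (fun t : ℝ => Real.exp (t ^ 2 / 2)) (t * Real.exp (t ^ 2 / 2)) t := by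
    intro t
    have h1 : HasDerivAt (fun t : ℝ => t ^ 2 / 2) t t := by
      have := (hasDerivAt_pow 2 t).div_const 2
      refine HasDerivAt.congr_deriv this ?_
      norm_num
    refine HasDerivAt.congr_deriv h1.exp ?_
    ring
  have d2 : ∀ t : ℝ, HasDerivAt (fun t : ℝ => t * Real.exp (t ^ 2 / 2))
      ((1 + t ^ 2) * Real.exp (t ^ 2 / 2)) t := by
    intro t
    refine HasDerivAt.congr_deriv ((hasDerivAt_id t).mul (d1 t)) ?_
    simp only [id]
    ring
  have d3 : ∀ t : ℝ, HasDerivAt (fun t : ℝ => (1 + t ^ 2) * Real.exp (t ^ 2 / 2))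
      ((3 * t + t ^ 3) * Real.exp (t ^ 2 / 2)) t := by
    intro t
    have h1 : HasDerivAt (fun t : ℝ => 1 + t ^ 2) (2 * t) t := by
      have := (hasDerivAt_pow 2 t).const_add 1
      refine HasDerivAt.congr_deriv this ?_
      norm_num
    refine HasDerivAt.congr_deriv (h1.mul (d1 t)) ?_
    ring
  have d4 : ∀ t : ℝ, HasDerivAt (fun t : ℝ => (3 * t + t ^ 3) * Real.exp (t ^ 2 / 2))
      ((3 + 6 * t ^ 2 + t ^ 4) * Real.exp (t ^ 2 / 2)) t := by
    intro t
    have h1 : HasDerivAt (fun t : ℝ => 3 * t + t ^ 3) (3 + 3 * t ^ 2) t := by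
      have := ((hasDerivAt_id t).const_mul (3:ℝ)).add (hasDerivAt_pow 3 t)
      refine HasDerivAt.congr_deriv this ?_
      norm_num
    refine HasDerivAt.congr_deriv (h1.mul (d1 t)) ?_
    ring
  have i1 : iteratedDeriv 1 (fun t : ℝ => Real.exp (t ^ 2 / 2))
      = fun t : ℝ => t * Real.exp (t ^ 2 / 2) := by
    rw [iteratedDeriv_one]
    funext t
    exact (d1 t).deriv
  have i2 : iteratedDeriv 2 (fun t : ℝ => Real.exp (t ^ 2 / 2))
      = fun t : ℝ => (1 + t ^ 2) * Real.exp (t ^ 2 / 2) := by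
    rw [iteratedDeriv_succ, i1]
    funext t
    exact (d2 t).deriv
  have i3 : iteratedDeriv 3 (fun t : ℝ => Real.exp (t ^ 2 / 2))
      = fun t : ℝ => (3 * t + t ^ 3) * Real.exp (t ^ 2 / 2) := by
    rw [iteratedDeriv_succ, i2]
    funext t
    exact (d3 t).deriv
  have i4 : iteratedDeriv 4 (fun t : ℝ => Real.exp (t ^ 2 / 2))
      = fun t : ℝ => (3 + 6 * t ^ 2 + t ^ 4) * Real.exp (t ^ 2 / 2) := by
    rw [iteratedDeriv_succ, i3]
    funext t
    exact (d4 t).deriv
  rw [i4] at h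
  simp only [Pi.pow_apply, id] at h
  rw [← h]
  simp

lemma integrable_pow_gam (n : ℕ) : Integrable (fun y : ℝ => y ^ n) gam := by
  have h : MemLp id n gam := by
    have := memLp_id_gaussianReal (μ := 0) (v := 1) (n : NNReal)
    simpa using this
  have h2 := h.integrable_norm_pow'
  rcases Nat.eq_zero_or_pos n with rfl | hn
  · simp
  · have h3 := (h.integrable_norm_pow (by omega))
    have h4 : Integrable (fun y : ℝ => |y| ^ n) gam := by simpa using h3
    refine h4.mono' (by apply Continuous.aestronglyMeasurable; fun_prop) ?_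
    exact Filter.Eventually.of_forall fun y => by simp [abs_pow]

/-- The sixth moment of the Gaussian, as a name. -/
noncomputable def C6 : ℝ := ∫ y, y ^ 6 ∂gam

lemma C6_nonneg : 0 ≤ C6 := by
  unfold C6
  exact integral_nonneg fun y => by positivity

/-- The expansion of the Gaussian average of `log cosh`, with the exact coefficient of `r²`. -/
lemma lcG_le {r : ℝ} (hr : 0 ≤ r) : lcG r ≤ r / 2 - r ^ 2 / 4 + C6 / 45 * r ^ 3 := by
  unfold lcG
  have hs : Real.sqrt r ^ 2 = r := Real.sq_sqrt hr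
  set s := Real.sqrt r with hsdef
  have hpt : ∀ y : ℝ, lc (s * y) ≤ r / 2 * y ^ 2 - r ^ 2 / 12 * y ^ 4 + r ^ 3 / 45 * y ^ 6 := by
    intro y
    have h := lc_le_poly (s * y)
    have e2 : (s * y) ^ 2 = r * y ^ 2 := by rw [mul_pow, hs]
    have e4 : (s * y) ^ 4 = r ^ 2 * y ^ 4 := by
      have : (s * y) ^ 4 = ((s * y) ^ 2) ^ 2 := by ring
      rw [this, e2]
      ring
    have e6 : (s * y) ^ 6 = r ^ 3 * y ^ 6 := by
      have : (s * y) ^ 6 = ((s * y) ^ 2) ^ 3 := by ring
      rw [this, e2]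
      ring
    rw [e2, e4, e6] at h
    linarith
  have hi : Integrable (fun y : ℝ => lc (s * y)) gam := by
    have := integrable_lip lc_abs_sub 0 s
    simpa using this
  have hi2 := (integrable_pow_gam 2).const_mul (r / 2)
  have hi4 := (integrable_pow_gam 4).const_mul (r ^ 2 / 12)
  have hi6 := (integrable_pow_gam 6).const_mul (r ^ 3 / 45)
  have hi24 : Integrable (fun y : ℝ => r / 2 * y ^ 2 - r ^ 2 / 12 * y ^ 4) gam := hi2.sub hi4
  have hi246 : Integrable (fun y : ℝ => r / 2 * y ^ 2 - r ^ 2 / 12 * y ^ 4 + r ^ 3 / 45 * y ^ 6) gam :=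
    hi24.add hi6
  have h := integral_mono hi hi246 hpt
  rw [integral_add hi24 hi6, integral_sub hi2 hi4, integral_const_mul, integral_const_mul,
    integral_const_mul, integral_sq_gam, integral_fourth_gam] at h
  refine h.trans (le_of_eq ?_)
  unfold C6
  ring

end Vale.Agent.Lib.P157
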