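import Vale.Agent.Lib.P157.Cos

open MeasureTheory ProbabilityTheory Real Filter Topology

namespace Vale.Agent.Lib.P157

variable {S : Type*} [Fintype S]

/-- Sup-norm 1-Lipschitz functionals on weight vectors. -/
def IsL1 (G : (S → ℝ) → ℝ) : Prop :=
  ∀ (v v' : S → ℝ) (δ : ℝ), (∀ x, |v x - v' x| ≤ δ) → |G v - G v'| ≤ δ

lemma IsL1.continuous {G : (S → ℝ) → ℝ} (hG : IsL1 G) : Continuous G := by
  have : LipschitzWith 1 G := by
    refine LipschitzWith.of_dist_le_mul fun v v' => ?_
    have := hG v v' (dist v v') (fun x => by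
      have := dist_le_pi_dist v v' x
      rwa [Real.dist_eq] at this)
    rw [Real.dist_eq]
    simpa using this
  exact this.continuous

variable {κ : Type*} [Fintype κ]

/-- Integrating one Gaussian pattern: the reweighting operator on functionals. -/
noncomputable def op (f : ℝ → ℝ) (e : S → κ → ℝ) (G : (S → ℝ) → ℝ) (v : S → ℝ) : ℝ :=
  ∫ g, G (fun x => v x + f (∑ k, g k * e x k)) ∂(stdG κ)

section

variable {f : ℝ → ℝ} (hf : Continuous f) {c : ℝ} (hc : ∀ y, |f y| ≤ c)
include hf hc

lemma op_integrand_continuous {G : (S → ℝ) → ℝ} (hG : IsL1 G) (e : S → κ → ℝ) (v : S → ℝ) :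
    Continuous (fun g : κ → ℝ => G (fun x => v x + f (∑ k, g k * e x k))) := by
  refine hG.continuous.comp ?_
  refine continuous_pi fun x => continuous_const.add (hf.comp ?_)
  fun_prop

lemma op_integrand_bound {G : (S → ℝ) → ℝ} (hG : IsL1 G) (e : S → κ → ℝ) (v : S → ℝ)
    (g : κ → ℝ) : |G (fun x => v x + f (∑ k, g k * e x k)) - G v| ≤ c := by
  refine hG _ _ c fun x => ?_
  simpa using hc _

lemma op_integrable {G : (S → ℝ) → ℝ} (hG : IsL1 G) (e : S → κ → ℝ) (v : S → ℝ) :
    Integrable (fun g : κ → ℝ => G (fun x => v x + f (∑ k, g k * e x k))) (stdG κ) := by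
  refine Integrable.of_bound (op_integrand_continuous hf hc hG e v).aestronglyMeasurable
    (|G v| + c) (Filter.Eventually.of_forall fun g => ?_)
  rw [Real.norm_eq_abs]
  have h := op_integrand_bound hf hc hG e v g
  have := abs_sub_abs_le_abs_sub (G (fun x => v x + f (∑ k, g k * e x k))) (G v)
  linarith

lemma op_isL1 {G : (S → ℝ) → ℝ} (hG : IsL1 G) (e : S → κ → ℝ) : IsL1 (op f e G) := by
  intro v v' δ hδ
  unfold op
  rw [← integral_sub (op_integrable hf hc hG e v) (op_integrable hf hc hG e v')]
  have h := norm_integral_le_of_norm_le_const (μ := stdG κ) (C := δ)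
    (f := fun g => G (fun x => v x + f (∑ k, g k * e x k))
      - G (fun x => v' x + f (∑ k, g k * e x k)))
    (Filter.Eventually.of_forall fun g => by
      rw [Real.norm_eq_abs]
      refine hG _ _ δ fun x => ?_
      have := hδ x
      simpa using this)
  simpa using h

lemma op_sub_abs_le {G : (S → ℝ) → ℝ} (hG : IsL1 G) (e : S → κ → ℝ) (v : S → ℝ) :
    |op f e G v - G v| ≤ c := by
  unfold op
  have h := norm_integral_le_of_norm_le_const (μ := stdG κ) (C := c)
    (f := fun g => G (fun x => v x + f (∑ k, g k * e x k)) - G v)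
    (Filter.Eventually.of_forall fun g => by
      rw [Real.norm_eq_abs]
      exact op_integrand_bound hf hc hG e v g)
  rw [integral_sub (op_integrable hf hc hG e v) (integrable_const _)] at h
  simpa using h

lemma op_mono {G H : (S → ℝ) → ℝ} (hG : IsL1 G) (hH : IsL1 H) (hGH : ∀ v, G v ≤ H v)
    (e : S → κ → ℝ) (v : S → ℝ) : op f e G v ≤ op f e H v :=
  integral_mono (op_integrable hf hc hG e v) (op_integrable hf hc hH e v) fun _ => hGH _

lemma op_add_mul {G H : (S → ℝ) → ℝ} (hG : IsL1 G) (hH : IsL1 H) (a b : ℝ)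
    (e : S → κ → ℝ) (v : S → ℝ) :
    op f e (fun u => a * G u + b * H u) v = a * op f e G v + b * op f e H v := by
  unfold op
  rw [integral_add ((op_integrable hf hc hG e v).const_mul a)
    ((op_integrable hf hc hH e v).const_mul b), integral_const_mul, integral_const_mul]

/-- Fubini: operators for different patterns commute. -/
lemma op_comm {κ' : Type*} [Fintype κ'] {G : (S → ℝ) → ℝ} (hG : IsL1 G)
    (e : S → κ → ℝ) (e' : S → κ' → ℝ) (v : S → ℝ) :
    op f e (op f e' G) v = op f e' (op f e G) v := by
  unfold op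
  have hint : Integrable (Function.uncurry fun (g : κ → ℝ) (g' : κ' → ℝ) =>
      G (fun x => v x + f (∑ k, g k * e x k) + f (∑ k, g' k * e' x k)))
      ((stdG κ).prod (stdG κ')) := by
    refine Integrable.of_bound (C := |G v| + (c + c)) ?_ ?_
    · apply Continuous.aestronglyMeasurable
      refine hG.continuous.comp ?_
      refine continuous_pi fun x => ?_
      refine Continuous.add (continuous_const.add (hf.comp ?_)) (hf.comp ?_) <;> fun_prop
    · refine Filter.Eventually.of_forall fun p => ?_
      rcases p with ⟨g, g'⟩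
      simp only [Function.uncurry_apply_pair, Real.norm_eq_abs]
      have h1 := hG (fun x => v x + f (∑ k, g k * e x k) + f (∑ k, g' k * e' x k)) v (c + c)
        (fun x => by
          have a1 := abs_le.1 (hc (∑ k, g k * e x k))
          have a2 := abs_le.1 (hc (∑ k, g' k * e' x k))
          rw [abs_le]
          constructor <;> linarith [a1.1, a1.2, a2.1, a2.2])
      have := abs_sub_abs_le_abs_sub
        (G (fun x => v x + f (∑ k, g k * e x k) + f (∑ k, g' k * e' x k))) (G v)
      linarith
  rw [integral_integral_swap hint]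
  refine integral_congr_ae (Filter.Eventually.of_forall fun g' => ?_)
  refine integral_congr_ae (Filter.Eventually.of_forall fun g => ?_)
  show G _ = G _
  congr 1
  funext x
  ring

end

/-- The log-sum functional. -/
noncomputable def LS (v : S → ℝ) : ℝ := Real.log (∑ x, Real.exp (v x))

lemma LS_isL1 [Nonempty S] : IsL1 (LS : (S → ℝ) → ℝ) := by
  have key : ∀ (v v' : S → ℝ) (δ : ℝ), (∀ x, |v x - v' x| ≤ δ) → LS v - LS v' ≤ δ := by
    intro v v' δ h
    have hpos : 0 < ∑ x, Real.exp (v' x) :=
      Finset.sum_pos (fun x _ => Real.exp_pos _) Finset.univ_nonempty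
    have hle : ∑ x, Real.exp (v x) ≤ Real.exp δ * ∑ x, Real.exp (v' x) := by
      rw [Finset.mul_sum]
      refine Finset.sum_le_sum fun x _ => ?_
      rw [← Real.exp_add]
      apply Real.exp_le_exp.2
      have := (abs_le.1 (h x)).2
      linarith
    have hpos' : 0 < ∑ x, Real.exp (v x) :=
      Finset.sum_pos (fun x _ => Real.exp_pos _) Finset.univ_nonempty
    unfold LS
    have := Real.log_le_log hpos' hle
    rw [Real.log_mul (Real.exp_pos _).ne' hpos.ne', Real.log_exp] at this
    linarith
  intro v v' δ h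
  rw [abs_le]
  constructor
  · have := key v' v δ (fun x => by rw [abs_sub_comm]; exact h x)
    linarith
  · exact key v v' δ h

end Vale.Agent.Lib.P157
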