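import Vale.Agent.Lib.P157.Moments
import Vale.Agent.Lib.P157.Op

open MeasureTheory ProbabilityTheory Real Filter Topology

namespace Vale.Agent.Lib.P157

variable {S : Type*} [Fintype S] {κ : Type*} [Fintype κ]
variable (ρ : Measure ℝ) [IsFiniteMeasure ρ]

/-- The potential `log (A - phi)`. -/
noncomputable def fA (A : ℝ) (y : ℝ) : ℝ := Real.log (A - phi ρ y)

lemma fA_arg_pos {A : ℝ} (hA : ρ.real Set.univ < A) (y : ℝ) : 0 < A - phi ρ y := by
  have := (abs_le.1 (phi_abs_le ρ y)).2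
  linarith

lemma fA_continuous {A : ℝ} (hA : ρ.real Set.univ < A) : Continuous (fA ρ A) := by
  unfold fA
  refine Continuous.log (continuous_const.sub (phi_continuous ρ)) fun y => (fA_arg_pos ρ hA y).ne'

lemma fA_abs_le {A : ℝ} (hA : ρ.real Set.univ < A) (y : ℝ) :
    |fA ρ A y| ≤ |Real.log (A - ρ.real Set.univ)| + |Real.log (A + ρ.real Set.univ)| := by
  have h := abs_le.1 (phi_abs_le ρ y)
  have h0 : 0 ≤ ρ.real Set.univ := measureReal_nonneg
  have hpos := fA_arg_pos ρ hA y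
  have l1 : Real.log (A - ρ.real Set.univ) ≤ fA ρ A y :=
    Real.log_le_log (by linarith) (by linarith [h.2])
  have l2 : fA ρ A y ≤ Real.log (A + ρ.real Set.univ) :=
    Real.log_le_log hpos (by linarith [h.1])
  rw [abs_le]
  constructor
  · have := neg_abs_le (Real.log (A - ρ.real Set.univ))
    have := abs_nonneg (Real.log (A + ρ.real Set.univ))
    linarith
  · have := le_abs_self (Real.log (A + ρ.real Set.univ))
    have := abs_nonneg (Real.log (A - ρ.real Set.univ))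
    linarith

lemma exp_fA {A : ℝ} (hA : ρ.real Set.univ < A) (y : ℝ) :
    Real.exp (fA ρ A y) = A - phi ρ y := Real.exp_log (fA_arg_pos ρ hA y)

lemma hasSum_log (w : S → ℝ) (hw : ∀ x, 0 ≤ w x) (Y : S → κ → ℝ) {D : ℝ} (hD0 : 0 < D)
    (hD : (∑ x, w x) * ρ.real Set.univ < D) :
    HasSum (fun n : ℕ => Mom ρ w Y [] (n + 1) / D ^ (n + 1) / ((n : ℝ) + 1))
      (-∫ g, Real.log (1 - T ρ w Y g / D) ∂(stdG κ)) := by
  set c₀ : ℝ := (∑ x, w x) * ρ.real Set.univ with hc₀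
  have hc₀0 : 0 ≤ c₀ :=
    mul_nonneg (Finset.sum_nonneg fun x _ => hw x) measureReal_nonneg
  set θ : ℝ := c₀ / D with hθ
  have hθ0 : 0 ≤ θ := div_nonneg hc₀0 hD0.le
  have hθ1 : θ < 1 := (div_lt_one hD0).2 hD
  have habs : ∀ g, |T ρ w Y g / D| ≤ θ := by
    intro g
    rw [abs_div, abs_of_pos hD0]
    exact div_le_div_of_nonneg_right (T_abs_le ρ hw Y g) hD0.le
  let F : ℕ → (κ → ℝ) → ℝ := fun n g => (T ρ w Y g / D) ^ (n + 1) / ((n : ℝ) + 1)
  have hnorm : ∀ n g, ‖F n g‖ ≤ θ ^ (n + 1) := by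
    intro n g
    have hn : |(n : ℝ) + 1| = (n : ℝ) + 1 := abs_of_pos (by positivity)
    show |(T ρ w Y g / D) ^ (n + 1) / ((n : ℝ) + 1)| ≤ θ ^ (n + 1)
    rw [abs_div, abs_pow, hn]
    calc |T ρ w Y g / D| ^ (n + 1) / ((n : ℝ) + 1) ≤ |T ρ w Y g / D| ^ (n + 1) := by
          apply div_le_self (by positivity)
          have : (0 : ℝ) ≤ n := Nat.cast_nonneg n
          linarith
      _ ≤ θ ^ (n + 1) := pow_le_pow_left₀ (abs_nonneg _) (habs g) _
  have hF_int : ∀ n, Integrable (F n) (stdG κ) := by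
    intro n
    refine Integrable.of_bound ?_ (θ ^ (n + 1)) (Filter.Eventually.of_forall (hnorm n))
    apply Continuous.aestronglyMeasurable
    exact (((T_continuous ρ w Y).div_const D).pow (n + 1)).div_const _
  have hsum : Summable fun n => ∫ g, ‖F n g‖ ∂(stdG κ) := by
    refine Summable.of_nonneg_of_le (fun n => integral_nonneg fun g => norm_nonneg _) (fun n => ?_)
      ((summable_geometric_of_lt_one hθ0 hθ1).mul_left θ)
    calc ∫ g, ‖F n g‖ ∂(stdG κ) ≤ ∫ _g, θ ^ (n + 1) ∂(stdG κ) :=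
          integral_mono (hF_int n).norm (integrable_const _) (hnorm n)
      _ = θ * θ ^ n := by
          simp [pow_succ']
  have hs := hasSum_integral_of_summable_integral_norm hF_int hsum
  have ht : ∀ g, ∑' n, F n g = -Real.log (1 - T ρ w Y g / D) := by
    intro g
    exact (Real.hasSum_pow_div_log_of_abs_lt_one (lt_of_le_of_lt (habs g) hθ1)).tsum_eq
  simp_rw [ht] at hs
  rw [integral_neg] at hs
  have hterm : (fun n : ℕ => ∫ g, F n g ∂(stdG κ))
      = fun n : ℕ => Mom ρ w Y [] (n + 1) / D ^ (n + 1) / ((n : ℝ) + 1) := by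
    funext n
    have : ∀ g, F n g = (T ρ w Y g) ^ (n + 1) / D ^ (n + 1) / ((n : ℝ) + 1) := by
      intro g
      simp only [F, div_pow]
    simp_rw [this]
    rw [integral_div, integral_div]
    simp [Mom, cosP_nil]
  rw [hterm] at hs
  exact hs

lemma log_ineq [DecidableEq S] {κ₁ κ₂ : Type*} [Fintype κ₁] [Fintype κ₂]
    (Y : S → κ → ℝ) (W₁ : S → κ₁ → ℝ) (W₂ : S → κ₂ → ℝ)
    {l₁ l₂ : ℝ} (hl₁ : 0 ≤ l₁) (hl₂ : 0 ≤ l₂) (hl : l₁ + l₂ = 1)
    (hN : ∀ t : S → ℝ, (∑ k, lin Y t k ^ 2)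
      = l₁ * (∑ k, lin W₁ t k ^ 2) + l₂ * (∑ k, lin W₂ t k ^ 2))
    (w : S → ℝ) (hw : ∀ x, 0 ≤ w x) {D : ℝ} (hD0 : 0 < D)
    (hD : (∑ x, w x) * ρ.real Set.univ < D) :
    -∫ g, Real.log (1 - T ρ w Y g / D) ∂(stdG κ)
      ≤ l₁ * (-∫ g, Real.log (1 - T ρ w W₁ g / D) ∂(stdG κ₁))
        + l₂ * (-∫ g, Real.log (1 - T ρ w W₂ g / D) ∂(stdG κ₂)) := by
  refine hasSum_le (fun n => ?_) (hasSum_log ρ w hw Y hD0 hD)
    (((hasSum_log ρ w hw W₁ hD0 hD).mul_left l₁).add
      ((hasSum_log ρ w hw W₂ hD0 hD).mul_left l₂))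
  have h := Mom_ineq ρ Y W₁ W₂ hl₁ hl₂ hl hN w hw (n + 1) []
  have hpos : 0 < D ^ (n + 1) * ((n : ℝ) + 1) := by positivity
  have e : ∀ a : ℝ, a / D ^ (n + 1) / ((n : ℝ) + 1) = a / (D ^ (n + 1) * ((n : ℝ) + 1)) := by
    intro a; rw [div_div]
  rw [e, e, e, ← mul_div_assoc, ← mul_div_assoc, ← add_div]
  exact div_le_div_of_nonneg_right h hpos.le

lemma op_LS_eq [Nonempty S] {A : ℝ} (hA : ρ.real Set.univ < A) (Y : S → κ → ℝ) (v : S → ℝ) :
    op (fA ρ A) Y LS v
      = Real.log (A * ∑ x, Real.exp (v x))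
        + ∫ g, Real.log (1 - T ρ (fun x => Real.exp (v x)) Y g / (A * ∑ x, Real.exp (v x)))
            ∂(stdG κ) := by
  set w : S → ℝ := fun x => Real.exp (v x) with hw
  set W : ℝ := ∑ x, w x with hW
  have hWpos : 0 < W := Finset.sum_pos (fun x _ => Real.exp_pos _) Finset.univ_nonempty
  have h00 : 0 ≤ ρ.real Set.univ := measureReal_nonneg
  have hApos : 0 < A := lt_of_le_of_lt h00 hA
  set D : ℝ := A * W with hD
  have hDpos : 0 < D := mul_pos hApos hWpos
  have hbound : W * ρ.real Set.univ < D := by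
    rw [hD, mul_comm A W]
    exact mul_lt_mul_of_pos_left hA hWpos
  have hlt : ∀ g, T ρ w Y g / D < 1 := by
    intro g
    rw [div_lt_one hDpos]
    have := (abs_le.1 (T_abs_le ρ (w := w) (fun x => (Real.exp_pos _).le) Y g)).2
    linarith
  have hsum : ∀ g : κ → ℝ, LS (fun x => v x + fA ρ A (∑ k, g k * Y x k))
      = Real.log D + Real.log (1 - T ρ w Y g / D) := by
    intro g
    unfold LS
    have : ∑ x, Real.exp (v x + fA ρ A (∑ k, g k * Y x k)) = D * (1 - T ρ w Y g / D) := by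
      have h1 : ∀ x, Real.exp (v x + fA ρ A (∑ k, g k * Y x k))
          = w x * A - w x * phi ρ (∑ k, g k * Y x k) := by
        intro x
        rw [Real.exp_add, exp_fA ρ hA]
        simp only [hw]
        ring
      simp_rw [h1]
      rw [Finset.sum_sub_distrib, ← Finset.sum_mul]
      have : D * (1 - T ρ w Y g / D) = D - T ρ w Y g := by
        field_simp
      rw [this]
      simp only [T, hD, hW]
      ring
    rw [this, Real.log_mul hDpos.ne' (by linarith [hlt g])]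
  unfold op
  simp_rw [hsum]
  have hint : Integrable (fun g => Real.log (1 - T ρ w Y g / D)) (stdG κ) := by
    have h1 := op_integrable (fA_continuous ρ hA) (fA_abs_le ρ hA)
      (LS_isL1 (S := S)) Y v
    simp_rw [hsum] at h1
    have h2 := h1.sub (integrable_const (Real.log D))
    refine h2.congr (Filter.Eventually.of_forall fun g => ?_)
    simp
  rw [integral_add (integrable_const _) hint]
  simp

/-- The key concavity inequality for one new pattern, at the level of the log-sum functional. -/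
theorem base_ineq [DecidableEq S] [Nonempty S] {κ₁ κ₂ : Type*} [Fintype κ₁] [Fintype κ₂]
    {A : ℝ} (hA : ρ.real Set.univ < A)
    (Y : S → κ → ℝ) (W₁ : S → κ₁ → ℝ) (W₂ : S → κ₂ → ℝ)
    {l₁ l₂ : ℝ} (hl₁ : 0 ≤ l₁) (hl₂ : 0 ≤ l₂) (hl : l₁ + l₂ = 1)
    (hN : ∀ t : S → ℝ, (∑ k, lin Y t k ^ 2)
      = l₁ * (∑ k, lin W₁ t k ^ 2) + l₂ * (∑ k, lin W₂ t k ^ 2))
    (v : S → ℝ) :
    l₁ * op (fA ρ A) W₁ LS v + l₂ * op (fA ρ A) W₂ LS v ≤ op (fA ρ A) Y LS v := by
  rw [op_LS_eq ρ hA Y, op_LS_eq ρ hA W₁, op_LS_eq ρ hA W₂]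
  set w : S → ℝ := fun x => Real.exp (v x) with hw
  set W : ℝ := ∑ x, w x with hW
  have hWpos : 0 < W := Finset.sum_pos (fun x _ => Real.exp_pos _) Finset.univ_nonempty
  have h00 : 0 ≤ ρ.real Set.univ := measureReal_nonneg
  have hApos : 0 < A := lt_of_le_of_lt h00 hA
  have hDpos : 0 < A * W := mul_pos hApos hWpos
  have hbound : W * ρ.real Set.univ < A * W := by
    rw [mul_comm A W]
    exact mul_lt_mul_of_pos_left hA hWpos
  have h := log_ineq ρ Y W₁ W₂ hl₁ hl₂ hl hN w (fun x => (Real.exp_pos _).le) hDpos hbound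
  have e : l₁ * Real.log (A * W) + l₂ * Real.log (A * W) = Real.log (A * W) := by
    rw [← add_mul, hl, one_mul]
  nlinarith [h, e]

end Vale.Agent.Lib.P157
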