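import Vale.Agent.Lib.P157.Second

open MeasureTheory ProbabilityTheory Real Filter Topology

namespace Vale.Agent.Lib.P157

variable {ρ : Measure ℝ} [IsFiniteMeasure ρ] {A : ℝ}

lemma Yc_norm2 {N : ℕ} (hN : 0 < N) (x : Fin N → Bool) : ∑ k, Yc N x k ^ 2 = 1 := by
  have hN' : (0 : ℝ) < N := by exact_mod_cast hN
  have h : ∀ k, Yc N x k ^ 2 = 1 / (N : ℝ) := by
    intro k
    unfold Yc
    rw [div_pow, Real.sq_sqrt hN'.le]
    cases x k <;> simp [spin]
  simp_rw [h]
  simp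
  field_simp

lemma Yc_dot {N : ℕ} (hN : 0 < N) (x y : Fin N → Bool) :
    ∑ k, Yc N x k * Yc N y k = ovl x y := by
  have hN' : (0 : ℝ) < N := by exact_mod_cast hN
  unfold Yc ovl
  rw [Finset.sum_div]
  refine Finset.sum_congr rfl fun k _ => ?_
  have hs : Real.sqrt N * Real.sqrt N = N := Real.mul_self_sqrt hN'.le
  rw [div_mul_div_comm, hs]

lemma mOf_le : mOf ρ ≤ ρ.real Set.univ := by
  unfold mOf
  have h := norm_integral_le_of_norm_le_const (μ := ρ) (f := fun ξ => Real.exp (-(ξ ^ 2) / 2)) (C := 1)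
    (Filter.Eventually.of_forall fun ξ => by
      rw [Real.norm_eq_abs, abs_of_pos (Real.exp_pos _)]
      apply Real.exp_le_one_iff.2
      have := sq_nonneg ξ
      linarith)
  have h2 := le_abs_self (∫ ξ, Real.exp (-(ξ ^ 2) / 2) ∂ρ)
  rw [Real.norm_eq_abs] at h
  linarith

lemma Ubar_pos (hA : ρ.real Set.univ < A) : 0 < A - mOf ρ := by
  have := mOf_le (ρ := ρ)
  linarith

variable {N M : ℕ}

/-- The partition function in product form. -/
lemma sum_exp_eq (hA : ρ.real Set.univ < A) (g : Fin M → Fin N → ℝ) :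
    ∑ x : Fin N → Bool, Real.exp ((-(N : ℝ) * Real.log 2)
        + ∑ a, fA ρ A (∑ k, g a k * Yc N x k))
      = (1 / 2 ^ N) * ∑ x : Fin N → Bool, ∏ a, (A - phi ρ (∑ k, g a k * Yc N x k)) := by
  rw [Finset.mul_sum]
  refine Finset.sum_congr rfl fun x _ => ?_
  rw [Real.exp_add, exp_neg_log2, Real.exp_sum]
  congr 1
  exact Finset.prod_congr rfl fun a _ => exp_fA ρ hA _

lemma U_pos (hA : ρ.real Set.univ < A) (y : ℝ) : 0 < A - phi ρ y := fA_arg_pos ρ hA y

lemma U_continuous {κ : Type*} [Fintype κ] (d : κ → ℝ) :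
    Continuous (fun g : κ → ℝ => A - phi ρ (∑ k, g k * d k)) :=
  continuous_const.sub ((phi_continuous ρ).comp (by fun_prop))

lemma U_integrable {κ : Type*} [Fintype κ] (d : κ → ℝ) :
    Integrable (fun g : κ → ℝ => A - phi ρ (∑ k, g k * d k)) (stdG κ) :=
  (integrable_const _).sub (phi_dot_integrable ρ d)

lemma UU_integrable {κ : Type*} [Fintype κ] (d d' : κ → ℝ) :
    Integrable (fun g : κ → ℝ => (A - phi ρ (∑ k, g k * d k)) * (A - phi ρ (∑ k, g k * d' k)))
      (stdG κ) := by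
  refine Integrable.of_bound (C := (|A| + ρ.real Set.univ) * (|A| + ρ.real Set.univ))
    (Continuous.aestronglyMeasurable ((U_continuous d).mul (U_continuous d')))
    (Filter.Eventually.of_forall fun g => ?_)
  rw [Real.norm_eq_abs, abs_mul]
  have h : ∀ y, |A - phi ρ y| ≤ |A| + ρ.real Set.univ := fun y =>
    (abs_sub _ _).trans (add_le_add le_rfl (phi_abs_le ρ y))
  exact mul_le_mul (h _) (h _) (abs_nonneg _) (by positivity)

/-- First moment of the partition function. -/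
theorem first_moment (hA : ρ.real Set.univ < A) (hN : 0 < N) :
    ∫ g : Fin M → Fin N → ℝ, Real.exp (1 * Fz (fA ρ A) (Yc N) (fun _ => -(N : ℝ) * Real.log 2) g)
        ∂(Measure.pi fun _ => stdG (Fin N))
      = (A - mOf ρ) ^ M := by
  have hZ : ∀ g : Fin M → Fin N → ℝ,
      Real.exp (1 * Fz (fA ρ A) (Yc N) (fun _ => -(N : ℝ) * Real.log 2) g)
        = (1 / 2 ^ N) * ∑ x : Fin N → Bool, ∏ a, (A - phi ρ (∑ k, g a k * Yc N x k)) := by
    intro g
    rw [one_mul]
    unfold Fz LS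
    rw [Real.exp_log (Finset.sum_pos (fun x _ => Real.exp_pos _) Finset.univ_nonempty),
      sum_exp_eq hA]
  simp_rw [hZ]
  rw [integral_const_mul, integral_finsetSum _ (fun x _ =>
    Integrable.fintype_prod (fun _ => U_integrable (Yc N x)))]
  have hone : ∀ x : Fin N → Bool,
      ∫ g : Fin M → Fin N → ℝ, ∏ a, (A - phi ρ (∑ k, g a k * Yc N x k))
          ∂(Measure.pi fun _ => stdG (Fin N)) = (A - mOf ρ) ^ M := by
    intro x
    have h := integral_fintype_prod_eq_pow (𝕜 := ℝ) (ι := Fin M) (μ := stdG (Fin N))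
      (fun g : Fin N → ℝ => A - phi ρ (∑ k, g k * Yc N x k))
    rw [integral_U ρ A (Yc N x) (Yc_norm2 hN x)] at h
    simpa using h
  simp_rw [hone]
  simp

/-- Second moment of the partition function. -/
theorem second_moment (hA : ρ.real Set.univ < A) (hN : 0 < N) :
    ∫ g : Fin M → Fin N → ℝ, Real.exp (2 * Fz (fA ρ A) (Yc N) (fun _ => -(N : ℝ) * Real.log 2) g)
        ∂(Measure.pi fun _ => stdG (Fin N))
      = (1 / 2 ^ N) ^ 2 * ∑ x : Fin N → Bool, ∑ y : Fin N → Bool,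
          ((A - mOf ρ) ^ 2 + psiR ρ (ovl x y)) ^ M := by
  have hZ : ∀ g : Fin M → Fin N → ℝ,
      Real.exp (2 * Fz (fA ρ A) (Yc N) (fun _ => -(N : ℝ) * Real.log 2) g)
        = (1 / 2 ^ N) ^ 2 * ∑ x : Fin N → Bool, ∑ y : Fin N → Bool,
          ∏ a, ((A - phi ρ (∑ k, g a k * Yc N x k)) * (A - phi ρ (∑ k, g a k * Yc N y k))) := by
    intro g
    have hpos : 0 < ∑ x : Fin N → Bool, Real.exp ((-(N : ℝ) * Real.log 2)
        + ∑ a, fA ρ A (∑ k, g a k * Yc N x k)) :=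
      Finset.sum_pos (fun x _ => Real.exp_pos _) Finset.univ_nonempty
    have e1 : Real.exp (2 * Fz (fA ρ A) (Yc N) (fun _ => -(N : ℝ) * Real.log 2) g)
        = (∑ x : Fin N → Bool, Real.exp ((-(N : ℝ) * Real.log 2)
            + ∑ a, fA ρ A (∑ k, g a k * Yc N x k))) ^ 2 := by
      unfold Fz LS
      rw [two_mul, Real.exp_add, Real.exp_log hpos, sq]
    rw [e1, sum_exp_eq hA, mul_pow, sq (∑ x : Fin N → Bool, _), Finset.sum_mul_sum]
    simp_rw [Finset.prod_mul_distrib]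
  simp_rw [hZ]
  have hint : ∀ x y : Fin N → Bool, Integrable (fun g : Fin M → Fin N → ℝ =>
      ∏ a, ((A - phi ρ (∑ k, g a k * Yc N x k)) * (A - phi ρ (∑ k, g a k * Yc N y k))))
      (Measure.pi fun _ => stdG (Fin N)) := fun x y =>
    Integrable.fintype_prod (f := fun (_ : Fin M) (g : Fin N → ℝ) =>
      (A - phi ρ (∑ k, g k * Yc N x k)) * (A - phi ρ (∑ k, g k * Yc N y k)))
      (fun _ => UU_integrable (Yc N x) (Yc N y))
  rw [integral_const_mul, integral_finsetSum _ (fun x _ =>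
    integrable_finsetSum _ (fun y _ => hint x y))]
  congr 1
  refine Finset.sum_congr rfl fun x _ => ?_
  rw [integral_finsetSum _ (fun y _ => hint x y)]
  refine Finset.sum_congr rfl fun y _ => ?_
  have h := integral_fintype_prod_eq_pow (𝕜 := ℝ) (ι := Fin M) (μ := stdG (Fin N))
    (fun g : Fin N → ℝ => (A - phi ρ (∑ k, g k * Yc N x k)) * (A - phi ρ (∑ k, g k * Yc N y k)))
  rw [integral_U_U ρ A (Yc N x) (Yc N y) (Yc_norm2 hN x) (Yc_norm2 hN y), Yc_dot hN] at h
  simpa using h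

/-- The second moment bound under the pointwise condition on the overlap function. -/
theorem second_moment_le (hA : ρ.real Set.univ < A) (hN : 0 < N) {α : ℝ} (hα : 0 < α)
    (hM : (M : ℝ) ≤ α * N)
    (hcond : ∀ R : ℝ, |R| ≤ 1 →
      α * Real.log (1 + psiR ρ R / (A - mOf ρ) ^ 2) ≤ rateJ R) :
    ∫ g : Fin M → Fin N → ℝ, Real.exp (2 * Fz (fA ρ A) (Yc N) (fun _ => -(N : ℝ) * Real.log 2) g)
        ∂(Measure.pi fun _ => stdG (Fin N))
      ≤ ((N : ℝ) + 1) * ((A - mOf ρ) ^ M) ^ 2 := by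
  have hU := Ubar_pos (ρ := ρ) hA
  set Ub := A - mOf ρ with hUb
  have hN' : (0 : ℝ) < N := by exact_mod_cast hN
  rw [second_moment hA hN]
  have hterm : ∀ x y : Fin N → Bool, (Ub ^ 2 + psiR ρ (ovl x y)) ^ M
      ≤ (Ub ^ M) ^ 2 * Real.exp ((N : ℝ) * rateJ (ovl x y)) := by
    intro x y
    set ψ := psiR ρ (ovl x y) with hψ
    have hψ0 : 0 ≤ ψ := psiR_nonneg ρ _
    set u := 1 + ψ / Ub ^ 2 with hu
    have hu1 : 1 ≤ u := by
      rw [hu]
      have : 0 ≤ ψ / Ub ^ 2 := by positivity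
      linarith
    have hu0 : 0 < u := by linarith
    have e1 : Ub ^ 2 + ψ = Ub ^ 2 * u := by
      rw [hu]; field_simp
    rw [e1, mul_pow, ← pow_mul, ← pow_mul, mul_comm 2 M]
    refine mul_le_mul_of_nonneg_left ?_ (by positivity)
    have hlog : 0 ≤ Real.log u := Real.log_nonneg hu1
    have h3 : (M : ℝ) * Real.log u ≤ (N : ℝ) * rateJ (ovl x y) := by
      have h4 := hcond (ovl x y) (ovl_abs_le hN x y)
      calc (M : ℝ) * Real.log u ≤ (α * N) * Real.log u := mul_le_mul_of_nonneg_right hM hlog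
        _ = N * (α * Real.log u) := by ring
        _ ≤ _ := mul_le_mul_of_nonneg_left h4 hN'.le
    calc u ^ M = Real.exp ((M : ℝ) * Real.log u) := by
          rw [Real.exp_nat_mul, Real.exp_log hu0]
      _ ≤ _ := Real.exp_le_exp.2 h3
  have hsum : ∑ x : Fin N → Bool, ∑ y : Fin N → Bool, (Ub ^ 2 + psiR ρ (ovl x y)) ^ M
      ≤ (Ub ^ M) ^ 2 * (2 ^ N * (2 ^ N * ((N : ℝ) + 1))) := by
    calc _ ≤ ∑ x : Fin N → Bool, ∑ y : Fin N → Bool,
            (Ub ^ M) ^ 2 * Real.exp ((N : ℝ) * rateJ (ovl x y)) :=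
          Finset.sum_le_sum fun x _ => Finset.sum_le_sum fun y _ => hterm x y
      _ = (Ub ^ M) ^ 2 * ∑ x : Fin N → Bool, ∑ y : Fin N → Bool,
            Real.exp ((N : ℝ) * rateJ (ovl x y)) := by
          simp_rw [← Finset.mul_sum]
      _ ≤ (Ub ^ M) ^ 2 * ∑ _x : Fin N → Bool, (2 ^ N * ((N : ℝ) + 1)) :=
          mul_le_mul_of_nonneg_left (Finset.sum_le_sum fun x _ => sum_exp_rate_le hN x)
            (by positivity)
      _ = _ := by
          simp
  have h2 : (0:ℝ) < 1 / 2 ^ N := by positivity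
  calc (1 / 2 ^ N : ℝ) ^ 2 * ∑ x : Fin N → Bool, ∑ y : Fin N → Bool,
          (Ub ^ 2 + psiR ρ (ovl x y)) ^ M
      ≤ (1 / 2 ^ N : ℝ) ^ 2 * ((Ub ^ M) ^ 2 * (2 ^ N * (2 ^ N * ((N : ℝ) + 1)))) :=
        mul_le_mul_of_nonneg_left hsum (by positivity)
    _ = _ := by
        field_simp

end Vale.Agent.Lib.P157
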