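import Vale.Agent.Lib.P157.Cos

open MeasureTheory ProbabilityTheory Real Filter Topology

namespace Vale.Agent.Lib.P157

variable {S : Type*} [Fintype S] [DecidableEq S]

section phi

variable (ρ : Measure ℝ) [IsFiniteMeasure ρ]

/-- The function with nonnegative cosine transform `ρ`. -/
noncomputable def phi (y : ℝ) : ℝ := ∫ ξ, Real.cos (ξ * y) ∂ρ

lemma phi_continuous : Continuous (phi ρ) := by
  unfold phi
  refine continuous_of_dominated (bound := fun _ => (1:ℝ)) ?_ ?_ (integrable_const _) ?_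
  · intro y
    exact (Real.continuous_cos.comp (continuous_id.mul continuous_const)).aestronglyMeasurable
  · intro y
    exact Filter.Eventually.of_forall fun ξ => by
      simpa using Real.abs_cos_le_one (ξ * y)
  · exact Filter.Eventually.of_forall fun ξ =>
      Real.continuous_cos.comp (continuous_const.mul continuous_id)

lemma phi_abs_le (y : ℝ) : |phi ρ y| ≤ ρ.real Set.univ := by
  unfold phi
  have h := norm_integral_le_of_norm_le_const (μ := ρ) (f := fun ξ => Real.cos (ξ * y)) (C := 1)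
    (Filter.Eventually.of_forall fun ξ => by simpa using Real.abs_cos_le_one (ξ * y))
  simpa using h

end phi

variable {κ : Type*} [Fintype κ]
variable (ρ : Measure ℝ) [IsFiniteMeasure ρ]

/-- The Gibbs average (times total weight) of `phi`. -/
noncomputable def T (w : S → ℝ) (Y : S → κ → ℝ) (g : κ → ℝ) : ℝ :=
  ∑ x, w x * phi ρ (∑ k, g k * Y x k)

omit [DecidableEq S] in
lemma T_continuous (w : S → ℝ) (Y : S → κ → ℝ) : Continuous (T ρ w Y) := by
  unfold T
  refine continuous_finsetSum _ fun x _ => continuous_const.mul ?_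
  exact (phi_continuous ρ).comp (by fun_prop)

omit [DecidableEq S] in
lemma T_abs_le {w : S → ℝ} (hw : ∀ x, 0 ≤ w x) (Y : S → κ → ℝ) (g : κ → ℝ) :
    |T ρ w Y g| ≤ (∑ x, w x) * ρ.real Set.univ := by
  unfold T
  calc |∑ x, w x * phi ρ (∑ k, g k * Y x k)|
      ≤ ∑ x, |w x * phi ρ (∑ k, g k * Y x k)| := Finset.abs_sum_le_sum_abs _ _
    _ ≤ ∑ x, w x * ρ.real Set.univ := by
        refine Finset.sum_le_sum fun x _ => ?_
        rw [abs_mul, abs_of_nonneg (hw x)]
        exact mul_le_mul_of_nonneg_left (phi_abs_le ρ _) (hw x)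
    _ = (∑ x, w x) * ρ.real Set.univ := by rw [Finset.sum_mul]

/-- Mixed moment of the Gibbs average and a product of cosines. -/
noncomputable def Mom (w : S → ℝ) (Y : S → κ → ℝ) (L : List (S → ℝ)) (n : ℕ) : ℝ :=
  ∫ g, cosP Y L g * (T ρ w Y g) ^ n ∂(stdG κ)

omit [DecidableEq S] in
lemma lin_single [DecidableEq S] (Y : S → κ → ℝ) (x : S) (ξ : ℝ) (k : κ) :
    lin Y (Pi.single x ξ) k = ξ * Y x k := by
  unfold lin
  rw [Finset.sum_eq_single x]
  · simp
  · intro b _ hb; simp [Pi.single_eq_of_ne hb]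
  · simp

lemma cos_single (Y : S → κ → ℝ) (x : S) (ξ : ℝ) (g : κ → ℝ) :
    Real.cos (∑ k, g k * lin Y (Pi.single x ξ) k) = Real.cos (ξ * ∑ k, g k * Y x k) := by
  congr 1
  rw [Finset.mul_sum]
  refine Finset.sum_congr rfl fun k _ => ?_
  rw [lin_single]; ring

section Fub

omit [DecidableEq S]

/-- The integrand in the Fubini step is continuous and bounded, hence integrable. -/
lemma fub_integrable (w : S → ℝ) (hw : ∀ x, 0 ≤ w x) (Y : S → κ → ℝ) (L : List (S → ℝ)) (n : ℕ)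
    (x : S) :
    Integrable (Function.uncurry fun (g : κ → ℝ) (ξ : ℝ) =>
      cosP Y L g * (T ρ w Y g) ^ n * Real.cos (ξ * ∑ k, g k * Y x k)) ((stdG κ).prod ρ) := by
  set B : ℝ := ((∑ x, w x) * ρ.real Set.univ) with hB
  refine Integrable.of_bound (C := B ^ n) ?_ ?_
  · apply Continuous.aestronglyMeasurable
    apply Continuous.mul
    · apply Continuous.mul
      · exact (cosP_continuous Y L).comp continuous_fst
      · exact ((T_continuous ρ w Y).comp continuous_fst).pow n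
    · apply Real.continuous_cos.comp
      apply Continuous.mul continuous_snd
      fun_prop
  · refine Filter.Eventually.of_forall fun p => ?_
    rcases p with ⟨g, ξ⟩
    simp only [Function.uncurry_apply_pair, Real.norm_eq_abs, abs_mul, abs_pow]
    have h1 := cosP_abs_le Y L g
    have h2 : |T ρ w Y g| ^ n ≤ B ^ n :=
      pow_le_pow_left₀ (abs_nonneg _) (T_abs_le ρ hw Y g) n
    have h3 := Real.abs_cos_le_one (ξ * ∑ k, g k * Y x k)
    have hB0 : 0 ≤ B ^ n := le_trans (pow_nonneg (abs_nonneg _) n) h2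
    calc |cosP Y L g| * |T ρ w Y g| ^ n * |Real.cos (ξ * ∑ k, g k * Y x k)|
        ≤ 1 * B ^ n * 1 := by
          refine mul_le_mul (mul_le_mul h1 h2 (by positivity) zero_le_one) h3
            (abs_nonneg _) (by positivity)
      _ = B ^ n := by ring

lemma mom_integrand_integrable (w : S → ℝ) (hw : ∀ x, 0 ≤ w x) (Y : S → κ → ℝ)
    (L : List (S → ℝ)) (n : ℕ) :
    Integrable (fun g => cosP Y L g * (T ρ w Y g) ^ n) (stdG κ) := by
  set B : ℝ := ((∑ x, w x) * ρ.real Set.univ) with hB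
  refine Integrable.of_bound (C := B ^ n) ?_ ?_
  · exact ((cosP_continuous Y L).mul ((T_continuous ρ w Y).pow n)).aestronglyMeasurable
  · refine Filter.Eventually.of_forall fun g => ?_
    simp only [Real.norm_eq_abs, abs_mul, abs_pow]
    have h1 := cosP_abs_le Y L g
    have h2 : |T ρ w Y g| ^ n ≤ B ^ n :=
      pow_le_pow_left₀ (abs_nonneg _) (T_abs_le ρ hw Y g) n
    calc |cosP Y L g| * |T ρ w Y g| ^ n ≤ 1 * B ^ n :=
          mul_le_mul h1 h2 (by positivity) zero_le_one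
      _ = B ^ n := by ring

end Fub

/-- Peeling one factor of the Gibbs average. -/
lemma Mom_succ (w : S → ℝ) (hw : ∀ x, 0 ≤ w x) (Y : S → κ → ℝ) (L : List (S → ℝ)) (n : ℕ) :
    Mom ρ w Y L (n + 1)
      = ∑ x, w x * ∫ ξ, Mom ρ w Y ((Pi.single x ξ) :: L) n ∂ρ := by
  have h1 : ∀ g, cosP Y L g * (T ρ w Y g) ^ (n + 1)
      = ∑ x, w x * (cosP Y L g * (T ρ w Y g) ^ n * phi ρ (∑ k, g k * Y x k)) := by
    intro g
    have hT : T ρ w Y g = ∑ x, w x * phi ρ (∑ k, g k * Y x k) := rfl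
    calc cosP Y L g * (T ρ w Y g) ^ (n + 1)
        = cosP Y L g * (T ρ w Y g) ^ n * T ρ w Y g := by ring
      _ = cosP Y L g * (T ρ w Y g) ^ n * ∑ x, w x * phi ρ (∑ k, g k * Y x k) := by rw [← hT]
      _ = _ := by
        rw [Finset.mul_sum]
        refine Finset.sum_congr rfl fun x _ => ?_
        ring
  have h2 : ∀ x, Integrable (fun g => cosP Y L g * (T ρ w Y g) ^ n * phi ρ (∑ k, g k * Y x k))
      (stdG κ) := by
    intro x
    have := (fub_integrable ρ w hw Y L n x).integral_prod_left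
    refine this.congr (Filter.Eventually.of_forall fun g => ?_)
    simp only [Function.uncurry_apply_pair]
    rw [integral_const_mul]
    rfl
  unfold Mom
  simp_rw [h1]
  rw [integral_finsetSum _ (fun x _ => (h2 x).const_mul _)]
  refine Finset.sum_congr rfl fun x _ => ?_
  rw [integral_const_mul]
  congr 1
  have h3 : ∀ g, cosP Y L g * (T ρ w Y g) ^ n * phi ρ (∑ k, g k * Y x k)
      = ∫ ξ, cosP Y L g * (T ρ w Y g) ^ n * Real.cos (ξ * ∑ k, g k * Y x k) ∂ρ := by
    intro g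
    rw [integral_const_mul]
    rfl
  simp_rw [h3]
  rw [integral_integral_swap (fub_integrable ρ w hw Y L n x)]
  refine integral_congr_ae (Filter.Eventually.of_forall fun ξ => ?_)
  refine integral_congr_ae (Filter.Eventually.of_forall fun g => ?_)
  simp only [cosP_cons, cos_single]
  ring

omit [DecidableEq S] in
lemma Mom_zero (w : S → ℝ) (Y : S → κ → ℝ) (L : List (S → ℝ)) :
    Mom ρ w Y L 0 = ∫ g, cosP Y L g ∂(stdG κ) := by
  simp [Mom]

lemma Mom_integrable_xi (w : S → ℝ) (hw : ∀ x, 0 ≤ w x) (Y : S → κ → ℝ) (L : List (S → ℝ))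
    (n : ℕ) (x : S) :
    Integrable (fun ξ => Mom ρ w Y ((Pi.single x ξ) :: L) n) ρ := by
  have := (fub_integrable ρ w hw Y L n x).integral_prod_right
  refine this.congr (Filter.Eventually.of_forall fun ξ => ?_)
  simp only [Function.uncurry_apply_pair, Mom]
  refine integral_congr_ae (Filter.Eventually.of_forall fun g => ?_)
  simp only [cosP_cons, cos_single]
  ring

/-- The moment inequality. -/
theorem Mom_ineq {κ₁ κ₂ : Type*} [Fintype κ₁] [Fintype κ₂]
    (Y : S → κ → ℝ) (W₁ : S → κ₁ → ℝ) (W₂ : S → κ₂ → ℝ)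
    {l₁ l₂ : ℝ} (hl₁ : 0 ≤ l₁) (hl₂ : 0 ≤ l₂) (hl : l₁ + l₂ = 1)
    (hN : ∀ t : S → ℝ, (∑ k, lin Y t k ^ 2)
      = l₁ * (∑ k, lin W₁ t k ^ 2) + l₂ * (∑ k, lin W₂ t k ^ 2))
    (w : S → ℝ) (hw : ∀ x, 0 ≤ w x) (n : ℕ) :
    ∀ L : List (S → ℝ), Mom ρ w Y L n ≤ l₁ * Mom ρ w W₁ L n + l₂ * Mom ρ w W₂ L n := by
  induction n with
  | zero =>
    intro L
    simp only [Mom_zero]
    exact cosP_ineq Y W₁ W₂ hl₁ hl₂ hl hN L
  | succ n ih =>
    intro L
    rw [Mom_succ ρ w hw Y, Mom_succ ρ w hw W₁, Mom_succ ρ w hw W₂, Finset.mul_sum, Finset.mul_sum,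
      ← Finset.sum_add_distrib]
    refine Finset.sum_le_sum fun x _ => ?_
    have h1 : ∫ ξ, Mom ρ w Y ((Pi.single x ξ) :: L) n ∂ρ
        ≤ l₁ * ∫ ξ, Mom ρ w W₁ ((Pi.single x ξ) :: L) n ∂ρ
          + l₂ * ∫ ξ, Mom ρ w W₂ ((Pi.single x ξ) :: L) n ∂ρ := by
      rw [← integral_const_mul, ← integral_const_mul, ← integral_add
        ((Mom_integrable_xi ρ w hw W₁ L n x).const_mul _)
        ((Mom_integrable_xi ρ w hw W₂ L n x).const_mul _)]
      exact integral_mono (Mom_integrable_xi ρ w hw Y L n x)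
        (((Mom_integrable_xi ρ w hw W₁ L n x).const_mul _).add
          ((Mom_integrable_xi ρ w hw W₂ L n x).const_mul _)) (fun ξ => ih _)
    have h2 := mul_le_mul_of_nonneg_left h1 (hw x)
    calc w x * ∫ ξ, Mom ρ w Y ((Pi.single x ξ) :: L) n ∂ρ
        ≤ w x * (l₁ * ∫ ξ, Mom ρ w W₁ ((Pi.single x ξ) :: L) n ∂ρ
          + l₂ * ∫ ξ, Mom ρ w W₂ ((Pi.single x ξ) :: L) n ∂ρ) := h2
      _ = _ := by ring

end Vale.Agent.Lib.P157
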