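import Vale.Agent.Lib.P157.Defs
import Mathlib

open MeasureTheory ProbabilityTheory Real Filter Topology

namespace Vale.Agent.Lib.P157

/-- The rate function of the overlap. -/
noncomputable def rateJ (R : ℝ) : ℝ := Real.log 2 - Real.binEntropy ((1 + R) / 2)

lemma exp_nat_mul_log' {p : ℝ} (hp : 0 ≤ p) (k : ℕ) (h : p = 0 → k = 0) :
    Real.exp (k * Real.log p) = p ^ k := by
  rcases hp.eq_or_lt with rfl | hp'
  · have := h rfl
    subst this
    simp
  · rw [Real.exp_nat_mul, Real.exp_log hp']

lemma choose_mul_exp_le {N k : ℕ} (hk : k ≤ N) (hN : 0 < N) :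
    (N.choose k : ℝ) * Real.exp (-(N : ℝ) * Real.binEntropy ((k : ℝ) / N)) ≤ 1 := by
  have hN' : (0 : ℝ) < N := by exact_mod_cast hN
  have hkN : (k : ℝ) ≤ N := by exact_mod_cast hk
  set p : ℝ := (k : ℝ) / N with hp
  have hp0 : 0 ≤ p := by positivity
  have hp1 : p ≤ 1 := by rw [hp, div_le_one hN']; exact hkN
  have hq0 : 0 ≤ 1 - p := by linarith
  have hNp : (N : ℝ) * p = k := by rw [hp]; field_simp
  have hNq : (N : ℝ) * (1 - p) = ((N - k : ℕ) : ℝ) := by
    rw [Nat.cast_sub hk, mul_sub, hNp]; ring
  have e1 : Real.exp (-(N : ℝ) * Real.binEntropy p) = p ^ k * (1 - p) ^ (N - k) := by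
    have h0 : -(N : ℝ) * Real.binEntropy p
        = (k : ℝ) * Real.log p + ((N - k : ℕ) : ℝ) * Real.log (1 - p) := by
      rw [← hNp, ← hNq]
      unfold Real.binEntropy
      rw [Real.log_inv, Real.log_inv]
      ring
    rw [h0, Real.exp_add, exp_nat_mul_log' hp0, exp_nat_mul_log' hq0]
    · intro hq
      have : (k : ℝ) = N := by
        have : p = 1 := by linarith
        rw [this, mul_one] at hNp
        exact hNp.symm
      have : k = N := by exact_mod_cast this
      omega
    · intro hp'
      rw [hp', mul_zero] at hNp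
      exact_mod_cast hNp.symm
  rw [e1]
  have hsum : (p + (1 - p)) ^ N = 1 := by
    have : p + (1 - p) = 1 := by ring
    rw [this, one_pow]
  rw [add_pow] at hsum
  have hle := Finset.single_le_sum (s := Finset.range (N + 1))
    (f := fun m => p ^ m * (1 - p) ^ (N - m) * (N.choose m : ℝ))
    (fun m _ => by positivity) (Finset.mem_range.2 (Nat.lt_succ_of_le hk))
  rw [hsum] at hle
  linarith

/-- Bijection between cube points and their difference sets with a fixed point. -/
def diffEquiv {N : ℕ} (x : Fin N → Bool) : (Fin N → Bool) ≃ Finset (Fin N) where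
  toFun y := Finset.univ.filter fun k => x k ≠ y k
  invFun T := fun k => if k ∈ T then !x k else x k
  left_inv y := by
    funext k
    by_cases h : x k = y k
    · simp [h]
    · simp only [ne_eq, Finset.mem_filter, Finset.mem_univ, true_and, h, not_false_eq_true,
        if_true]
      cases hx : x k <;> cases hy : y k <;> simp_all
  right_inv T := by
    ext k
    simp only [ne_eq, Finset.mem_filter, Finset.mem_univ, true_and]
    by_cases h : k ∈ T <;> simp [h]

lemma sum_cube_card {N : ℕ} (x : Fin N → Bool) (h : ℕ → ℝ) :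
    ∑ y : Fin N → Bool, h (Finset.univ.filter fun k => x k ≠ y k).card
      = ∑ k ∈ Finset.range (N + 1), (N.choose k : ℝ) * h k := by
  have e1 := (diffEquiv x).sum_comp (fun T : Finset (Fin N) => h T.card)
  have e2 : ∀ y : Fin N → Bool, h (Finset.univ.filter fun k => x k ≠ y k).card
      = h ((diffEquiv x) y).card := fun y => rfl
  simp_rw [e2]
  rw [e1]
  have e3 := Finset.sum_powerset_apply_card h (x := (Finset.univ : Finset (Fin N)))
  rw [Finset.powerset_univ] at e3
  rw [e3]
  simp [nsmul_eq_mul]

/-- The overlap of two cube points. -/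
noncomputable def ovl {N : ℕ} (x y : Fin N → Bool) : ℝ :=
  (∑ k, spin (x k) * spin (y k)) / N

lemma ovl_eq {N : ℕ} (hN : 0 < N) (x y : Fin N → Bool) :
    ovl x y = 1 - 2 * ((Finset.univ.filter fun k => x k ≠ y k).card : ℝ) / N := by
  have hN' : (N : ℝ) ≠ 0 := by positivity
  have h1 : ∀ k, spin (x k) * spin (y k) = 1 - 2 * (if x k ≠ y k then (1:ℝ) else 0) := by
    intro k
    cases hx : x k <;> cases hy : y k <;> simp [spin] <;> norm_num
  unfold ovl
  simp_rw [h1]
  rw [Finset.sum_sub_distrib, ← Finset.mul_sum, Finset.sum_boole]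
  simp
  field_simp

lemma ovl_abs_le {N : ℕ} (hN : 0 < N) (x y : Fin N → Bool) : |ovl x y| ≤ 1 := by
  have hN' : (0 : ℝ) < N := by exact_mod_cast hN
  have hc : ((Finset.univ.filter fun k => x k ≠ y k).card : ℝ) ≤ N := by
    have := Finset.card_filter_le (Finset.univ : Finset (Fin N)) fun k => x k ≠ y k
    simp only [Finset.card_univ, Fintype.card_fin] at this
    exact_mod_cast this
  rw [ovl_eq hN, abs_le]
  constructor
  · have : 2 * ((Finset.univ.filter fun k => x k ≠ y k).card : ℝ) / N ≤ 2 := by
      rw [div_le_iff₀ hN']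
      linarith
    linarith
  · have : 0 ≤ 2 * ((Finset.univ.filter fun k => x k ≠ y k).card : ℝ) / N := by positivity
    linarith

/-- The entropy bound for the sum over one cube point. -/
lemma sum_exp_rate_le {N : ℕ} (hN : 0 < N) (x : Fin N → Bool) :
    ∑ y : Fin N → Bool, Real.exp ((N : ℝ) * rateJ (ovl x y)) ≤ 2 ^ N * ((N : ℝ) + 1) := by
  have hN' : (0 : ℝ) < N := by exact_mod_cast hN
  have h2 : Real.exp ((N : ℝ) * Real.log 2) = 2 ^ N := by
    rw [Real.exp_nat_mul, Real.exp_log (by norm_num)]
  have e : ∀ y : Fin N → Bool, Real.exp ((N : ℝ) * rateJ (ovl x y))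
      = 2 ^ N * (fun d : ℕ => Real.exp (-(N : ℝ) * Real.binEntropy ((d : ℝ) / N)))
        (Finset.univ.filter fun k => x k ≠ y k).card := by
    intro y
    simp only
    rw [← h2, ← Real.exp_add]
    congr 1
    unfold rateJ
    rw [ovl_eq hN]
    set d : ℝ := ((Finset.univ.filter fun k => x k ≠ y k).card : ℝ) with hd
    have e1 : (1 + (1 - 2 * d / N)) / 2 = 1 - d / N := by ring
    rw [e1, Real.binEntropy_one_sub]
    ring
  simp_rw [e]
  rw [← Finset.mul_sum]
  have e5 := sum_cube_card x (fun d : ℕ => Real.exp (-(N : ℝ) * Real.binEntropy ((d : ℝ) / N)))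
  rw [e5]
  refine mul_le_mul_of_nonneg_left ?_ (by positivity)
  calc ∑ k ∈ Finset.range (N + 1), (N.choose k : ℝ)
        * Real.exp (-(N : ℝ) * Real.binEntropy ((k : ℝ) / N))
      ≤ ∑ _k ∈ Finset.range (N + 1), (1:ℝ) := by
        refine Finset.sum_le_sum fun k hk => ?_
        exact choose_mul_exp_le (Nat.lt_succ_iff.1 (Finset.mem_range.1 hk)) hN
    _ = (N : ℝ) + 1 := by simp

/-- The pointwise comparison between `cosh` and the rate function. -/
lemma cosh_sub_one_le_rate {t R : ℝ} (ht : t ^ 2 ≤ 2) (hR : |R| ≤ 1) :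
    Real.cosh (t * R) - 1 ≤ t ^ 2 * rateJ R := by
  -- reduction to nonnegative `t` and `R`
  have key : ∀ {t R : ℝ}, 0 ≤ t → t ^ 2 ≤ 2 → 0 ≤ R → R ≤ 1 →
      Real.cosh (t * R) - 1 ≤ t ^ 2 * rateJ R := by
    intro t R ht0 ht hR0 hR1
    -- the derivative of the rate function
    have hJ : ∀ r ∈ Set.Ioo (0:ℝ) 1, HasDerivAt rateJ ((1 / 2) * (Real.log (1 + r) - Real.log (1 - r))) r := by
      intro r hr
      have hp0 : (1 + r) / 2 ≠ 0 := by
        have := hr.1
        positivity
      have hp1 : (1 + r) / 2 ≠ 1 := by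
        have := hr.2
        intro h
        linarith
      have h1 := Real.hasDerivAt_binEntropy hp0 hp1
      have h2 : HasDerivAt (fun r : ℝ => (1 + r) / 2) (1 / 2) r := by
        have := ((hasDerivAt_id r).const_add 1).div_const 2
        simpa using this
      have h3 := (h1.comp r h2).const_sub (Real.log 2)
      have e1 : (1:ℝ) - (1 + r) / 2 = (1 - r) / 2 := by ring
      have hr1 : (1 - r) ≠ 0 := by
        have := hr.2
        intro h
        linarith
      have hr2 : (1 + r) ≠ 0 := by
        have := hr.1
        intro h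
        linarith
      rw [e1, Real.log_div hr1 (by norm_num), Real.log_div hr2 (by norm_num)] at h3
      have h3' : HasDerivAt rateJ _ r := h3
      exact h3'.congr_deriv (by ring)
    -- the auxiliary function with derivative `t / (1 - r ^ 2) - t * cosh (t r)`
    let k : ℝ → ℝ := fun r => t * ((1 / 2) * (Real.log (1 + r) - Real.log (1 - r))) - Real.sinh (t * r)
    have hk : ∀ r ∈ Set.Ioo (0:ℝ) 1, HasDerivAt k (t * (1 / (1 - r ^ 2)) - t * Real.cosh (t * r)) r := by
      intro r hr
      have hr1 : (1 - r) ≠ 0 := by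
        have := hr.2
        intro h
        linarith
      have hr2 : (1 + r) ≠ 0 := by
        have := hr.1
        intro h
        linarith
      have h1 : HasDerivAt (fun r : ℝ => Real.log (1 + r)) (1 / (1 + r)) r := by
        have := ((hasDerivAt_id r).const_add 1).log hr2
        simpa using this
      have h2 : HasDerivAt (fun r : ℝ => Real.log (1 - r)) (-1 / (1 - r)) r := by
        have := ((hasDerivAt_id r).const_sub 1).log hr1
        simpa using this
      have h3 : HasDerivAt (fun r : ℝ => Real.sinh (t * r)) (Real.cosh (t * r) * t) r := by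
        have h4 : HasDerivAt (fun r : ℝ => t * r) t r := by
          simpa using (hasDerivAt_id r).const_mul t
        exact (Real.hasDerivAt_sinh (t * r)).comp r h4
      have h5 := (((h1.sub h2).const_mul (1 / 2)).const_mul t).sub h3
      have h5' : HasDerivAt k _ r := h5
      refine h5'.congr_deriv ?_
      have hr3 : 1 - r ^ 2 = (1 + r) * (1 - r) := by ring
      rw [hr3]
      field_simp
      ring
    have hprod : ∀ r ∈ Set.Ioo (0:ℝ) 1, Real.cosh (t * r) ≤ 1 / (1 - r ^ 2) := by
      intro r hr
      have hr2 : 0 < 1 - r ^ 2 := by nlinarith [hr.1, hr.2]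
      rw [le_div_iff₀ hr2]
      have h1 : Real.cosh (t * r) ≤ Real.exp ((t * r) ^ 2 / 2) := Real.cosh_le_exp_half_sq _
      have h2 : 1 - r ^ 2 ≤ Real.exp (-(r ^ 2)) := Real.one_sub_le_exp_neg _
      have h3 : (t * r) ^ 2 / 2 ≤ r ^ 2 := by
        have : 0 ≤ r ^ 2 := sq_nonneg r
        nlinarith
      have h4 : Real.cosh (t * r) ≤ Real.exp (r ^ 2) := h1.trans (Real.exp_le_exp.2 h3)
      calc Real.cosh (t * r) * (1 - r ^ 2) ≤ Real.exp (r ^ 2) * Real.exp (-(r ^ 2)) :=
            mul_le_mul h4 h2 hr2.le (Real.exp_pos _).le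
        _ = 1 := by
            rw [← Real.exp_add]
            simp
    have hkmono : MonotoneOn k (Set.Ico 0 1) := by
      refine monotoneOn_of_deriv_nonneg (convex_Ico 0 1) ?_ ?_ ?_
      · intro r hr
        have hr1 : (1 - r) ≠ 0 := by
          have := hr.2
          intro h
          linarith
        have hr2 : (1 + r) ≠ 0 := by
          have := hr.1
          intro h
          linarith
        have h1 : ContinuousAt k r := by
          simp only [k]
          refine ContinuousAt.sub (ContinuousAt.mul continuousAt_const (ContinuousAt.mul continuousAt_const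
            (ContinuousAt.sub ?_ ?_))) (Continuous.continuousAt (by fun_prop))
          · exact ContinuousAt.log (by fun_prop) hr2
          · exact ContinuousAt.log (by fun_prop) hr1
        exact h1.continuousWithinAt
      · intro r hr
        rw [interior_Ico] at hr
        exact (hk r hr).differentiableAt.differentiableWithinAt
      · intro r hr
        rw [interior_Ico] at hr
        rw [(hk r hr).deriv]
        have := hprod r hr
        have h2 := mul_le_mul_of_nonneg_left this ht0
        linarith
    have hk0 : k 0 = 0 := by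
      simp [k]
    have hkpos : ∀ r ∈ Set.Ioo (0:ℝ) 1, 0 ≤ k r := by
      intro r hr
      have := hkmono (Set.left_mem_Ico.2 one_pos) ⟨hr.1.le, hr.2⟩ hr.1.le
      rwa [hk0] at this
    -- the main function
    let g : ℝ → ℝ := fun r => t ^ 2 * rateJ r - Real.cosh (t * r) + 1
    have hrate : Continuous rateJ := by
      unfold rateJ
      exact continuous_const.sub (Real.binEntropy_continuous.comp (by fun_prop))
    have hg : ∀ r ∈ Set.Ioo (0:ℝ) 1, HasDerivAt g (t * k r) r := by
      intro r hr
      have h1 := hJ r hr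
      have h3 : HasDerivAt (fun r : ℝ => Real.cosh (t * r)) (Real.sinh (t * r) * t) r := by
        have h4 : HasDerivAt (fun r : ℝ => t * r) t r := by
          simpa using (hasDerivAt_id r).const_mul t
        exact (Real.hasDerivAt_cosh (t * r)).comp r h4
      have h5 := ((h1.const_mul (t ^ 2)).sub h3).add_const 1
      have h5' : HasDerivAt g _ r := h5
      refine h5'.congr_deriv ?_
      simp only [k]
      ring
    have hgmono : MonotoneOn g (Set.Icc 0 1) := by
      refine monotoneOn_of_deriv_nonneg (convex_Icc 0 1) ?_ ?_ ?_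
      · have : Continuous g := by
          simp only [g]
          fun_prop
        exact this.continuousOn
      · intro r hr
        rw [interior_Icc] at hr
        exact (hg r hr).differentiableAt.differentiableWithinAt
      · intro r hr
        rw [interior_Icc] at hr
        rw [(hg r hr).deriv]
        exact mul_nonneg ht0 (hkpos r hr)
    have hg0 : g 0 = 0 := by
      simp [g, rateJ]
    have := hgmono (Set.left_mem_Icc.2 zero_le_one) ⟨hR0, hR1⟩ hR0
    rw [hg0] at this
    simp only [g] at this
    linarith
  have hrateeven : rateJ (-|R|) = rateJ |R| := by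
    unfold rateJ
    have : (1 + -|R|) / 2 = 1 - (1 + |R|) / 2 := by ring
    rw [this, Real.binEntropy_one_sub]
  have hRabs : rateJ R = rateJ |R| := by
    rcases abs_cases R with ⟨h, _⟩ | ⟨h, _⟩
    · rw [h]
    · rw [h]
      have : R = -(-R) := by ring
      conv_lhs => rw [this]
      rw [← h]
      exact hrateeven
  have hcosh : Real.cosh (t * R) = Real.cosh (|t| * |R|) := by
    rw [← abs_mul, Real.cosh_abs]
  have h := key (abs_nonneg t) (by rwa [sq_abs]) (abs_nonneg R) hR
  rw [sq_abs, ← hcosh, ← hRabs] at h
  exact h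

end Vale.Agent.Lib.P157
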