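import Vale.Agent.Lib.P157.LogCosh
import Vale.Agent.Lib.P157.Anneal

open MeasureTheory ProbabilityTheory Real Filter Topology

namespace Vale.Agent.Lib.P157

/-- The quadratic upper bound for the logarithm. -/
lemma log_one_add_le_quad {u B : ℝ} (hB : 0 ≤ B) (hu1 : -1 < u) (hu2 : u ≤ B) :
    Real.log (1 + u) ≤ u - u ^ 2 / (2 * (1 + B)) := by
  have hB1 : 0 < 1 + B := by linarith
  let g : ℝ → ℝ := fun u => u - u ^ 2 / (2 * (1 + B)) - Real.log (1 + u)
  let g' : ℝ → ℝ := fun u => u * (B - u) / ((1 + u) * (1 + B))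
  have hg : ∀ y, -1 < y → HasDerivAt g (g' y) y := by
    intro y hy
    have hy1 : 1 + y ≠ 0 := by linarith
    have h1 : HasDerivAt (fun y : ℝ => Real.log (1 + y)) (1 / (1 + y)) y := by
      have := ((hasDerivAt_id y).const_add 1).log hy1
      simpa using this
    have h2 : HasDerivAt (fun y : ℝ => y ^ 2 / (2 * (1 + B))) (2 * y / (2 * (1 + B))) y := by
      have := (hasDerivAt_pow 2 y).div_const (2 * (1 + B))
      refine HasDerivAt.congr_deriv this ?_
      norm_num
    have h3 := ((hasDerivAt_id y).sub h2).sub h1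
    refine HasDerivAt.congr_deriv h3 ?_
    simp only [g', id]
    field_simp
    ring
  have hg0 : g 0 = 0 := by simp [g]
  have key : 0 ≤ g u := by
    rcases le_or_gt 0 u with h | h
    · have hmono : MonotoneOn g (Set.Icc 0 B) := by
        refine monotoneOn_of_deriv_nonneg (convex_Icc 0 B) ?_ ?_ ?_
        · intro y hy
          exact (hg y (by linarith [hy.1])).continuousAt.continuousWithinAt
        · intro y hy
          rw [interior_Icc] at hy
          exact (hg y (by linarith [hy.1])).differentiableAt.differentiableWithinAt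
        · intro y hy
          rw [interior_Icc] at hy
          rw [(hg y (by linarith [hy.1])).deriv]
          have h1 := hy.1
          have h2 := hy.2
          simp only [g']
          exact div_nonneg (mul_nonneg h1.le (by linarith)) (by positivity)
      have := hmono (Set.left_mem_Icc.2 hB) ⟨h, hu2⟩ h
      rwa [hg0] at this
    · have hanti : AntitoneOn g (Set.Icc u 0) := by
        refine antitoneOn_of_deriv_nonpos (convex_Icc u 0) ?_ ?_ ?_
        · intro y hy
          exact (hg y (by linarith [hy.1])).continuousAt.continuousWithinAt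
        · intro y hy
          rw [interior_Icc] at hy
          exact (hg y (by linarith [hy.1])).differentiableAt.differentiableWithinAt
        · intro y hy
          rw [interior_Icc] at hy
          rw [(hg y (by linarith [hy.1])).deriv]
          have h1 := hy.1
          have h2 := hy.2
          simp only [g']
          refine div_nonpos_of_nonpos_of_nonneg ?_ ?_
          · exact mul_nonpos_of_nonpos_of_nonneg h2.le (by linarith)
          · exact mul_nonneg (by linarith) hB1.le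
      have := hanti (Set.left_mem_Icc.2 h.le) (Set.right_mem_Icc.2 h.le) h.le
      rwa [hg0] at this
  simp only [g] at key
  linarith

/-- The cubic upper bound for the logarithm. -/
lemma log_one_add_le_cubic {u : ℝ} (hu1 : -1 < u) :
    Real.log (1 + u) ≤ u - u ^ 2 / 2 + |u| ^ 3 / 3 := by
  rcases le_or_gt u 0 with h | h
  · have := log_one_add_le_quad (le_refl (0:ℝ)) hu1 h
    norm_num at this
    have h2 : 0 ≤ |u| ^ 3 / 3 := by positivity
    linarith
  · rw [abs_of_pos h]
    let g : ℝ → ℝ := fun u => u - u ^ 2 / 2 + u ^ 3 / 3 - Real.log (1 + u)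
    have hd : ∀ y, 0 ≤ y → HasDerivAt g (y ^ 3 / (1 + y)) y := by
      intro y hy
      have hy1 : 1 + y ≠ 0 := by linarith
      have h1 : HasDerivAt (fun y : ℝ => Real.log (1 + y)) (1 / (1 + y)) y := by
        have := ((hasDerivAt_id y).const_add 1).log hy1
        simpa using this
      have h3 := (((hasDerivAt_id y).sub ((hasDerivAt_pow 2 y).div_const 2)).add
        ((hasDerivAt_pow 3 y).div_const 3)).sub h1
      refine HasDerivAt.congr_deriv h3 ?_
      field_simp
      norm_num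
      ring
    have hmono : MonotoneOn g (Set.Ici 0) := by
      refine monotoneOn_of_deriv_nonneg (convex_Ici 0) ?_ ?_ ?_
      · intro y hy
        exact (hd y hy).continuousAt.continuousWithinAt
      · intro y hy
        rw [interior_Ici] at hy
        exact (hd y (le_of_lt hy)).differentiableAt.differentiableWithinAt
      · intro y hy
        rw [interior_Ici] at hy
        have hy' : 0 < y := hy
        rw [(hd y hy'.le).deriv]
        positivity
    have h0 : g 0 = 0 := by simp [g]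
    have := hmono (Set.mem_Ici.2 le_rfl) (Set.mem_Ici.2 h.le) h.le
    rw [h0] at this
    simp only [g] at this
    linarith

variable {ρ : Measure ℝ} [IsFiniteMeasure ρ] {A : ℝ}

lemma psiR_ge {q : ℝ} (hq : |q| ≤ 1) : q ^ 2 / 2 * aTwo ρ ^ 2 ≤ psiR ρ q := by
  rw [aTwo_sq, ← integral_const_mul]
  unfold psiR
  have hi1 : Integrable (fun p : ℝ × ℝ =>
      Real.exp (-(p.1 ^ 2 + p.2 ^ 2) / 2) * (Real.cosh (p.1 * p.2 * q) - 1)) (ρ.prod ρ) := by
    have := (gc_integrable ρ hq).sub (g0_integrable ρ)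
    refine this.congr (Filter.Eventually.of_forall fun p => ?_)
    simp only [Pi.sub_apply]
    ring
  have hi2 : Integrable (fun p : ℝ × ℝ => q ^ 2 / 2 *
      (Real.exp (-(p.1 ^ 2 + p.2 ^ 2) / 2) * (p.1 * p.2) ^ 2)) (ρ.prod ρ) := by
    refine Integrable.const_mul ?_ _
    refine Integrable.of_bound (C := 4) (Continuous.aestronglyMeasurable (by fun_prop))
      (Filter.Eventually.of_forall fun p => ?_)
    rw [Real.norm_eq_abs, abs_of_nonneg (by positivity)]
    have h1 := sq_exp_le p.1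
    have h2 := sq_exp_le p.2
    have e : Real.exp (-(p.1 ^ 2 + p.2 ^ 2) / 2) * (p.1 * p.2) ^ 2
        = (p.1 ^ 2 * Real.exp (-(p.1 ^ 2) / 2)) * (p.2 ^ 2 * Real.exp (-(p.2 ^ 2) / 2)) := by
      have : Real.exp (-(p.1 ^ 2 + p.2 ^ 2) / 2)
          = Real.exp (-(p.1 ^ 2) / 2) * Real.exp (-(p.2 ^ 2) / 2) := by
        rw [← Real.exp_add]
        congr 1
        ring
      rw [this]
      ring
    rw [e]
    calc _ ≤ (2:ℝ) * 2 := mul_le_mul h1 h2 (by positivity) (by norm_num)
      _ = 4 := by norm_num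
  refine integral_mono hi2 hi1 fun p => ?_
  have h := one_add_sq_div_two_le_cosh (p.1 * p.2 * q)
  have h2 : q ^ 2 / 2 * (p.1 * p.2) ^ 2 ≤ Real.cosh (p.1 * p.2 * q) - 1 := by
    have e : (p.1 * p.2 * q) ^ 2 / 2 = q ^ 2 / 2 * (p.1 * p.2) ^ 2 := by ring
    rw [e] at h
    linarith
  have h3 := mul_le_mul_of_nonneg_left h2 (Real.exp_pos (-(p.1 ^ 2 + p.2 ^ 2) / 2)).le
  calc _ = Real.exp (-(p.1 ^ 2 + p.2 ^ 2) / 2) * (q ^ 2 / 2 * (p.1 * p.2) ^ 2) := by ring
    _ ≤ _ := h3

variable (ρ) in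
lemma integral_phiQ {q : ℝ} (hq0 : 0 ≤ q) (hq1 : q ≤ 1) :
    ∫ z, phiQ ρ q z ∂gam = mOf ρ := by
  unfold phiQ mOf
  have hfub : Integrable (Function.uncurry fun (z ξ : ℝ) =>
      Real.cos (ξ * (Real.sqrt q * z)) * Real.exp (-((1 - q) * ξ ^ 2) / 2)) (gam.prod ρ) := by
    refine Integrable.of_bound (by apply Continuous.aestronglyMeasurable; fun_prop) 1
      (Filter.Eventually.of_forall fun p => by
        rcases p with ⟨z, ξ⟩
        simpa using phiQ_integrand_bound hq1 z ξ)
  rw [integral_integral_swap hfub]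
  refine integral_congr_ae (Filter.Eventually.of_forall fun ξ => ?_)
  simp only
  rw [integral_mul_const]
  have e : ∀ z, Real.cos (ξ * (Real.sqrt q * z)) = Real.cos (0 + (ξ * Real.sqrt q) * z) := by
    intro z
    congr 1
    ring
  simp_rw [e]
  rw [integral_cos_add_mul, Real.cos_zero, one_mul, ← Real.exp_add]
  congr 1
  rw [mul_pow, Real.sq_sqrt hq0]
  ring

lemma integral_cos_cos_gam (a b : ℝ) :
    ∫ z, Real.cos (a * z) * Real.cos (b * z) ∂gam
      = Real.exp (-(a ^ 2 + b ^ 2) / 2) * Real.cosh (a * b) := by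
  have hcc : ∀ z : ℝ, Real.cos (a * z) * Real.cos (b * z)
      = (1 / 2) * Real.cos (0 + (a + b) * z) + (1 / 2) * Real.cos (0 + (a - b) * z) := by
    intro z
    have e1 : 0 + (a + b) * z = a * z + b * z := by ring
    have e2 : 0 + (a - b) * z = a * z - b * z := by ring
    rw [e1, e2, Real.cos_add, Real.cos_sub]
    ring
  simp_rw [hcc]
  have hint : ∀ c : ℝ, Integrable (fun z : ℝ => Real.cos (0 + c * z)) gam := by
    intro c
    refine Integrable.of_bound (by apply Continuous.aestronglyMeasurable; fun_prop) 1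
      (Filter.Eventually.of_forall fun z => by simpa using Real.abs_cos_le_one _)
  rw [integral_add ((hint _).const_mul _) ((hint _).const_mul _), integral_const_mul,
    integral_const_mul, integral_cos_add_mul, integral_cos_add_mul, Real.cos_zero, Real.cosh_eq]
  have e3 : -((a + b) ^ 2) / 2 = -(a ^ 2 + b ^ 2) / 2 + (-(a * b)) := by ring
  have e4 : -((a - b) ^ 2) / 2 = -(a ^ 2 + b ^ 2) / 2 + (a * b) := by ring
  rw [e3, e4, Real.exp_add, Real.exp_add]
  ring

variable (ρ) in
lemma integral_phiQ_sq {q : ℝ} (hq0 : 0 ≤ q) (hq1 : q ≤ 1) :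
    ∫ z, phiQ ρ q z ^ 2 ∂gam
      = ∫ p : ℝ × ℝ, Real.exp (-(p.1 ^ 2 + p.2 ^ 2) / 2) * Real.cosh (p.1 * p.2 * q)
          ∂(ρ.prod ρ) := by
  have hsq : ∀ z, phiQ ρ q z ^ 2 = ∫ p : ℝ × ℝ,
      (Real.cos (p.1 * (Real.sqrt q * z)) * Real.exp (-((1 - q) * p.1 ^ 2) / 2)) *
      (Real.cos (p.2 * (Real.sqrt q * z)) * Real.exp (-((1 - q) * p.2 ^ 2) / 2)) ∂(ρ.prod ρ) := by
    intro z
    rw [sq]
    unfold phiQ
    rw [← integral_prod_mul (μ := ρ) (ν := ρ)
      (fun ξ => Real.cos (ξ * (Real.sqrt q * z)) * Real.exp (-((1 - q) * ξ ^ 2) / 2))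
      (fun ξ => Real.cos (ξ * (Real.sqrt q * z)) * Real.exp (-((1 - q) * ξ ^ 2) / 2))]
  simp_rw [hsq]
  have hfub : Integrable (Function.uncurry fun (z : ℝ) (p : ℝ × ℝ) =>
      (Real.cos (p.1 * (Real.sqrt q * z)) * Real.exp (-((1 - q) * p.1 ^ 2) / 2)) *
      (Real.cos (p.2 * (Real.sqrt q * z)) * Real.exp (-((1 - q) * p.2 ^ 2) / 2)))
      (gam.prod (ρ.prod ρ)) := by
    refine Integrable.of_bound ?_ 1 ?_
    · apply Continuous.aestronglyMeasurable
      show Continuous fun x : ℝ × (ℝ × ℝ) =>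
        (Real.cos (x.2.1 * (Real.sqrt q * x.1)) * Real.exp (-((1 - q) * x.2.1 ^ 2) / 2)) *
        (Real.cos (x.2.2 * (Real.sqrt q * x.1)) * Real.exp (-((1 - q) * x.2.2 ^ 2) / 2))
      fun_prop
    · refine Filter.Eventually.of_forall fun x => ?_
      rcases x with ⟨z, p⟩
      simp only [Function.uncurry_apply_pair, Real.norm_eq_abs, abs_mul (_ * _)]
      calc _ ≤ (1:ℝ) * 1 := mul_le_mul (phiQ_integrand_bound hq1 z p.1)
            (phiQ_integrand_bound hq1 z p.2) (abs_nonneg _) zero_le_one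
        _ = 1 := by ring
  rw [integral_integral_swap hfub]
  refine integral_congr_ae (Filter.Eventually.of_forall fun p => ?_)
  simp only
  have e : ∀ z : ℝ, (Real.cos (p.1 * (Real.sqrt q * z)) * Real.exp (-((1 - q) * p.1 ^ 2) / 2)) *
      (Real.cos (p.2 * (Real.sqrt q * z)) * Real.exp (-((1 - q) * p.2 ^ 2) / 2))
      = Real.exp (-((1 - q) * p.1 ^ 2) / 2) * Real.exp (-((1 - q) * p.2 ^ 2) / 2) *
        (Real.cos ((p.1 * Real.sqrt q) * z) * Real.cos ((p.2 * Real.sqrt q) * z)) := by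
    intro z
    have e1 : p.1 * (Real.sqrt q * z) = (p.1 * Real.sqrt q) * z := by ring
    have e2 : p.2 * (Real.sqrt q * z) = (p.2 * Real.sqrt q) * z := by ring
    rw [e1, e2]
    ring
  simp_rw [e]
  rw [integral_const_mul, integral_cos_cos_gam, ← mul_assoc, ← Real.exp_add, ← Real.exp_add]
  have e3 : (p.1 * Real.sqrt q) * (p.2 * Real.sqrt q) = p.1 * p.2 * q := by
    have := Real.mul_self_sqrt hq0
    calc _ = p.1 * p.2 * (Real.sqrt q * Real.sqrt q) := by ring
      _ = _ := by rw [this]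
  rw [e3]
  congr 2
  rw [mul_pow, mul_pow, Real.sq_sqrt hq0]
  ring

/-- The pointwise bound on the deviation of `φ_q` from its mean, for small `q`. -/
lemma phiQ_sub_mOf_abs_le {q : ℝ} (hq0 : 0 ≤ q) (hq1 : q ≤ 1 / 2) (z : ℝ) :
    |phiQ ρ q z - mOf ρ| ≤ ρ.real Set.univ * (2 * q * (1 + z ^ 2)) := by
  have hq1' : q ≤ 1 := by linarith
  unfold phiQ mOf
  have hi1 := phiQ_integrable ρ hq1' z
  have hi2 : Integrable (fun ξ : ℝ => Real.exp (-(ξ ^ 2) / 2)) ρ := by
    refine Integrable.of_bound (by apply Continuous.aestronglyMeasurable; fun_prop) 1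
      (Filter.Eventually.of_forall fun ξ => ?_)
    rw [Real.norm_eq_abs, abs_of_pos (Real.exp_pos _), Real.exp_le_one_iff]
    have := sq_nonneg ξ
    linarith
  rw [← integral_sub hi1 hi2]
  have hC : 0 ≤ 2 * q * (1 + z ^ 2) := by positivity
  have h := norm_integral_le_of_norm_le_const (μ := ρ) (C := 2 * q * (1 + z ^ 2))
    (f := fun ξ => Real.cos (ξ * (Real.sqrt q * z)) * Real.exp (-((1 - q) * ξ ^ 2) / 2)
      - Real.exp (-(ξ ^ 2) / 2)) (Filter.Eventually.of_forall fun ξ => ?_)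
  · rw [Real.norm_eq_abs] at h
    refine h.trans (le_of_eq ?_)
    rw [mul_comm]
  rw [Real.norm_eq_abs]
  set v := ξ ^ 2 with hv
  have hv0 : 0 ≤ v := sq_nonneg ξ
  set E := Real.exp (-((1 - q) * v) / 2) with hE
  have hE0 : 0 < E := Real.exp_pos _
  have hE1 : E ≤ Real.exp (-(v / 4)) := by
    apply Real.exp_le_exp.2
    nlinarith
  have hvE : v * E ≤ 4 := by
    have h1 := Real.add_one_le_exp (v / 4)
    have h2 : Real.exp (-(v / 4)) = (Real.exp (v / 4))⁻¹ := Real.exp_neg _
    have h3 : v * E ≤ v * (Real.exp (v / 4))⁻¹ := by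
      rw [← h2]
      exact mul_le_mul_of_nonneg_left hE1 hv0
    have h4 : v * (Real.exp (v / 4))⁻¹ ≤ 4 := by
      rw [← div_eq_mul_inv, div_le_iff₀ (Real.exp_pos _)]
      linarith
    linarith
  -- the two terms
  have hcos : |Real.cos (ξ * (Real.sqrt q * z)) - 1| ≤ v * q * z ^ 2 / 2 := by
    have h1 := Real.one_sub_sq_div_two_le_cos (x := ξ * (Real.sqrt q * z))
    have h2 := Real.cos_le_one (ξ * (Real.sqrt q * z))
    have e : (ξ * (Real.sqrt q * z)) ^ 2 = v * q * z ^ 2 := by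
      rw [mul_pow, mul_pow, Real.sq_sqrt hq0]
      ring
    rw [e] at h1
    rw [abs_le]
    constructor <;> linarith [mul_nonneg (mul_nonneg hv0 hq0) (sq_nonneg z)]
  have hexp : |E - Real.exp (-(v) / 2)| ≤ E * (q * v / 2) := by
    have e1 : Real.exp (-(v) / 2) = E * Real.exp (-(q * v / 2)) := by
      rw [hE, ← Real.exp_add]
      congr 1
      ring
    rw [e1]
    have h2 : 1 - q * v / 2 ≤ Real.exp (-(q * v / 2)) := Real.one_sub_le_exp_neg _
    have h3 : Real.exp (-(q * v / 2)) ≤ 1 := by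
      rw [Real.exp_le_one_iff]
      have : 0 ≤ q * v / 2 := by positivity
      linarith
    rw [abs_le]
    have h4 : 0 ≤ q * v / 2 := by positivity
    constructor <;> nlinarith
  have e2 : Real.cos (ξ * (Real.sqrt q * z)) * E - Real.exp (-(v) / 2)
      = (Real.cos (ξ * (Real.sqrt q * z)) - 1) * E + (E - Real.exp (-(v) / 2)) := by ring
  have e3 : -(ξ ^ 2) / 2 = -(v) / 2 := by rw [hv]
  rw [e3, e2]
  calc _ ≤ |(Real.cos (ξ * (Real.sqrt q * z)) - 1) * E| + |E - Real.exp (-(v) / 2)| :=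
        abs_add_le _ _
    _ ≤ (v * q * z ^ 2 / 2) * E + E * (q * v / 2) := by
        rw [abs_mul, abs_of_pos hE0]
        exact add_le_add (mul_le_mul_of_nonneg_right hcos hE0.le) hexp
    _ = (v * E) * (q * (1 + z ^ 2) / 2) := by ring
    _ ≤ 4 * (q * (1 + z ^ 2) / 2) := by
        refine mul_le_mul_of_nonneg_right hvE (by positivity)
    _ = 2 * q * (1 + z ^ 2) := by ring

lemma mOf_abs_le : |mOf ρ| ≤ ρ.real Set.univ := by
  unfold mOf
  have h := norm_integral_le_of_norm_le_const (μ := ρ) (f := fun ξ => Real.exp (-(ξ ^ 2) / 2)) (C := 1)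
    (Filter.Eventually.of_forall fun ξ => by
      rw [Real.norm_eq_abs, abs_of_pos (Real.exp_pos _)]
      apply Real.exp_le_one_iff.2
      have := sq_nonneg ξ
      linarith)
  simpa using h

/-- The normalized deviation. -/
noncomputable def uOf (ρ : Measure ℝ) (A q z : ℝ) : ℝ := (mOf ρ - phiQ ρ q z) / (A - mOf ρ)

section

variable {q : ℝ} (hA : ρ.real Set.univ < A) (hq0 : 0 ≤ q) (hq1 : q ≤ 1)
include hA

lemma uOf_gt (hq1 : q ≤ 1) (z : ℝ) : -1 < uOf ρ A q z := by
  have hU := Ubar_pos (ρ := ρ) hA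
  unfold uOf
  rw [lt_div_iff₀ hU]
  have := (abs_le.1 (phiQ_abs_le ρ hq1 z)).2
  linarith

lemma uOf_le (hq1 : q ≤ 1) (z : ℝ) : uOf ρ A q z ≤ 2 * ρ.real Set.univ / (A - mOf ρ) := by
  have hU := Ubar_pos (ρ := ρ) hA
  unfold uOf
  refine div_le_div_of_nonneg_right ?_ hU.le
  have h1 := (abs_le.1 (phiQ_abs_le ρ hq1 z)).1
  have h2 := (abs_le.1 (mOf_abs_le (ρ := ρ))).2
  linarith

lemma uOf_continuous (hq1 : q ≤ 1) : Continuous (uOf ρ A q) := by
  unfold uOf
  exact (continuous_const.sub (phiQ_continuous ρ hq1)).div_const _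

lemma log_eq (hq1 : q ≤ 1) (z : ℝ) :
    Real.log (A - phiQ ρ q z) = Real.log (A - mOf ρ) + Real.log (1 + uOf ρ A q z) := by
  have hU := Ubar_pos (ρ := ρ) hA
  have h1 := uOf_gt hA hq1 z
  rw [← Real.log_mul hU.ne' (by linarith)]
  congr 1
  unfold uOf
  field_simp
  ring

lemma uOf_abs_le (hq1 : q ≤ 1) (z : ℝ) :
    |uOf ρ A q z| ≤ 2 * ρ.real Set.univ / (A - mOf ρ) := by
  have hU := Ubar_pos (ρ := ρ) hA
  unfold uOf
  rw [abs_div, abs_of_pos hU]
  refine div_le_div_of_nonneg_right ?_ hU.le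
  have h1 := phiQ_abs_le ρ hq1 z
  have h2 := mOf_abs_le (ρ := ρ)
  calc |mOf ρ - phiQ ρ q z| ≤ |mOf ρ| + |phiQ ρ q z| := abs_sub _ _
    _ ≤ _ := by linarith

lemma uOf_integrable (hq1 : q ≤ 1) : Integrable (uOf ρ A q) gam :=
  Integrable.of_bound (uOf_continuous hA hq1).aestronglyMeasurable _
    (Filter.Eventually.of_forall fun z => by
      rw [Real.norm_eq_abs]
      exact uOf_abs_le hA hq1 z)

lemma uOf_sq_integrable (hq1 : q ≤ 1) : Integrable (fun z => uOf ρ A q z ^ 2) gam :=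
  Integrable.of_bound ((uOf_continuous hA hq1).pow 2).aestronglyMeasurable
    ((2 * ρ.real Set.univ / (A - mOf ρ)) ^ 2)
    (Filter.Eventually.of_forall fun z => by
      rw [Real.norm_eq_abs, abs_pow]
      exact pow_le_pow_left₀ (abs_nonneg _) (uOf_abs_le hA hq1 z) 2)

lemma uOf_cube_integrable (hq1 : q ≤ 1) : Integrable (fun z => |uOf ρ A q z| ^ 3) gam :=
  Integrable.of_bound (((uOf_continuous hA hq1).abs).pow 3).aestronglyMeasurable
    ((2 * ρ.real Set.univ / (A - mOf ρ)) ^ 3)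
    (Filter.Eventually.of_forall fun z => by
      rw [Real.norm_eq_abs, abs_pow, abs_abs]
      exact pow_le_pow_left₀ (abs_nonneg _) (uOf_abs_le hA hq1 z) 3)

lemma log_uOf_integrable (hq1 : q ≤ 1) :
    Integrable (fun z => Real.log (1 + uOf ρ A q z)) gam := by
  have hU := Ubar_pos (ρ := ρ) hA
  have hpos : ∀ z, 1 + uOf ρ A q z ≠ 0 := fun z => by
    have := uOf_gt hA hq1 z
    linarith
  have hc : Continuous (fun z => Real.log (1 + uOf ρ A q z)) :=
    Continuous.log (continuous_const.add (uOf_continuous hA hq1)) hpos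
  have hlow : ∀ z, (A - ρ.real Set.univ) / (A - mOf ρ) ≤ 1 + uOf ρ A q z := by
    intro z
    have e : 1 + uOf ρ A q z = (A - phiQ ρ q z) / (A - mOf ρ) := by
      unfold uOf
      field_simp
      ring
    rw [e]
    refine div_le_div_of_nonneg_right ?_ hU.le
    have := (abs_le.1 (phiQ_abs_le ρ hq1 z)).2
    linarith
  have hhigh : ∀ z, 1 + uOf ρ A q z ≤ 1 + 2 * ρ.real Set.univ / (A - mOf ρ) := fun z => by
    have := uOf_le hA hq1 z
    linarith
  have hlow0 : 0 < (A - ρ.real Set.univ) / (A - mOf ρ) := div_pos (by linarith) hU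
  refine Integrable.of_bound hc.aestronglyMeasurable
    (|Real.log ((A - ρ.real Set.univ) / (A - mOf ρ))|
      + |Real.log (1 + 2 * ρ.real Set.univ / (A - mOf ρ))|)
    (Filter.Eventually.of_forall fun z => ?_)
  rw [Real.norm_eq_abs, abs_le]
  have l1 := Real.log_le_log hlow0 (hlow z)
  have l2 := Real.log_le_log (by linarith [hlow z]) (hhigh z)
  constructor
  · have := neg_abs_le (Real.log ((A - ρ.real Set.univ) / (A - mOf ρ)))
    have := abs_nonneg (Real.log (1 + 2 * ρ.real Set.univ / (A - mOf ρ)))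
    linarith
  · have := le_abs_self (Real.log (1 + 2 * ρ.real Set.univ / (A - mOf ρ)))
    have := abs_nonneg (Real.log ((A - ρ.real Set.univ) / (A - mOf ρ)))
    linarith

lemma bigPhi_eq (hq1 : q ≤ 1) :
    bigPhi ρ A q = Real.log (A - mOf ρ) + ∫ z, Real.log (1 + uOf ρ A q z) ∂gam := by
  unfold bigPhi
  simp_rw [log_eq hA hq1]
  rw [integral_add (integrable_const _) (log_uOf_integrable hA hq1)]
  simp

lemma integral_uOf (hq0 : 0 ≤ q) (hq1 : q ≤ 1) : ∫ z, uOf ρ A q z ∂gam = 0 := by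
  unfold uOf
  rw [integral_div, integral_sub (integrable_const _)
    (Integrable.of_bound (phiQ_continuous ρ hq1).aestronglyMeasurable _
      (Filter.Eventually.of_forall fun z => by simpa using phiQ_abs_le ρ hq1 z)),
    integral_phiQ ρ hq0 hq1]
  simp

lemma integral_uOf_sq (hq0 : 0 ≤ q) (hq1 : q ≤ 1) :
    ∫ z, uOf ρ A q z ^ 2 ∂gam = psiR ρ q / (A - mOf ρ) ^ 2 := by
  have hq : |q| ≤ 1 := by rw [abs_of_nonneg hq0]; exact hq1
  have hphi : Integrable (phiQ ρ q) gam :=
    Integrable.of_bound (phiQ_continuous ρ hq1).aestronglyMeasurable _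
      (Filter.Eventually.of_forall fun z => by simpa using phiQ_abs_le ρ hq1 z)
  have hphi2 : Integrable (fun z => phiQ ρ q z ^ 2) gam :=
    Integrable.of_bound ((phiQ_continuous ρ hq1).pow 2).aestronglyMeasurable
      ((ρ.real Set.univ) ^ 2)
      (Filter.Eventually.of_forall fun z => by
        rw [Real.norm_eq_abs, abs_pow]
        exact pow_le_pow_left₀ (abs_nonneg _) (phiQ_abs_le ρ hq1 z) 2)
  have e : ∀ z, uOf ρ A q z ^ 2
      = (mOf ρ ^ 2 - 2 * mOf ρ * phiQ ρ q z + phiQ ρ q z ^ 2) / (A - mOf ρ) ^ 2 := by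
    intro z
    unfold uOf
    rw [div_pow]
    congr 1
    ring
  simp_rw [e]
  have h1 : Integrable (fun z => mOf ρ ^ 2 - 2 * mOf ρ * phiQ ρ q z) gam :=
    (integrable_const _).sub (hphi.const_mul _)
  rw [integral_div, integral_add h1 hphi2, integral_sub (integrable_const _) (hphi.const_mul _),
    integral_const_mul, integral_phiQ ρ hq0 hq1, integral_phiQ_sq ρ hq0 hq1, psiR_eq ρ hq]
  simp
  ring

end

end Vale.Agent.Lib.P157
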