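import Vale.Agent.Lib.P157.FieldLS

/-! The operator chain: thinned patterns against Gaussian fields. -/

open MeasureTheory ProbabilityTheory Real Filter Topology

set_option linter.unusedSectionVars false

namespace Vale.Agent.Lib.P157

section Abstract

variable {S : Type*}

/-- Monotone, translation covariant operators on `IsL1` functionals. -/
structure GoodOp (W : ((S → ℝ) → ℝ) → ((S → ℝ) → ℝ)) : Prop where
  isL1 : ∀ {G}, IsL1 G → IsL1 (W G)
  mono : ∀ {G H}, IsL1 G → IsL1 H → (∀ v, G v ≤ H v) → ∀ v, W G v ≤ W H v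
  const : ∀ {G}, IsL1 G → ∀ d : ℝ, W (fun u => G u + d) = fun v => W G v + d

lemma IsL1.add_const {G : (S → ℝ) → ℝ} (hG : IsL1 G) (d : ℝ) : IsL1 (fun u => G u + d) := by
  intro v v' δ h
  have := hG v v' δ h
  simpa using this

lemma GoodOp.iterate {W : ((S → ℝ) → ℝ) → ((S → ℝ) → ℝ)} (hW : GoodOp W) (m : ℕ) :
    GoodOp (W^[m]) := by
  induction m with
  | zero => exact ⟨fun h => h, fun _ _ h v => h v, fun _ _ => rfl⟩
  | succ m ih =>
    refine ⟨fun hG => ?_, fun hG hH h v => ?_, fun hG d => ?_⟩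
    · rw [Function.iterate_succ_apply]
      exact ih.isL1 (hW.isL1 hG)
    · rw [Function.iterate_succ_apply, Function.iterate_succ_apply]
      exact ih.mono (hW.isL1 hG) (hW.isL1 hH) (hW.mono hG hH h) v
    · rw [Function.iterate_succ_apply, hW.const hG, ih.const (hW.isL1 hG),
        Function.iterate_succ_apply]

lemma iter_comm_aux {B F : ((S → ℝ) → ℝ) → ((S → ℝ) → ℝ)} (hF : GoodOp F)
    (comm : ∀ {G}, IsL1 G → B (F G) = F (B G)) {L : (S → ℝ) → ℝ} (hL : IsL1 L) (j : ℕ) :
    B (F^[j] L) = F^[j] (B L) := by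
  induction j with
  | zero => rfl
  | succ j ih =>
    rw [Function.iterate_succ_apply', Function.iterate_succ_apply', comm ((hF.iterate j).isL1 hL), ih]

/-- The abstract comparison chain. -/
theorem chain_le {B F : ((S → ℝ) → ℝ) → ((S → ℝ) → ℝ)} (hB : GoodOp B) (hF : GoodOp F)
    (comm : ∀ {G}, IsL1 G → B (F G) = F (B G)) {L : (S → ℝ) → ℝ} (hL : IsL1 L) {d : ℝ}
    (h : ∀ v, B L v ≤ F L v + d) (m : ℕ) :
    ∀ (j : ℕ) (v : S → ℝ), B^[m] (F^[j] L) v ≤ F^[m + j] L v + m * d := by
  induction m with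
  | zero =>
    intro j v
    simp
  | succ m ih =>
    intro j v
    rw [Function.iterate_succ_apply]
    have hFj := (hF.iterate j).isL1 hL
    have hFj1 := (hF.iterate (j + 1)).isL1 hL
    have h1 : ∀ u, B (F^[j] L) u ≤ F^[j + 1] L u + d := by
      intro u
      rw [iter_comm_aux hF comm hL j]
      have h2 := (hF.iterate j).mono (hB.isL1 hL) (hF.isL1 hL |>.add_const d) h u
      rw [(hF.iterate j).const (hF.isL1 hL)] at h2
      rw [Function.iterate_succ_apply]
      exact h2
    have h3 := (hB.iterate m).mono (hB.isL1 hFj) (hFj1.add_const d) h1 v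
    rw [(hB.iterate m).const hFj1] at h3
    have h4 := ih (j + 1) v
    have e : m + 1 + j = m + (j + 1) := by ring
    rw [e]
    push_cast
    nlinarith

end Abstract

section Thin

variable {S : Type*} [Fintype S] {κ κ' : Type*} [Fintype κ] [Fintype κ']

/-- The thinned pattern operator: with probability `p` a new pattern is added. -/
noncomputable def thin (p : ℝ) (f : ℝ → ℝ) (Y : S → κ' → ℝ) (G : (S → ℝ) → ℝ) (v : S → ℝ) : ℝ :=
  (1 - p) * G v + p * op f Y G v

variable {f : ℝ → ℝ} (hf : Continuous f) {c : ℝ} (hc : ∀ y, |f y| ≤ c)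
include hf hc

lemma op_add_const {G : (S → ℝ) → ℝ} (hG : IsL1 G) (d : ℝ) (Y : S → κ' → ℝ) :
    op f Y (fun u => G u + d) = fun v => op f Y G v + d := by
  funext v
  unfold op
  rw [integral_add (op_integrable hf hc hG Y v) (integrable_const _)]
  simp

lemma thin_good {p : ℝ} (hp0 : 0 ≤ p) (hp1 : p ≤ 1) (Y : S → κ' → ℝ) : GoodOp (thin p f Y) := by
  refine ⟨fun hG => ?_, fun hG hH h v => ?_, fun hG d => ?_⟩
  · exact hG.combo (op_isL1 hf hc hG Y) (by linarith) hp0 (by ring)
  · unfold thin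
    have h1 := op_mono hf hc hG hH h Y v
    have h2 := h v
    have h3 := mul_le_mul_of_nonneg_left h2 (by linarith : 0 ≤ 1 - p)
    have h4 := mul_le_mul_of_nonneg_left h1 hp0
    linarith
  · funext v
    unfold thin
    rw [op_add_const hf hc hG d]
    ring

lemma field_good {e : S → κ → ℝ} (he : ∀ s k, |e s k| ≤ 1) (a : ℝ) : GoodOp (fieldOp a e) := by
  exact ⟨fun hG => fieldOp_isL1 he hG a, fun hG hH h v => fieldOp_mono he hG hH h a v,
    fun hG d => fieldOp_add_const he hG d a⟩

lemma thin_field_comm {e : S → κ → ℝ} (he : ∀ s k, |e s k| ≤ 1) (a p : ℝ) (Y : S → κ' → ℝ)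
    {G : (S → ℝ) → ℝ} (hG : IsL1 G) :
    thin p f Y (fieldOp a e G) = fieldOp a e (thin p f Y G) := by
  funext v
  unfold thin
  have e1 : (fun u => (1 - p) * G u + p * op f Y G u)
      = fun u => (1 - p) * G u + p * (op f Y G) u := rfl
  rw [e1, fieldOp_combo he hG (op_isL1 hf hc hG Y) (1 - p) p a v,
    field_op_comm he hf hc hG a Y v]

/-- Linearity of iterated thinned operators. -/
lemma thin_iter_combo (p : ℝ) (Y : S → κ' → ℝ) (s : ℕ) (hp0 : 0 ≤ p) (hp1 : p ≤ 1) :
    ∀ {G H : (S → ℝ) → ℝ}, IsL1 G → IsL1 H → ∀ (x y : ℝ) (v : S → ℝ),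
      (thin p f Y)^[s] (fun u => x * G u + y * H u) v
        = x * (thin p f Y)^[s] G v + y * (thin p f Y)^[s] H v := by
  induction s with
  | zero =>
    intro G H _ _ x y v
    rfl
  | succ s ih =>
    intro G H hG hH x y v
    rw [Function.iterate_succ_apply, Function.iterate_succ_apply, Function.iterate_succ_apply]
    have hT := thin_good hf hc hp0 hp1 Y
    have e1 : thin p f Y (fun u => x * G u + y * H u)
        = fun u => x * thin p f Y G u + y * thin p f Y H u := by
      funext u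
      unfold thin
      rw [op_add_mul hf hc hG hH]
      ring
    rw [e1]
    exact ih (hT.isL1 hG) (hT.isL1 hH) x y v

/-- Expansion of thinned iterates: a binomial average of the pattern iterates. -/
theorem thin_expansion {L : (S → ℝ) → ℝ} (hL : IsL1 L) {p : ℝ} (hp0 : 0 ≤ p) (hp1 : p ≤ 1)
    (Y : S → κ' → ℝ) (v : S → ℝ) (M : ℕ) {y : ℝ} (hy : 0 < y) :
    ∀ (s i : ℕ), (op f Y)^[M] L v
        - c * ((((i : ℝ) + p * s - M) ^ 2 + s * p * (1 - p)) / (2 * y) + y / 2)
      ≤ (thin p f Y)^[s] ((op f Y)^[i] L) v := by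
  have hc0 : 0 ≤ c := le_trans (abs_nonneg _) (hc 0)
  intro s
  induction s with
  | zero =>
    intro i
    simp only [Function.iterate_zero, id, Nat.cast_zero, mul_zero, zero_mul, add_zero]
    have hA : ∀ j, |(op f Y)^[j + 1] L v - (op f Y)^[j] L v| ≤ c := by
      intro j
      rw [Function.iterate_succ_apply']
      exact op_sub_abs_le hf hc (iter_isL1 hf hc Y hL j) Y v
    have h1 := nat_lip (A := fun j => (op f Y)^[j] L v) hA i M
    have q : ∀ u : ℝ, |u| ≤ u ^ 2 / (2 * y) + y / 2 := by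
      intro u
      have h3 : 0 ≤ (|u| - y) ^ 2 := sq_nonneg _
      have h4 : |u| ^ 2 = u ^ 2 := sq_abs u
      have h5 : u ^ 2 / (2 * y) + y / 2 - |u| = (|u| - y) ^ 2 / (2 * y) := by
        field_simp
        rw [← h4]
        ring
      have h6 : 0 ≤ (|u| - y) ^ 2 / (2 * y) := by positivity
      linarith
    have q1 := mul_le_mul_of_nonneg_left (q ((i : ℝ) - M)) hc0
    have h2 := (abs_le.1 h1).1
    linarith
  | succ s ih =>
    intro i
    rw [Function.iterate_succ_apply]
    have hT := thin_good hf hc hp0 hp1 Y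
    have hi := iter_isL1 hf hc Y hL i
    have hi1 := iter_isL1 hf hc Y hL (i + 1)
    have e1 : thin p f Y ((op f Y)^[i] L)
        = fun u => (1 - p) * (op f Y)^[i] L u + p * (op f Y)^[i + 1] L u := by
      funext u
      unfold thin
      rw [Function.iterate_succ_apply']
    rw [e1, thin_iter_combo hf hc p Y s hp0 hp1 hi hi1]
    have h1 := mul_le_mul_of_nonneg_left (ih i) (by linarith : 0 ≤ 1 - p)
    have h2 := mul_le_mul_of_nonneg_left (ih (i + 1)) hp0
    refine le_trans (le_of_eq ?_) (add_le_add h1 h2)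
    push_cast
    field_simp
    ring

end Thin

end Vale.Agent.Lib.P157
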