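import Vale.Agent.Lib.P157.RSChain
import Vale.Agent.Lib.P157.Final

/-! The replica-symmetric upper bound on the Ising cube. -/

open MeasureTheory ProbabilityTheory Real Filter Topology

set_option linter.unusedSectionVars false

namespace Vale.Agent.Lib.P157

/-- The function `log cosh`. -/
noncomputable def lc (x : ℝ) : ℝ := Real.log (Real.cosh x)

lemma LS_bool (x : ℝ) : LS (fun t : Bool => spin t * x) = Real.log 2 + lc x := by
  unfold LS lc
  rw [← Real.log_mul (by norm_num) (Real.cosh_pos x).ne']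
  congr 1
  rw [Real.cosh_eq, Fintype.sum_bool]
  simp only [spin, if_true, Bool.false_eq_true, if_false]
  ring_nf

lemma lc_abs_sub (x y : ℝ) : |lc x - lc y| ≤ |x - y| := by
  have h := (LS_isL1 (S := Bool)) (fun t => spin t * x) (fun t => spin t * y) |x - y| (fun t => by
    cases t <;> simp [spin, abs_sub_comm] <;> rw [show -x + y = y - x by ring, abs_sub_comm])
  rw [LS_bool, LS_bool] at h
  simpa using h

@[simp] lemma lc_zero : lc 0 = 0 := by simp [lc]

/-- The Gaussian average of `log cosh`. -/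
noncomputable def lcG (t : ℝ) : ℝ := ∫ y, lc (Real.sqrt t * y) ∂gam

/-- Lipschitz functions are integrable under Gaussian laws. -/
lemma integrable_lip {u : ℝ → ℝ} (hu : ∀ x y, |u x - u y| ≤ |x - y|) (b s : ℝ) :
    Integrable (fun y => u (b + s * y)) gam := by
  have hcont : Continuous u := by
    have : LipschitzWith 1 u := by
      refine LipschitzWith.of_dist_le_mul fun x y => ?_
      simpa [Real.dist_eq] using hu x y
    exact this.continuous
  refine Integrable.mono' ((integrable_const (|u b|)).add (integrable_abs_gam.const_mul |s|))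
    (by apply Continuous.aestronglyMeasurable; fun_prop) (Filter.Eventually.of_forall fun y => ?_)
  rw [Real.norm_eq_abs]
  have h := hu (b + s * y) b
  have h2 := abs_sub_abs_le_abs_sub (u (b + s * y)) (u b)
  simp only [add_sub_cancel_left, abs_mul] at h
  simp only [Pi.add_apply]
  linarith

lemma integrable_lip_gauss {u : ℝ → ℝ} (hu : ∀ x y, |u x - u y| ≤ |x - y|) (b : ℝ) (v : NNReal) :
    Integrable (fun x => u (b + x)) (gaussianReal 0 v) := by
  have hcont : Continuous u := by
    have : LipschitzWith 1 u := by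
      refine LipschitzWith.of_dist_le_mul fun x y => ?_
      simpa [Real.dist_eq] using hu x y
    exact this.continuous
  have hid : Integrable (fun x : ℝ => |x|) (gaussianReal 0 v) := by
    have h : MemLp id 1 (gaussianReal 0 v) := memLp_id_gaussianReal 1
    exact (memLp_one_iff_integrable.mp h).abs
  refine Integrable.mono' ((integrable_const (|u b|)).add hid)
    (by apply Continuous.aestronglyMeasurable; fun_prop) (Filter.Eventually.of_forall fun y => ?_)
  rw [Real.norm_eq_abs]
  have h := hu (b + y) b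
  have h2 := abs_sub_abs_le_abs_sub (u (b + y)) (u b)
  simp only [add_sub_cancel_left] at h
  simp only [Pi.add_apply]
  linarith

/-- The square of a real, as a nonnegative real. -/
noncomputable def nnsq (c : ℝ) : NNReal := ⟨c ^ 2, sq_nonneg c⟩

lemma gam_map_mul (c : ℝ) : gam.map (c * ·) = gaussianReal 0 (nnsq c) := by
  have := gaussianReal_map_const_mul (μ := 0) (v := 1) c
  simp only [mul_zero, mul_one] at this
  exact this

lemma integral_gam_mul (c : ℝ) {F : ℝ → ℝ} (hF : Continuous F) :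
    ∫ y, F (c * y) ∂gam = ∫ x, F x ∂(gaussianReal 0 (nnsq c)) := by
  rw [← gam_map_mul, integral_map (by fun_prop) hF.aestronglyMeasurable]

/-- The semigroup property of Gaussian averages. -/
lemma gauss_semi {u : ℝ → ℝ} (hu : ∀ x y, |u x - u y| ≤ |x - y|) (b s t : ℝ) :
    ∫ y, (∫ y', u (b + s * y + t * y') ∂gam) ∂gam
      = ∫ y, u (b + Real.sqrt (s ^ 2 + t ^ 2) * y) ∂gam := by
  have hcont : Continuous u := by
    have : LipschitzWith 1 u := by
      refine LipschitzWith.of_dist_le_mul fun x y => ?_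
      simpa [Real.dist_eq] using hu x y
    exact this.continuous
  have hu' : ∀ x y, |(fun w => u (x + w)) y - (fun w => u (x + w)) 0| ≤ |y| := by
    intro x y
    have := hu (x + y) (x + 0)
    simpa using this
  set c := Real.sqrt (s ^ 2 + t ^ 2) with hc
  have hc2 : c ^ 2 = s ^ 2 + t ^ 2 := Real.sq_sqrt (by positivity)
  rw [integral_gam_mul c (F := fun x => u (b + x)) (by fun_prop)]
  have hv : nnsq c = nnsq s + nnsq t := by
    apply NNReal.eq
    rw [NNReal.coe_add]
    exact hc2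
  rw [hv]
  have hconv := gaussianReal_conv_gaussianReal (m₁ := 0) (m₂ := 0)
    (v₁ := nnsq s) (v₂ := nnsq t)
  simp only [add_zero] at hconv
  rw [← hconv, integral_conv]
  · have e1 : ∀ y, (∫ y', u (b + s * y + t * y') ∂gam)
        = ∫ x', u (b + s * y + x') ∂(gaussianReal 0 (nnsq t)) := by
      intro y
      exact integral_gam_mul t (F := fun w => u (b + s * y + w)) (by fun_prop)
    simp_rw [e1]
    have hG : Continuous (fun x => ∫ x', u (b + x + x') ∂(gaussianReal 0 (nnsq t))) := by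
      have : LipschitzWith 1 (fun x => ∫ x', u (b + x + x') ∂(gaussianReal 0 (nnsq t))) := by
        refine LipschitzWith.of_dist_le_mul fun x y => ?_
        simp only [Real.dist_eq, NNReal.coe_one, one_mul]
        rw [← integral_sub (integrable_lip_gauss hu (b + x) _) (integrable_lip_gauss hu (b + y) _)]
        have h := norm_integral_le_of_norm_le_const (μ := gaussianReal 0 (nnsq t))
          (C := |x - y|)
          (f := fun x' => u (b + x + x') - u (b + y + x'))
          (Filter.Eventually.of_forall fun x' => by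
            rw [Real.norm_eq_abs]
            have := hu (b + x + x') (b + y + x')
            have e : b + x + x' - (b + y + x') = x - y := by ring
            rwa [e] at this)
        simpa using h
      exact this.continuous
    have := integral_gam_mul s (F := fun x => ∫ x', u (b + x + x') ∂(gaussianReal 0 (nnsq t))) hG
    rw [this]
    simp only [add_assoc]
  · have := integrable_lip_gauss hu b (nnsq s + nnsq t)
    rw [← hconv] at this
    exact this

/-- Weights on the cube with a linear exponent. -/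
noncomputable def vb {N : ℕ} (b : Fin N → ℝ) (s : Fin N → Bool) : ℝ :=
  -(N : ℝ) * Real.log 2 + ∑ j, b j * spin (s j)

lemma LS_vb {N : ℕ} (b : Fin N → ℝ) : LS (vb b) = ∑ j, lc (b j) := by
  unfold LS vb lc
  rw [← Real.log_prod (fun j _ => (Real.cosh_pos _).ne')]
  congr 1
  have h1 : ∀ s : Fin N → Bool, Real.exp (-(N : ℝ) * Real.log 2 + ∑ j, b j * spin (s j))
      = (1 / 2 ^ N) * ∏ j, Real.exp (b j * spin (s j)) := by
    intro s
    rw [Real.exp_add, exp_neg_log2, Real.exp_sum]
  simp_rw [h1]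
  rw [← Finset.mul_sum]
  have h2 : ∑ s : Fin N → Bool, ∏ j, Real.exp (b j * spin (s j))
      = ∏ j, ∑ t : Bool, Real.exp (b j * spin t) := by
    have := Finset.prod_univ_sum (fun _ : Fin N => (Finset.univ : Finset Bool))
      (fun j t => Real.exp (b j * spin t))
    simp only [Fintype.piFinset_univ] at this
    exact this.symm
  rw [h2]
  have h3 : ∀ j, ∑ t : Bool, Real.exp (b j * spin t) = 2 * Real.cosh (b j) := by
    intro j
    rw [Real.cosh_eq, Fintype.sum_bool]
    simp only [spin, if_true, Bool.false_eq_true, if_false]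
    ring_nf
  simp_rw [h3]
  rw [Finset.prod_mul_distrib]
  simp

lemma spin_abs_le (t : Bool) : |spin t| ≤ 1 := by
  cases t <;> simp [spin]

lemma spin_sq (t : Bool) : spin t ^ 2 = 1 := by
  cases t <;> simp [spin]

/-- The coefficient array of the cube field. -/
def eCube (N : ℕ) (s : Fin N → Bool) (k : Fin N) : ℝ := spin (s k)

lemma eCube_abs (N : ℕ) (s : Fin N → Bool) (k : Fin N) : |eCube N s k| ≤ 1 := spin_abs_le _

/-- The Gaussian average of `log cosh` at a shifted point is 1-Lipschitz. -/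
lemma lc_avg_lip (s x y : ℝ) :
    |∫ η, lc (x + s * η) ∂gam - ∫ η, lc (y + s * η) ∂gam| ≤ |x - y| := by
  rw [← integral_sub (integrable_lip lc_abs_sub x s) (integrable_lip lc_abs_sub y s)]
  have h := norm_integral_le_of_norm_le_const (μ := gam) (C := |x - y|)
    (f := fun η => lc (x + s * η) - lc (y + s * η))
    (Filter.Eventually.of_forall fun η => by
      rw [Real.norm_eq_abs]
      have := lc_abs_sub (x + s * η) (y + s * η)
      have e : x + s * η - (y + s * η) = x - y := by ring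
      rwa [e] at this)
  simpa using h

/-- Iterated Gaussian fields on the cube. -/
lemma field_iter_vb {N : ℕ} {a : ℝ} (ha : 0 ≤ a) (m : ℕ) (b : Fin N → ℝ) :
    (fieldOp a (eCube N))^[m] LS (vb b)
      = ∑ j, ∫ y, lc (b j + a * Real.sqrt m * y) ∂gam := by
  induction m generalizing b with
  | zero =>
    simp [LS_vb]
  | succ m ih =>
    rw [Function.iterate_succ_apply']
    have e1 : ∀ z : Fin N → ℝ, (fun s => vb b s + a * ∑ k, z k * eCube N s k)
        = vb (fun j => b j + a * z j) := by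
      intro z
      funext s
      unfold vb eCube
      rw [Finset.mul_sum, add_assoc, ← Finset.sum_add_distrib]
      congr 1
      refine Finset.sum_congr rfl fun j _ => ?_
      ring
    show ∫ z, ((fieldOp a (eCube N))^[m] LS) (fun s => vb b s + a * ∑ k, z k * eCube N s k)
      ∂(stdG (Fin N)) = _
    simp_rw [e1, ih]
    set s₀ := a * Real.sqrt m with hs₀
    have hU : ∀ x y, |(fun w => ∫ y, lc (w + s₀ * y) ∂gam) x - (fun w => ∫ y, lc (w + s₀ * y) ∂gam) y|
        ≤ |x - y| := fun x y => lc_avg_lip s₀ x y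
    have hj : ∀ j, Integrable (fun y : ℝ => (fun w => ∫ y, lc (w + s₀ * y) ∂gam) (b j + a * y)) gam :=
      fun j => integrable_lip hU (b j) a
    rw [integral_finsetSum _ fun j _ => integrable_coord (hj j) j]
    refine Finset.sum_congr rfl fun j _ => ?_
    rw [integral_coord (hj j) j]
    have h := gauss_semi lc_abs_sub (b j) a s₀
    simp only at h ⊢
    have e2 : ∀ y, (∫ y', lc (b j + a * y + s₀ * y') ∂gam) = ∫ y', lc (b j + a * y + s₀ * y') ∂gam :=
      fun _ => rfl
    rw [h]
    have e3 : Real.sqrt (a ^ 2 + s₀ ^ 2) = a * Real.sqrt ((m + 1 : ℕ) : ℝ) := by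
      rw [hs₀, mul_pow, Real.sq_sqrt (by positivity)]
      have : a ^ 2 + a ^ 2 * (m : ℝ) = a ^ 2 * ((m + 1 : ℕ) : ℝ) := by
        push_cast
        ring
      rw [this, Real.sqrt_mul (by positivity), Real.sqrt_sq ha]
    rw [e3]

/-- The value of the iterated field at the uniform weight. -/
lemma field_iter_const {N : ℕ} {a : ℝ} (ha : 0 ≤ a) (m : ℕ) :
    (fieldOp a (eCube N))^[m] LS (fun _ => -(N : ℝ) * Real.log 2)
      = N * lcG (a ^ 2 * m) := by
  have e0 : (fun _ : Fin N → Bool => -(N : ℝ) * Real.log 2) = vb (fun _ => 0) := by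
    funext s
    simp [vb]
  rw [e0, field_iter_vb ha]
  simp only [zero_add, Finset.sum_const, Finset.card_univ, Fintype.card_fin, nsmul_eq_mul]
  congr 1
  unfold lcG
  rw [Real.sqrt_mul (by positivity), Real.sqrt_sq ha]

/-- The Gibbs distance in terms of the overlap. -/
lemma Dd_eq {N : ℕ} (hN : 0 < N) {w : (Fin N → Bool) → ℝ} (hw1 : ∑ s, w s = 1) :
    Dd w (eCube N) = 2 * N * (1 - qOf w (Yc N)) := by
  have hN' : (0:ℝ) < N := by exact_mod_cast hN
  have h1 : Dd w (eCube N) = ∑ k : Fin N, (2 - 2 * (∑ s, w s * spin (s k)) ^ 2) := by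
    unfold Dd eCube
    have e1 : ∀ s s', w s * w s' * ∑ k : Fin N, (spin (s k) - spin (s' k)) ^ 2
        = ∑ k : Fin N, (2 * (w s * w s') - 2 * ((w s * spin (s k)) * (w s' * spin (s' k)))) := by
      intro s s'
      rw [Finset.mul_sum]
      refine Finset.sum_congr rfl fun k _ => ?_
      have h3 := spin_sq (s k)
      have h4 := spin_sq (s' k)
      have e : (spin (s k) - spin (s' k)) ^ 2 = 2 - 2 * (spin (s k) * spin (s' k)) := by
        nlinarith
      rw [e]
      ring
    simp_rw [e1]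
    have e2 : ∀ s : Fin N → Bool, ∑ s' : Fin N → Bool, ∑ k : Fin N,
          (2 * (w s * w s') - 2 * ((w s * spin (s k)) * (w s' * spin (s' k))))
        = ∑ k : Fin N, ∑ s' : Fin N → Bool,
          (2 * (w s * w s') - 2 * ((w s * spin (s k)) * (w s' * spin (s' k)))) :=
      fun s => Finset.sum_comm
    simp_rw [e2]
    rw [Finset.sum_comm]
    refine Finset.sum_congr rfl fun k _ => ?_
    have e4 : ∀ x : Fin N → Bool, ∑ s' : Fin N → Bool,
          (2 * (w x * w s') - 2 * ((w x * spin (x k)) * (w s' * spin (s' k))))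
        = 2 * w x - 2 * ((w x * spin (x k)) * ∑ s', w s' * spin (s' k)) := by
      intro x
      rw [Finset.sum_sub_distrib, ← Finset.mul_sum, ← Finset.mul_sum, ← Finset.mul_sum,
        ← Finset.mul_sum, hw1, mul_one]
    simp_rw [e4]
    rw [Finset.sum_sub_distrib, ← Finset.mul_sum, hw1, ← Finset.mul_sum, ← Finset.sum_mul]
    ring
  have h2 : qOf w (Yc N) = (1 / (N:ℝ)) * ∑ k : Fin N, (∑ s, w s * spin (s k)) ^ 2 := by
    unfold qOf Yc
    rw [Finset.mul_sum]
    refine Finset.sum_congr rfl fun k _ => ?_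
    have : ∑ s : Fin N → Bool, w s * (spin (s k) / Real.sqrt N)
        = (∑ s, w s * spin (s k)) / Real.sqrt N := by
      rw [Finset.sum_div]
      refine Finset.sum_congr rfl fun s _ => ?_
      ring
    rw [this, div_pow, Real.sq_sqrt hN'.le]
    ring
  rw [h1, h2, Finset.sum_sub_distrib, ← Finset.mul_sum]
  simp only [Finset.sum_const, Finset.card_univ, Fintype.card_fin, nsmul_eq_mul]
  field_simp

lemma Yc_norm {N : ℕ} (hN : 0 < N) (s : Fin N → Bool) : ∑ k, Yc N s k ^ 2 = 1 := by
  have hN' : (0:ℝ) < N := by exact_mod_cast hN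
  unfold Yc
  have : ∀ k, (spin (s k) / Real.sqrt N) ^ 2 = 1 / N := by
    intro k
    rw [div_pow, Real.sq_sqrt hN'.le, spin_sq]
  simp_rw [this]
  simp
  field_simp

section Main

variable {ρ : Measure ℝ} [IsFiniteMeasure ρ] {A : ℝ} (hA : ρ.real Set.univ < A)
include hA

/-- One thinned step against one field step. -/
lemma thin_le_field {N : ℕ} (hN : 0 < N) {κ C p τ : ℝ} (hp0 : 0 ≤ p) (hκ : 0 ≤ κ)
    (hC : ∀ q, 0 ≤ q → q ≤ 1 → bigPhi ρ A q + κ * q ≤ C) (hτ : τ * N = 2 * p * κ)
    (hτ0 : 0 ≤ τ) (v : (Fin N → Bool) → ℝ) :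
    thin p (fA ρ A) (Yc N) LS v
      ≤ fieldOp (Real.sqrt τ) (eCube N) LS v + (p * (C - κ) + (τ ^ 2 / 16) * KK (Fin N)) := by
  classical
  have hN' : (0:ℝ) < N := by exact_mod_cast hN
  have hw0 := gibbs_nonneg v
  have hw1 := gibbs_sum v
  set q := qOf (gibbs v) (Yc N) with hq
  have hq0 : 0 ≤ q := qOf_nonneg _ _
  have hq1 : q ≤ 1 := qOf_le_one hw0 hw1 (Yc_norm hN)
  have h1 := rs_pattern_bound ρ hA (Yc_norm hN) v
  rw [← hq] at h1
  have h2 := hC q hq0 hq1
  have h3 := field_second_order (κ := Fin N) (e := eCube N) (eCube_abs N) (Real.sqrt τ) v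
  rw [Dd_eq hN hw1, ← hq] at h3
  have hs : Real.sqrt τ ^ 2 = τ := Real.sq_sqrt hτ0
  have hs4 : Real.sqrt τ ^ 4 = τ ^ 2 := by
    have : Real.sqrt τ ^ 4 = (Real.sqrt τ ^ 2) ^ 2 := by ring
    rw [this, hs]
  rw [hs, hs4] at h3
  have h4 : τ / 4 * (2 * N * (1 - q)) = p * κ * (1 - q) := by
    have : τ / 4 * (2 * N * (1 - q)) = (τ * N) / 2 * (1 - q) := by ring
    rw [this, hτ]
    ring
  rw [h4] at h3
  unfold thin
  have h5 := mul_le_mul_of_nonneg_left h1 hp0
  have h6 := mul_le_mul_of_nonneg_left h2 hp0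
  nlinarith

/-- The replica-symmetric bound at finite size. -/
theorem rs_finite {N : ℕ} (hN : 0 < N) (M : ℕ) {κ C c : ℝ} (hκ : 0 ≤ κ)
    (hC : ∀ q, 0 ≤ q → q ≤ 1 → bigPhi ρ A q + κ * q ≤ C) (hc : ∀ y, |fA ρ A y| ≤ c) :
    aN (fA ρ A) N M ≤ M * (C - κ) + N * lcG (2 * M * κ / N) + c * Real.sqrt (M + 1) := by
  classical
  have hN' : (0:ℝ) < N := by exact_mod_cast hN
  have hf := fA_continuous ρ hA
  have hc0 : 0 ≤ c := le_trans (abs_nonneg _) (hc 0)
  set f := fA ρ A with hfdef
  set Y := Yc N with hY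
  set e := eCube N with he
  set v₀ : (Fin N → Bool) → ℝ := fun _ => -(N : ℝ) * Real.log 2 with hv₀
  set y : ℝ := Real.sqrt (M + 1) with hy
  have hy0 : 0 < y := Real.sqrt_pos.mpr (by positivity)
  have hy2 : y ^ 2 = M + 1 := Real.sq_sqrt (by positivity)
  set E : ℝ := (M:ℝ) ^ 2 * (2 * κ / N) ^ 2 / 16 * KK (Fin N) with hE
  have hE0 : 0 ≤ E := by
    have := KK_nonneg (κ := Fin N)
    positivity
  have key : ∀ m : ℕ, max M 1 ≤ m →
      aN f N M ≤ M * (C - κ) + N * lcG (2 * M * κ / N) + c * y + E / m := by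
    intro m hm
    have hm1 : 1 ≤ m := (le_max_right _ _).trans hm
    have hmM : M ≤ m := (le_max_left _ _).trans hm
    have hm0 : (0:ℝ) < m := by exact_mod_cast hm1
    set p : ℝ := M / m with hp
    have hp0 : 0 ≤ p := by positivity
    have hp1 : p ≤ 1 := by
      rw [hp, div_le_one hm0]
      exact_mod_cast hmM
    have hpm : p * m = M := by
      rw [hp]; field_simp
    set τ : ℝ := 2 * p * κ / N with hτ
    have hτ0 : 0 ≤ τ := by positivity
    have hτN : τ * N = 2 * p * κ := by
      rw [hτ]; field_simp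
    set a := Real.sqrt τ with ha
    have ha0 : 0 ≤ a := Real.sqrt_nonneg _
    have ha2 : a ^ 2 = τ := Real.sq_sqrt hτ0
    have hB := thin_good hf hc hp0 hp1 Y
    have hF := field_good (κ := Fin N) hf hc (eCube_abs N) a
    have hcomm : ∀ {G : ((Fin N → Bool) → ℝ) → ℝ}, IsL1 G →
        thin p f Y (fieldOp a e G) = fieldOp a e (thin p f Y G) :=
      fun hG => thin_field_comm hf hc (eCube_abs N) a p Y hG
    have hstep := thin_le_field hA hN hp0 hκ hC hτN hτ0
    have hchain := chain_le hB hF hcomm (LS_isL1 (S := Fin N → Bool)) hstep m 0 v₀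
    have hexp := thin_expansion hf hc (LS_isL1 (S := Fin N → Bool)) hp0 hp1 Y v₀ M hy0 m 0
    simp only [Function.iterate_zero, id, add_zero] at hchain hexp
    rw [field_iter_const ha0 m] at hchain
    have e1 : a ^ 2 * (m:ℝ) = 2 * M * κ / N := by
      rw [ha2, hτ]
      have : 2 * p * κ / N * (m:ℝ) = 2 * (p * m) * κ / N := by ring
      rw [this, hpm]
    rw [e1] at hchain
    have e2 : ((0:ℕ):ℝ) + p * m - M = 0 := by
      rw [hpm]; simp
    have hexp' : aN f N M - c * (((((0:ℕ):ℝ) + p * m - M) ^ 2 + m * p * (1 - p)) / (2 * y) + y / 2)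
        ≤ (thin p f Y)^[m] LS v₀ := hexp
    rw [e2] at hexp'
    have e3 : (m:ℝ) * p * (1 - p) ≤ M := by
      have : (m:ℝ) * p = M := by rw [mul_comm]; exact hpm
      rw [this]
      have hM0 : (0:ℝ) ≤ M := by positivity
      nlinarith
    have e4 : ((0:ℝ) ^ 2 + m * p * (1 - p)) / (2 * y) + y / 2 ≤ y := by
      have h5 : (0:ℝ) ^ 2 + m * p * (1 - p) ≤ y ^ 2 := by
        rw [hy2]
        have : (0:ℝ) ^ 2 = 0 := by norm_num
        linarith
      have h6 : ((0:ℝ) ^ 2 + m * p * (1 - p)) / (2 * y) ≤ y / 2 := by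
        rw [div_le_iff₀ (by positivity)]
        nlinarith
      linarith
    have e5 : (m:ℝ) * (p * (C - κ) + τ ^ 2 / 16 * KK (Fin N)) = M * (C - κ) + E / m := by
      rw [hE, hτ]
      have hmp : p = M / m := hp
      rw [hmp]
      field_simp
    rw [e5] at hchain
    have e6 := mul_le_mul_of_nonneg_left e4 hc0
    linarith
  have hlim : Tendsto (fun m : ℕ => M * (C - κ) + N * lcG (2 * M * κ / N) + c * y + E / (m:ℝ))
      atTop (𝓝 (M * (C - κ) + N * lcG (2 * M * κ / N) + c * y + 0)) :=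
    tendsto_const_nhds.add (tendsto_const_div_atTop_nhds_zero_nat E)
  rw [add_zero] at hlim
  refine ge_of_tendsto hlim ?_
  filter_upwards [eventually_ge_atTop (max M 1)] with m hm
  exact key m hm

end Main

/-- Continuity of the Gaussian average of `log cosh`. -/
lemma lcG_continuous : Continuous lcG := by
  have h0 : (0:ℝ) ≤ ∫ y, |y| ∂gam := integral_nonneg fun y => abs_nonneg y
  have hH : LipschitzWith ⟨∫ y, |y| ∂gam, h0⟩ (fun s : ℝ => ∫ y, lc (s * y) ∂gam) := by
    refine LipschitzWith.of_dist_le_mul fun s s' => ?_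
    simp only [Real.dist_eq, NNReal.coe_mk]
    have hi : ∀ s : ℝ, Integrable (fun y => lc (s * y)) gam := by
      intro s
      have := integrable_lip lc_abs_sub 0 s
      simpa using this
    rw [← integral_sub (hi s) (hi s')]
    have h1 : |∫ y, (lc (s * y) - lc (s' * y)) ∂gam| ≤ ∫ y, |lc (s * y) - lc (s' * y)| ∂gam :=
      abs_integral_le_integral_abs
    have h2 : ∫ y, |lc (s * y) - lc (s' * y)| ∂gam ≤ ∫ y, |s - s'| * |y| ∂gam := by
      refine integral_mono ((hi s).sub (hi s')).abs (integrable_abs_gam.const_mul _) fun y => ?_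
      have := lc_abs_sub (s * y) (s' * y)
      have e : s * y - s' * y = (s - s') * y := by ring
      rw [e, abs_mul] at this
      exact this
    rw [integral_const_mul] at h2
    change |_| ≤ (∫ y, |y| ∂gam) * |s - s'|
    rw [mul_comm (∫ y, |y| ∂gam) |s - s'|]
    exact h1.trans h2
  exact hH.continuous.comp Real.continuous_sqrt

lemma tendsto_sqrt_floor_div {α : ℝ} (hα : 0 < α) :
    Tendsto (fun N : ℕ => Real.sqrt ((⌊α * N⌋₊ : ℝ) + 1) / N) atTop (𝓝 0) := by
  have hsq : Tendsto (fun N : ℕ => Real.sqrt (α + 1) * (Real.sqrt N)⁻¹) atTop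
      (𝓝 (Real.sqrt (α + 1) * 0)) := by
    apply Tendsto.const_mul
    exact tendsto_inv_atTop_zero.comp (Real.tendsto_sqrt_atTop.comp tendsto_natCast_atTop_atTop)
  rw [mul_zero] at hsq
  refine squeeze_zero' (Filter.Eventually.of_forall fun N => by positivity) ?_ hsq
  filter_upwards [eventually_ge_atTop 1] with N hN
  have hN' : (1:ℝ) ≤ N := by exact_mod_cast hN
  have hN0 : (0:ℝ) < N := by linarith
  have h1 : (⌊α * N⌋₊ : ℝ) + 1 ≤ (α + 1) * N := by
    have : (⌊α * N⌋₊ : ℝ) ≤ α * N := Nat.floor_le (by positivity)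
    nlinarith
  have h2 : Real.sqrt ((⌊α * N⌋₊ : ℝ) + 1) ≤ Real.sqrt (α + 1) * Real.sqrt N := by
    rw [← Real.sqrt_mul (by positivity)]
    exact Real.sqrt_le_sqrt h1
  have hs : Real.sqrt N ^ 2 = N := Real.sq_sqrt hN0.le
  have hs0 : 0 < Real.sqrt N := Real.sqrt_pos.mpr hN0
  rw [div_le_iff₀ hN0]
  calc Real.sqrt ((⌊α * N⌋₊ : ℝ) + 1) ≤ Real.sqrt (α + 1) * Real.sqrt N := h2
    _ = Real.sqrt (α + 1) * (Real.sqrt N)⁻¹ * N := by
        field_simp
        rw [hs]

/-- The replica-symmetric upper bound for the limit of the expected pressure. -/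
theorem rs_upper_limit {ρ : Measure ℝ} [IsFiniteMeasure ρ] {A : ℝ} (hA : ρ.real Set.univ < A)
    {α : ℝ} (hα : 0 < α) {r C₁ : ℝ} (hr : 0 ≤ r)
    (hC : ∀ q, 0 ≤ q → q ≤ 1 → α * bigPhi ρ A q - (r / 2) * (1 - q) ≤ C₁) :
    ∃ L : ℝ, Tendsto (fun N : ℕ => expectedPressure (fA ρ A) α N) atTop (𝓝 L) ∧
      L ≤ C₁ + lcG r := by
  obtain ⟨L, hL⟩ := exists_limit hA hα
  refine ⟨L, hL, ?_⟩
  set c : ℝ := |Real.log (A - ρ.real Set.univ)| + |Real.log (A + ρ.real Set.univ)| with hcdef
  have hc : ∀ y, |fA ρ A y| ≤ c := fA_abs_le ρ hA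
  have hf := fA_continuous ρ hA
  set κ : ℝ := r / (2 * α) with hκ
  have hκ0 : 0 ≤ κ := by positivity
  set C : ℝ := C₁ / α + κ with hCdef
  have hCq : ∀ q, 0 ≤ q → q ≤ 1 → bigPhi ρ A q + κ * q ≤ C := by
    intro q hq0 hq1
    have h := hC q hq0 hq1
    rw [hCdef, hκ]
    have e : bigPhi ρ A q + r / (2 * α) * q - (C₁ / α + r / (2 * α))
        = (α * bigPhi ρ A q - r / 2 * (1 - q) - C₁) / α := by
      field_simp
      ring
    have h2 : (α * bigPhi ρ A q - r / 2 * (1 - q) - C₁) / α ≤ 0 :=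
      div_nonpos_of_nonpos_of_nonneg (by linarith) hα.le
    linarith
  have hratio : Tendsto (fun N : ℕ => (⌊α * N⌋₊ : ℝ) / N) atTop (𝓝 α) :=
    (tendsto_nat_floor_mul_div_atTop hα.le).comp tendsto_natCast_atTop_atTop
  have hlim : Tendsto (fun N : ℕ => ((⌊α * N⌋₊ : ℝ) / N) * (C - κ)
      + lcG (2 * κ * ((⌊α * N⌋₊ : ℝ) / N))
      + c * (Real.sqrt ((⌊α * N⌋₊ : ℝ) + 1) / N)) atTop
      (𝓝 (α * (C - κ) + lcG (2 * κ * α) + c * 0)) := by
    refine Tendsto.add (Tendsto.add (hratio.mul_const _) ?_)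
      ((tendsto_sqrt_floor_div hα).const_mul c)
    exact lcG_continuous.continuousAt.tendsto.comp (hratio.const_mul _)
  have e1 : α * (C - κ) + lcG (2 * κ * α) + c * 0 = C₁ + lcG r := by
    have e2 : α * (C - κ) = C₁ := by
      rw [hCdef]
      field_simp
      ring
    have e3 : 2 * κ * α = r := by
      rw [hκ]
      field_simp
    rw [e2, e3]
    ring
  rw [e1] at hlim
  refine le_of_tendsto_of_tendsto hL hlim ?_
  filter_upwards [eventually_ge_atTop 1] with N hN
  have hN' : (0:ℝ) < N := by exact_mod_cast hN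
  rw [expectedPressure_eq hf hc]
  have h := rs_finite hA hN ⌊α * N⌋₊ hκ0 hCq hc
  have h2 : (1 / (N:ℝ)) * aN (fA ρ A) N ⌊α * N⌋₊
      ≤ (1 / (N:ℝ)) * (⌊α * N⌋₊ * (C - κ) + N * lcG (2 * ⌊α * N⌋₊ * κ / N)
        + c * Real.sqrt (⌊α * N⌋₊ + 1)) :=
    mul_le_mul_of_nonneg_left h (by positivity)
  refine h2.trans (le_of_eq ?_)
  have e4 : 2 * (⌊α * N⌋₊ : ℝ) * κ / N = 2 * κ * ((⌊α * N⌋₊ : ℝ) / N) := by ring
  rw [e4]
  field_simp

end Vale.Agent.Lib.P157
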