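import Vale.Agent.Lib.P157.Cube

/-! The replica-symmetric Jensen comparison for moments of the Gibbs average. -/

open MeasureTheory ProbabilityTheory Real Filter Topology

set_option linter.unusedSectionVars false

namespace Vale.Agent.Lib.P157

variable {R : Type*} [Fintype R] {κ κ' : Type*} [Fintype κ] [Fintype κ'] {X : Type*} [Fintype X]

/-- Comparison of a Gaussian system with a finite mixture of Gaussian systems,
for products of cosines, when the covariance of the first is the mixture of the others. -/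
theorem cosP_mix_ineq (Y' : R → κ' → ℝ) (Z : X → R → κ → ℝ) (W : X → ℝ) (hW0 : ∀ x, 0 ≤ W x)
    (hW1 : ∑ x, W x = 1)
    (hN : ∀ t : R → ℝ, (∑ k, lin Y' t k ^ 2) = ∑ x, W x * ∑ k, lin (Z x) t k ^ 2)
    (L : List (R → ℝ)) :
    ∫ g, cosP Y' L g ∂(stdG κ') ≤ ∑ x, W x * ∫ g, cosP (Z x) L g ∂(stdG κ) := by
  induction' h : L.length using Nat.strong_induction_on with n ih generalizing L
  match L, h with
  | [], _ =>
    simp only [cosP_nil, integral_const, smul_eq_mul, mul_one]
    simp [hW1]
  | [t], _ =>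
    rw [integral_cosP_singleton Y']
    simp only [integral_cosP_singleton]
    rw [hN t]
    have hconv := convexOn_exp.map_sum_le (t := Finset.univ) (w := W)
      (p := fun x => -(∑ k, lin (Z x) t k ^ 2) / 2) (fun x _ => hW0 x) hW1
      (fun x _ => Set.mem_univ _)
    simp only [smul_eq_mul] at hconv
    have e : -(∑ x, W x * ∑ k, lin (Z x) t k ^ 2) / 2
        = ∑ x, W x * (-(∑ k, lin (Z x) t k ^ 2) / 2) := by
      rw [neg_div, Finset.sum_div, ← Finset.sum_neg_distrib]
      refine Finset.sum_congr rfl fun x _ => ?_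
      ring
    rw [e]
    exact hconv
  | t₀ :: t₁ :: R', h =>
    have hlen : R'.length + 2 = n := by simpa using h
    rw [integral_cosP_two Y']
    simp only [integral_cosP_two (Z _)]
    have i1 := ih (R'.length + 1) (by omega) ((t₀ + t₁) :: R') (by simp)
    have i2 := ih (R'.length + 1) (by omega) ((t₀ - t₁) :: R') (by simp)
    have e : ∑ x, W x * ((1 / 2) * ∫ g, cosP (Z x) ((t₀ + t₁) :: R') g ∂(stdG κ)
          + (1 / 2) * ∫ g, cosP (Z x) ((t₀ - t₁) :: R') g ∂(stdG κ))
        = (1 / 2) * ∑ x, W x * ∫ g, cosP (Z x) ((t₀ + t₁) :: R') g ∂(stdG κ)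
          + (1 / 2) * ∑ x, W x * ∫ g, cosP (Z x) ((t₀ - t₁) :: R') g ∂(stdG κ) := by
      rw [Finset.mul_sum, Finset.mul_sum, ← Finset.sum_add_distrib]
      refine Finset.sum_congr rfl fun x _ => ?_
      ring
    rw [e]
    linarith

variable (ρ : Measure ℝ) [IsFiniteMeasure ρ]

/-- Product of `phi` over a list of replica labels. -/
noncomputable def phiP (Y : R → κ → ℝ) (J : List R) (g : κ → ℝ) : ℝ :=
  (J.map fun l => phi ρ (∑ k, g k * Y l k)).prod

lemma phiP_nil (Y : R → κ → ℝ) (g : κ → ℝ) : phiP ρ Y [] g = 1 := rfl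

lemma phiP_cons (Y : R → κ → ℝ) (l : R) (J : List R) (g : κ → ℝ) :
    phiP ρ Y (l :: J) g = phi ρ (∑ k, g k * Y l k) * phiP ρ Y J g := by
  simp [phiP]

lemma phiP_continuous (Y : R → κ → ℝ) (J : List R) : Continuous (phiP ρ Y J) := by
  induction J with
  | nil => exact continuous_const
  | cons l J ih =>
    have : phiP ρ Y (l :: J) = fun g => phi ρ (∑ k, g k * Y l k) * phiP ρ Y J g := by
      funext g; exact phiP_cons ρ Y l J g
    rw [this]
    exact ((phi_continuous ρ).comp (by fun_prop)).mul ih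

lemma phiP_abs_le (Y : R → κ → ℝ) (J : List R) (g : κ → ℝ) :
    |phiP ρ Y J g| ≤ (ρ.real Set.univ) ^ J.length := by
  induction J with
  | nil => simp [phiP_nil]
  | cons l J ih =>
    rw [phiP_cons, abs_mul, List.length_cons, pow_succ']
    exact mul_le_mul (phi_abs_le ρ _) ih (abs_nonneg _) measureReal_nonneg

/-- Integrability of the product of cosines and `phi`'s. -/
lemma cosP_phiP_integrable (Y : R → κ → ℝ) (L : List (R → ℝ)) (J : List R) :
    Integrable (fun g => cosP Y L g * phiP ρ Y J g) (stdG κ) := by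
  refine Integrable.of_bound ((cosP_continuous Y L).mul (phiP_continuous ρ Y J)).aestronglyMeasurable
    ((ρ.real Set.univ) ^ J.length) (Filter.Eventually.of_forall fun g => ?_)
  rw [Real.norm_eq_abs, abs_mul]
  calc |cosP Y L g| * |phiP ρ Y J g| ≤ 1 * (ρ.real Set.univ) ^ J.length :=
        mul_le_mul (cosP_abs_le Y L g) (phiP_abs_le ρ Y J g) (abs_nonneg _) zero_le_one
    _ = _ := one_mul _

/-- Fubini integrability for peeling a `phi`. -/
lemma cosP_phiP_fub [DecidableEq R] (Y : R → κ → ℝ) (L : List (R → ℝ)) (J : List R) (l : R) :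
    Integrable (Function.uncurry fun (g : κ → ℝ) (ξ : ℝ) =>
      Real.cos (ξ * ∑ k, g k * Y l k) * (cosP Y L g * phiP ρ Y J g)) ((stdG κ).prod ρ) := by
  refine Integrable.of_bound (C := (ρ.real Set.univ) ^ J.length) ?_ ?_
  · apply Continuous.aestronglyMeasurable
    apply Continuous.mul
    · apply Real.continuous_cos.comp
      apply Continuous.mul continuous_snd
      fun_prop
    · apply Continuous.mul
      · exact (cosP_continuous Y L).comp continuous_fst
      · exact (phiP_continuous ρ Y J).comp continuous_fst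
  · refine Filter.Eventually.of_forall fun p => ?_
    rcases p with ⟨g, ξ⟩
    simp only [Function.uncurry_apply_pair, Real.norm_eq_abs, abs_mul]
    have h1 := cosP_abs_le Y L g
    have h2 := phiP_abs_le ρ Y J g
    have h3 := Real.abs_cos_le_one (ξ * ∑ k, g k * Y l k)
    have h4 : (0:ℝ) ≤ (ρ.real Set.univ) ^ J.length := le_trans (abs_nonneg _) h2
    calc |Real.cos (ξ * ∑ k, g k * Y l k)| * (|cosP Y L g| * |phiP ρ Y J g|)
        ≤ 1 * (1 * (ρ.real Set.univ) ^ J.length) := by
          refine mul_le_mul h3 (mul_le_mul h1 h2 (abs_nonneg _) zero_le_one) (by positivity)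
            zero_le_one
      _ = _ := by ring

/-- Peeling one `phi` from the integral. -/
lemma peel_phi [DecidableEq R] (Y : R → κ → ℝ) (L : List (R → ℝ)) (J : List R) (l : R) :
    ∫ g, cosP Y L g * phiP ρ Y (l :: J) g ∂(stdG κ)
      = ∫ ξ, (∫ g, cosP Y ((Pi.single l ξ) :: L) g * phiP ρ Y J g ∂(stdG κ)) ∂ρ := by
  have h1 : ∀ g, cosP Y L g * phiP ρ Y (l :: J) g
      = ∫ ξ, Real.cos (ξ * ∑ k, g k * Y l k) * (cosP Y L g * phiP ρ Y J g) ∂ρ := by
    intro g
    rw [integral_mul_const, phiP_cons]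
    unfold phi
    ring
  simp_rw [h1]
  rw [integral_integral_swap (cosP_phiP_fub ρ Y L J l)]
  refine integral_congr_ae (Filter.Eventually.of_forall fun ξ => ?_)
  refine integral_congr_ae (Filter.Eventually.of_forall fun g => ?_)
  simp only [cosP_cons, cos_single]
  ring

lemma peel_integrable [DecidableEq R] (Y : R → κ → ℝ) (L : List (R → ℝ)) (J : List R) (l : R) :
    Integrable (fun ξ => ∫ g, cosP Y ((Pi.single l ξ) :: L) g * phiP ρ Y J g ∂(stdG κ)) ρ := by
  have := (cosP_phiP_fub ρ Y L J l).integral_prod_right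
  refine this.congr (Filter.Eventually.of_forall fun ξ => ?_)
  simp only [Function.uncurry_apply_pair]
  refine integral_congr_ae (Filter.Eventually.of_forall fun g => ?_)
  simp only [cosP_cons, cos_single]
  ring

/-- The mixture comparison for products of `phi`. -/
theorem phiP_mix_ineq [DecidableEq R] (Y' : R → κ' → ℝ) (Z : X → R → κ → ℝ) (W : X → ℝ)
    (hW0 : ∀ x, 0 ≤ W x) (hW1 : ∑ x, W x = 1)
    (hN : ∀ t : R → ℝ, (∑ k, lin Y' t k ^ 2) = ∑ x, W x * ∑ k, lin (Z x) t k ^ 2)
    (J : List R) :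
    ∀ L : List (R → ℝ), ∫ g, cosP Y' L g * phiP ρ Y' J g ∂(stdG κ')
      ≤ ∑ x, W x * ∫ g, cosP (Z x) L g * phiP ρ (Z x) J g ∂(stdG κ) := by
  induction J with
  | nil =>
    intro L
    simp only [phiP_nil, mul_one]
    exact cosP_mix_ineq Y' Z W hW0 hW1 hN L
  | cons l J ih =>
    intro L
    rw [peel_phi ρ Y']
    simp only [peel_phi ρ (Z _)]
    have h1 : ∑ x, W x * ∫ ξ, (∫ g, cosP (Z x) ((Pi.single l ξ) :: L) g * phiP ρ (Z x) J g
          ∂(stdG κ)) ∂ρ
        = ∫ ξ, ∑ x, W x * (∫ g, cosP (Z x) ((Pi.single l ξ) :: L) g * phiP ρ (Z x) J g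
          ∂(stdG κ)) ∂ρ := by
      rw [integral_finsetSum _ (fun x _ => (peel_integrable ρ (Z x) L J l).const_mul _)]
      refine Finset.sum_congr rfl fun x _ => ?_
      rw [integral_const_mul]
    rw [h1]
    refine integral_mono (peel_integrable ρ Y' L J l)
      (integrable_finsetSum _ fun x _ => (peel_integrable ρ (Z x) L J l).const_mul _)
      (fun ξ => ih ((Pi.single l ξ) :: L))

section RS

variable {S : Type*} [Fintype S] [DecidableEq S] {κ : Type*} [Fintype κ]

/-- Averaging a product of two functions of two coordinates under a product weight. -/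
lemma sum_prod_weight {n : ℕ} (w : S → ℝ) (hw1 : ∑ s, w s = 1) (a b : S → ℝ) (l l' : Fin n) :
    ∑ x : Fin n → S, (∏ m, w (x m)) * (a (x l) * b (x l'))
      = if l = l' then ∑ s, w s * (a s * b s) else (∑ s, w s * a s) * (∑ s, w s * b s) := by
  let h : Fin n → S → ℝ := fun m s =>
    w s * ((if m = l then a s else 1) * (if m = l' then b s else 1))
  have e1 : ∀ x : Fin n → S, (∏ m, w (x m)) * (a (x l) * b (x l')) = ∏ m, h m (x m) := by
    intro x
    simp only [h]
    rw [Finset.prod_mul_distrib, Finset.prod_mul_distrib, Finset.prod_ite_eq' , Finset.prod_ite_eq']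
    simp
  simp_rw [e1]
  have e2 : ∑ x : Fin n → S, ∏ m, h m (x m) = ∏ m, ∑ s, h m s := by
    rw [Finset.prod_univ_sum]
    simp
  rw [e2]
  by_cases hll : l = l'
  · subst hll
    rw [if_pos rfl, Finset.prod_eq_single l]
    · simp [h]
    · intro m _ hm
      simp [h, hm, hw1]
    · simp
  · rw [if_neg hll, Finset.prod_eq_mul l l' hll]
    · congr 1
      · refine Finset.sum_congr rfl fun s _ => ?_
        simp [h, hll]
      · refine Finset.sum_congr rfl fun s _ => ?_
        have : l' ≠ l := fun h' => hll h'.symm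
        simp [h, this]
    · intro m _ hm
      simp [h, hm.1, hm.2, hw1]
    · simp
    · simp

/-- The replica-symmetric overlap of a weight `w`. -/
noncomputable def qOf (w : S → ℝ) (Y : S → κ → ℝ) : ℝ := ∑ k, (∑ s, w s * Y s k) ^ 2

lemma qOf_nonneg (w : S → ℝ) (Y : S → κ → ℝ) : 0 ≤ qOf w Y :=
  Finset.sum_nonneg fun _ _ => sq_nonneg _

lemma qOf_le_one {w : S → ℝ} (hw0 : ∀ s, 0 ≤ w s) (hw1 : ∑ s, w s = 1) {Y : S → κ → ℝ}
    (hY : ∀ s, ∑ k, Y s k ^ 2 = 1) : qOf w Y ≤ 1 := by
  have h1 : ∀ k, (∑ s, w s * Y s k) ^ 2 ≤ ∑ s, w s * Y s k ^ 2 := by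
    intro k
    have := (Even.convexOn_pow (n := 2) (even_two)).map_sum_le (t := Finset.univ) (w := w)
      (p := fun s => Y s k) (fun s _ => hw0 s) hw1 (fun s _ => Set.mem_univ _)
    simpa [smul_eq_mul] using this
  calc qOf w Y ≤ ∑ k, ∑ s, w s * Y s k ^ 2 := Finset.sum_le_sum fun k _ => h1 k
    _ = ∑ s, w s * ∑ k, Y s k ^ 2 := by
        rw [Finset.sum_comm]
        refine Finset.sum_congr rfl fun s _ => ?_
        rw [Finset.mul_sum]
    _ = 1 := by simp [hY, hw1]

/-- The replica-symmetric Gaussian system with parameter `q`: a common coordinate `0` and private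
coordinates. -/
noncomputable def Yrs (q : ℝ) (n : ℕ) (l : Fin n) (k : Fin (n + 1)) : ℝ :=
  Fin.cases (Real.sqrt q) (fun m => if m = l then Real.sqrt (1 - q) else 0) k

lemma sum_Yrs (q : ℝ) (n : ℕ) (l : Fin n) (g : Fin (n + 1) → ℝ) :
    ∑ k, g k * Yrs q n l k = Real.sqrt q * g 0 + Real.sqrt (1 - q) * g l.succ := by
  rw [Fin.sum_univ_succ]
  congr 1
  · simp [Yrs, mul_comm]
  · rw [Finset.sum_eq_single l]
    · simp [Yrs, mul_comm]
    · intro b _ hb
      simp [Yrs, hb]
    · simp

lemma Yrs_norm {q : ℝ} (hq0 : 0 ≤ q) (hq1 : q ≤ 1) {n : ℕ} (t : Fin n → ℝ) :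
    (∑ k, lin (Yrs q n) t k ^ 2) = q * (∑ l, t l) ^ 2 + (1 - q) * ∑ l, t l ^ 2 := by
  rw [Fin.sum_univ_succ]
  congr 1
  · have : lin (Yrs q n) t 0 = (∑ l, t l) * Real.sqrt q := by
      simp [lin, Yrs, Finset.sum_mul]
    rw [this, mul_pow, Real.sq_sqrt hq0]
    ring
  · rw [Finset.mul_sum]
    refine Finset.sum_congr rfl fun m _ => ?_
    have : lin (Yrs q n) t m.succ = t m * Real.sqrt (1 - q) := by
      unfold lin
      rw [Finset.sum_eq_single m]
      · simp [Yrs]
      · intro b _ hb
        have : m ≠ b := fun h => hb h.symm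
        simp [Yrs, this]
      · simp
    rw [this, mul_pow, Real.sq_sqrt (by linarith)]
    ring

/-- The norm identity for the replica-symmetric system. -/
lemma rs_norm_identity {w : S → ℝ} (hw0 : ∀ s, 0 ≤ w s) (hw1 : ∑ s, w s = 1) {Y : S → κ → ℝ}
    (hY : ∀ s, ∑ k, Y s k ^ 2 = 1) {n : ℕ} (t : Fin n → ℝ) :
    (∑ k, lin (Yrs (qOf w Y) n) t k ^ 2)
      = ∑ x : Fin n → S, (∏ m, w (x m)) * ∑ k, lin (fun l => Y (x l)) t k ^ 2 := by
  set q := qOf w Y with hq
  rw [Yrs_norm (qOf_nonneg w Y) (qOf_le_one hw0 hw1 hY)]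
  have e1 : ∀ x : Fin n → S, (∏ m, w (x m)) * ∑ k, lin (fun l => Y (x l)) t k ^ 2
      = ∑ k, ∑ l, ∑ l', t l * t l' * ((∏ m, w (x m)) * (Y (x l) k * Y (x l') k)) := by
    intro x
    rw [Finset.mul_sum]
    refine Finset.sum_congr rfl fun k _ => ?_
    simp only [lin]
    rw [sq, Finset.sum_mul_sum, Finset.mul_sum]
    refine Finset.sum_congr rfl fun l _ => ?_
    rw [Finset.mul_sum]
    refine Finset.sum_congr rfl fun l' _ => ?_
    ring
  simp_rw [e1]
  rw [Finset.sum_comm]
  have e2 : ∀ k : κ, ∑ x : Fin n → S, ∑ l, ∑ l', t l * t l' * ((∏ m, w (x m)) * (Y (x l) k * Y (x l') k))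
      = ∑ l, ∑ l', t l * t l' *
        (if l = l' then ∑ s, w s * (Y s k * Y s k) else (∑ s, w s * Y s k) * (∑ s, w s * Y s k)) := by
    intro k
    rw [Finset.sum_comm]
    refine Finset.sum_congr rfl fun l _ => ?_
    rw [Finset.sum_comm]
    refine Finset.sum_congr rfl fun l' _ => ?_
    rw [← Finset.mul_sum, sum_prod_weight w hw1 (fun s => Y s k) (fun s => Y s k) l l']
  simp_rw [e2]
  have e3 : ∀ (l l' : Fin n), ∑ k : κ, (if l = l' then ∑ s, w s * (Y s k * Y s k)
        else (∑ s, w s * Y s k) * (∑ s, w s * Y s k))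
      = q + (1 - q) * (if l = l' then 1 else 0) := by
    intro l l'
    by_cases h : l = l'
    · simp only [if_pos h, mul_one]
      rw [Finset.sum_comm]
      have : ∀ s, ∑ k, w s * (Y s k * Y s k) = w s := by
        intro s
        rw [← Finset.mul_sum]
        have := hY s
        simp only [sq] at this
        rw [this, mul_one]
      simp_rw [this]
      rw [hw1]
      ring
    · simp only [if_neg h, mul_zero, add_zero]
      rw [hq]
      unfold qOf
      refine Finset.sum_congr rfl fun k _ => ?_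
      ring
  calc q * (∑ l, t l) ^ 2 + (1 - q) * ∑ l, t l ^ 2
      = ∑ l, ∑ l', t l * t l' * (q + (1 - q) * (if l = l' then 1 else 0)) := by
        have h1 : ∀ l, ∑ l', t l * t l' * (q + (1 - q) * (if l = l' then 1 else 0))
            = q * (t l * ∑ l', t l') + (1 - q) * t l ^ 2 := by
          intro l
          have e4 : ∀ l', t l * t l' * (q + (1 - q) * (if l = l' then 1 else 0))
              = q * (t l * t l') + (1 - q) * (if l = l' then t l * t l' else 0) := by
            intro l'
            by_cases h : l = l' <;> simp [h] <;> ring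
          simp_rw [e4]
          rw [Finset.sum_add_distrib, ← Finset.mul_sum, ← Finset.mul_sum, ← Finset.mul_sum]
          simp only [Finset.sum_ite_eq, Finset.mem_univ, if_true]
          ring
        simp_rw [h1]
        rw [Finset.sum_add_distrib, ← Finset.mul_sum, ← Finset.sum_mul, ← Finset.mul_sum]
        ring
    _ = _ := by
        rw [Finset.sum_comm]
        rw [Finset.sum_comm]
        symm
        rw [Finset.sum_comm]
        refine Finset.sum_congr rfl fun l _ => ?_
        rw [Finset.sum_comm]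
        refine Finset.sum_congr rfl fun l' _ => ?_
        rw [← Finset.mul_sum, e3]

end RS

end Vale.Agent.Lib.P157
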