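import Vale.Agent.Lib.P157.RSJensen

/-! The replica-symmetric bound for one pattern at the level of the log-sum functional. -/

open MeasureTheory ProbabilityTheory Real Filter Topology

set_option linter.unusedSectionVars false

namespace Vale.Agent.Lib.P157

/-- The standard Gaussian on the line. -/
noncomputable abbrev gam : Measure ℝ := gaussianReal 0 1

lemma integral_cos_sin_mul (b : ℝ) :
    ∫ η, Real.cos (b * η) ∂gam = Real.exp (-(b ^ 2) / 2) ∧ ∫ η, Real.sin (b * η) ∂gam = 0 := by
  have hc := charFun_gaussianReal (μ := 0) (v := 1) b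
  rw [charFun_apply_real] at hc
  have hint : Integrable (fun x : ℝ => Complex.exp ((b : ℂ) * (x : ℂ) * Complex.I)) gam := by
    refine Integrable.of_bound ?_ 1 ?_
    · apply Continuous.aestronglyMeasurable
      fun_prop
    · refine Filter.Eventually.of_forall fun x => ?_
      have : (b : ℂ) * (x : ℂ) * Complex.I = ((b * x : ℝ) : ℂ) * Complex.I := by push_cast; ring
      rw [this, Complex.norm_exp_ofReal_mul_I]
  have hrhs : Complex.exp ((b : ℂ) * ((0:ℝ) : ℂ) * Complex.I - (((1:NNReal):ℝ) : ℂ) * (b : ℂ) ^ 2 / 2)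
      = ((Real.exp (-(b ^ 2) / 2) : ℝ) : ℂ) := by
    push_cast
    congr 1
    simp
    ring
  rw [hrhs] at hc
  constructor
  · have h1 := Complex.reCLM.integral_comp_comm hint
    simp only [Complex.reCLM_apply] at h1
    rw [hc, Complex.ofReal_re] at h1
    rw [← h1]
    refine integral_congr_ae (Filter.Eventually.of_forall fun x => ?_)
    have : (b : ℂ) * (x : ℂ) * Complex.I = ((b * x : ℝ) : ℂ) * Complex.I := by push_cast; ring
    simp only [this]
    rw [Complex.exp_ofReal_mul_I_re]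
  · have h1 := Complex.imCLM.integral_comp_comm hint
    simp only [Complex.imCLM_apply] at h1
    rw [hc, Complex.ofReal_im] at h1
    rw [← h1]
    refine integral_congr_ae (Filter.Eventually.of_forall fun x => ?_)
    have : (b : ℂ) * (x : ℂ) * Complex.I = ((b * x : ℝ) : ℂ) * Complex.I := by push_cast; ring
    simp only [this]
    rw [Complex.exp_ofReal_mul_I_im]

lemma integral_cos_add_mul (a b : ℝ) :
    ∫ η, Real.cos (a + b * η) ∂gam = Real.cos a * Real.exp (-(b ^ 2) / 2) := by
  have h := integral_cos_sin_mul b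
  have hi1 : Integrable (fun η : ℝ => Real.cos (b * η)) gam := by
    refine Integrable.of_bound (by apply Continuous.aestronglyMeasurable; fun_prop) 1
      (Filter.Eventually.of_forall fun η => by simpa using Real.abs_cos_le_one (b * η))
  have hi2 : Integrable (fun η : ℝ => Real.sin (b * η)) gam := by
    refine Integrable.of_bound (by apply Continuous.aestronglyMeasurable; fun_prop) 1
      (Filter.Eventually.of_forall fun η => by simpa using Real.abs_sin_le_one (b * η))
  simp_rw [Real.cos_add]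
  rw [integral_sub (hi1.const_mul _) (hi2.const_mul _), integral_const_mul, integral_const_mul,
    h.1, h.2]
  ring

variable (ρ : Measure ℝ) [IsFiniteMeasure ρ]

/-- The function `φ_q(z) = ∫ cos (ξ √q z) exp (-(1 - q) ξ² / 2) dρ(ξ)`: the conditional expectation
of `φ(√q z + √(1 - q) η)` given `z`. -/
noncomputable def phiQ (q z : ℝ) : ℝ :=
  ∫ ξ, Real.cos (ξ * (Real.sqrt q * z)) * Real.exp (-((1 - q) * ξ ^ 2) / 2) ∂ρ

lemma phiQ_integrand_bound {q : ℝ} (hq : q ≤ 1) (z ξ : ℝ) :
    |Real.cos (ξ * (Real.sqrt q * z)) * Real.exp (-((1 - q) * ξ ^ 2) / 2)| ≤ 1 := by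
  rw [abs_mul, abs_of_pos (Real.exp_pos _)]
  have h1 := Real.abs_cos_le_one (ξ * (Real.sqrt q * z))
  have h2 : Real.exp (-((1 - q) * ξ ^ 2) / 2) ≤ 1 := by
    rw [Real.exp_le_one_iff]
    have : 0 ≤ (1 - q) * ξ ^ 2 := mul_nonneg (by linarith) (sq_nonneg _)
    linarith
  calc _ ≤ 1 * 1 := mul_le_mul h1 h2 (Real.exp_pos _).le zero_le_one
    _ = 1 := by ring

lemma phiQ_integrable {q : ℝ} (hq : q ≤ 1) (z : ℝ) :
    Integrable (fun ξ => Real.cos (ξ * (Real.sqrt q * z)) * Real.exp (-((1 - q) * ξ ^ 2) / 2)) ρ := by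
  refine Integrable.of_bound (by apply Continuous.aestronglyMeasurable; fun_prop) 1
    (Filter.Eventually.of_forall fun ξ => by simpa using phiQ_integrand_bound hq z ξ)

lemma phiQ_abs_le {q : ℝ} (hq : q ≤ 1) (z : ℝ) : |phiQ ρ q z| ≤ ρ.real Set.univ := by
  unfold phiQ
  have h := norm_integral_le_of_norm_le_const (μ := ρ) (C := 1)
    (f := fun ξ => Real.cos (ξ * (Real.sqrt q * z)) * Real.exp (-((1 - q) * ξ ^ 2) / 2))
    (Filter.Eventually.of_forall fun ξ => by simpa using phiQ_integrand_bound hq z ξ)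
  simpa using h

lemma phiQ_continuous {q : ℝ} (hq : q ≤ 1) : Continuous (phiQ ρ q) := by
  unfold phiQ
  refine continuous_of_dominated (bound := fun _ => (1:ℝ)) ?_ ?_ (integrable_const _) ?_
  · intro z
    apply Continuous.aestronglyMeasurable
    fun_prop
  · intro z
    exact Filter.Eventually.of_forall fun ξ => by simpa using phiQ_integrand_bound hq z ξ
  · refine Filter.Eventually.of_forall fun ξ => ?_
    fun_prop

/-- `φ_q` as a Gaussian average of `φ`. -/
lemma phiQ_eq {q : ℝ} (hq0 : 0 ≤ q) (hq1 : q ≤ 1) (z : ℝ) :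
    phiQ ρ q z = ∫ η, phi ρ (Real.sqrt q * z + Real.sqrt (1 - q) * η) ∂gam := by
  unfold phiQ phi
  have hfub : Integrable (Function.uncurry fun (η ξ : ℝ) =>
      Real.cos (ξ * (Real.sqrt q * z + Real.sqrt (1 - q) * η))) (gam.prod ρ) := by
    refine Integrable.of_bound (by apply Continuous.aestronglyMeasurable; fun_prop) 1
      (Filter.Eventually.of_forall fun p => by
        rcases p with ⟨η, ξ⟩
        simp only [Function.uncurry_apply_pair, Real.norm_eq_abs]
        exact Real.abs_cos_le_one _)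
  rw [integral_integral_swap hfub]
  refine integral_congr_ae (Filter.Eventually.of_forall fun ξ => ?_)
  have : ∀ η, Real.cos (ξ * (Real.sqrt q * z + Real.sqrt (1 - q) * η))
      = Real.cos (ξ * (Real.sqrt q * z) + (ξ * Real.sqrt (1 - q)) * η) := by
    intro η
    congr 1
    ring
  simp_rw [this]
  rw [integral_cos_add_mul]
  congr 2
  rw [mul_pow, Real.sq_sqrt (by linarith)]
  ring

/-- The integrated replica-symmetric Gaussian product. -/
lemma integral_phiP_rs {q : ℝ} (hq0 : 0 ≤ q) (hq1 : q ≤ 1) (n : ℕ) :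
    ∫ g, phiP ρ (Yrs q n) (List.finRange n) g ∂(stdG (Fin (n + 1)))
      = ∫ z, (phiQ ρ q z) ^ n ∂gam := by
  have hprod : ∀ g : Fin (n + 1) → ℝ, phiP ρ (Yrs q n) (List.finRange n) g
      = ∏ l : Fin n, phi ρ (Real.sqrt q * g 0 + Real.sqrt (1 - q) * g l.succ) := by
    intro g
    rw [Fin.prod_univ_def]
    unfold phiP
    congr 2
    funext l
    rw [sum_Yrs]
  simp_rw [hprod]
  rw [← ((measurePreserving_piFinSuccAbove (fun _ : Fin (n + 1) => gam) 0).symm).integral_comp']
  simp_rw [MeasurableEquiv.piFinSuccAbove_symm_apply, Fin.insertNthEquiv]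
  simp only [Equiv.coe_fn_mk, Fin.insertNth_zero, Fin.cons_zero, Fin.cons_succ, cast_eq]
  have hcont : Continuous (fun p : ℝ × (Fin n → ℝ) =>
      ∏ l : Fin n, phi ρ (Real.sqrt q * p.1 + Real.sqrt (1 - q) * p.2 l)) := by
    refine continuous_finsetProd _ fun l _ => (phi_continuous ρ).comp ?_
    fun_prop
  have hint : Integrable (fun p : ℝ × (Fin n → ℝ) =>
      ∏ l : Fin n, phi ρ (Real.sqrt q * p.1 + Real.sqrt (1 - q) * p.2 l))
      (gam.prod (Measure.pi fun _ : Fin n => gam)) := by
    refine Integrable.of_bound hcont.aestronglyMeasurable ((ρ.real Set.univ) ^ n)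
      (Filter.Eventually.of_forall fun p => ?_)
    rw [Real.norm_eq_abs, Finset.abs_prod]
    calc ∏ l : Fin n, |phi ρ (Real.sqrt q * p.1 + Real.sqrt (1 - q) * p.2 l)|
        ≤ ∏ _l : Fin n, ρ.real Set.univ :=
          Finset.prod_le_prod (fun _ _ => abs_nonneg _) (fun _ _ => phi_abs_le ρ _)
      _ = _ := by simp
  have := integral_prod _ hint
  rw [show (∫ z : ℝ × (Fin n → ℝ), _ ∂((gam).prod (Measure.pi fun _ : Fin n => gam))) = _ from this]
  refine integral_congr_ae (Filter.Eventually.of_forall fun z => ?_)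
  simp only
  rw [integral_fintype_prod_eq_prod
    (f := fun _ (η : ℝ) => phi ρ (Real.sqrt q * z + Real.sqrt (1 - q) * η))]
  simp [phiQ_eq ρ hq0 hq1]

variable {S : Type*} [Fintype S] [DecidableEq S] {κ : Type*} [Fintype κ]

/-- The replica-symmetric moment bound. -/
theorem rs_moment {w : S → ℝ} (hw0 : ∀ s, 0 ≤ w s) (hw1 : ∑ s, w s = 1) {Y : S → κ → ℝ}
    (hY : ∀ s, ∑ k, Y s k ^ 2 = 1) (n : ℕ) :
    ∫ z, (phiQ ρ (qOf w Y) z) ^ n ∂gam ≤ ∫ g, (T ρ w Y g) ^ n ∂(stdG κ) := by
  have hq0 := qOf_nonneg w Y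
  have hq1 := qOf_le_one hw0 hw1 hY
  rw [← integral_phiP_rs ρ hq0 hq1 n]
  have hW0 : ∀ x : Fin n → S, 0 ≤ ∏ m, w (x m) := fun x => Finset.prod_nonneg fun m _ => hw0 _
  have hW1 : ∑ x : Fin n → S, ∏ m, w (x m) = 1 := by
    have := Finset.prod_univ_sum (fun _ : Fin n => (Finset.univ : Finset S)) (fun _ s => w s)
    simp only [Fintype.piFinset_univ] at this
    rw [← this]
    simp [hw1]
  have h := phiP_mix_ineq ρ (Yrs (qOf w Y) n) (fun (x : Fin n → S) l => Y (x l))
    (fun x : Fin n → S => ∏ m, w (x m)) hW0 hW1 (fun t => rs_norm_identity hw0 hw1 hY t)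
    (List.finRange n) []
  simp only [cosP_nil, one_mul] at h
  refine h.trans (le_of_eq ?_)
  have hpt : ∀ g : κ → ℝ, (T ρ w Y g) ^ n
      = ∑ x : Fin n → S, (∏ m, w (x m)) * phiP ρ (fun l => Y (x l)) (List.finRange n) g := by
    intro g
    have h1 : (T ρ w Y g) ^ n = ∏ _l : Fin n, ∑ s, w s * phi ρ (∑ k, g k * Y s k) := by
      simp [T]
    rw [h1, Finset.prod_univ_sum]
    simp only [Fintype.piFinset_univ]
    refine Finset.sum_congr rfl fun x _ => ?_
    rw [Finset.prod_mul_distrib]
    congr 1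
  simp_rw [hpt]
  rw [integral_finsetSum]
  · refine Finset.sum_congr rfl fun x _ => ?_
    rw [integral_const_mul]
  · intro x _
    have := (cosP_phiP_integrable ρ (fun l => Y (x l)) [] (List.finRange n)).const_mul
      (∏ m, w (x m))
    simpa [cosP_nil] using this

/-- Logarithm series for a bounded continuous function on the line. -/
lemma hasSum_log_line {F : ℝ → ℝ} (hF : Continuous F) {c₀ D : ℝ} (hD0 : 0 < D) (hD : c₀ < D)
    (hc : ∀ z, |F z| ≤ c₀) :
    HasSum (fun n : ℕ => (∫ z, (F z) ^ (n + 1) ∂gam) / D ^ (n + 1) / ((n : ℝ) + 1))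
      (-∫ z, Real.log (1 - F z / D) ∂gam) := by
  have hc₀0 : 0 ≤ c₀ := le_trans (abs_nonneg _) (hc 0)
  set θ : ℝ := c₀ / D with hθ
  have hθ0 : 0 ≤ θ := div_nonneg hc₀0 hD0.le
  have hθ1 : θ < 1 := (div_lt_one hD0).2 hD
  have habs : ∀ g, |F g / D| ≤ θ := by
    intro g
    rw [abs_div, abs_of_pos hD0]
    exact div_le_div_of_nonneg_right (hc g) hD0.le
  let G : ℕ → ℝ → ℝ := fun n g => (F g / D) ^ (n + 1) / ((n : ℝ) + 1)
  have hnorm : ∀ n g, ‖G n g‖ ≤ θ ^ (n + 1) := by
    intro n g
    have hn : |(n : ℝ) + 1| = (n : ℝ) + 1 := abs_of_pos (by positivity)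
    show |(F g / D) ^ (n + 1) / ((n : ℝ) + 1)| ≤ θ ^ (n + 1)
    rw [abs_div, abs_pow, hn]
    calc |F g / D| ^ (n + 1) / ((n : ℝ) + 1) ≤ |F g / D| ^ (n + 1) := by
          apply div_le_self (by positivity)
          have : (0 : ℝ) ≤ n := Nat.cast_nonneg n
          linarith
      _ ≤ θ ^ (n + 1) := pow_le_pow_left₀ (abs_nonneg _) (habs g) _
  have hG_int : ∀ n, Integrable (G n) gam := by
    intro n
    refine Integrable.of_bound ?_ (θ ^ (n + 1)) (Filter.Eventually.of_forall (hnorm n))
    apply Continuous.aestronglyMeasurable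
    exact ((hF.div_const D).pow (n + 1)).div_const _
  have hsum : Summable fun n => ∫ g, ‖G n g‖ ∂gam := by
    refine Summable.of_nonneg_of_le (fun n => integral_nonneg fun g => norm_nonneg _) (fun n => ?_)
      ((summable_geometric_of_lt_one hθ0 hθ1).mul_left θ)
    calc ∫ g, ‖G n g‖ ∂gam ≤ ∫ _g, θ ^ (n + 1) ∂gam :=
          integral_mono (hG_int n).norm (integrable_const _) (hnorm n)
      _ = θ * θ ^ n := by
          simp [pow_succ']
  have hs := hasSum_integral_of_summable_integral_norm hG_int hsum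
  have ht : ∀ g, ∑' n, G n g = -Real.log (1 - F g / D) := by
    intro g
    exact (Real.hasSum_pow_div_log_of_abs_lt_one (lt_of_le_of_lt (habs g) hθ1)).tsum_eq
  simp_rw [ht] at hs
  rw [integral_neg] at hs
  have hterm : (fun n : ℕ => ∫ g, G n g ∂gam)
      = fun n : ℕ => (∫ z, (F z) ^ (n + 1) ∂gam) / D ^ (n + 1) / ((n : ℝ) + 1) := by
    funext n
    have : ∀ g, G n g = (F g) ^ (n + 1) / D ^ (n + 1) / ((n : ℝ) + 1) := by
      intro g
      simp only [G, div_pow]
    simp_rw [this]
    rw [integral_div, integral_div]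
  rw [hterm] at hs
  exact hs

/-- The replica-symmetric function `Φ(q) = E log (A - φ_q(z))`. -/
noncomputable def bigPhi (A q : ℝ) : ℝ := ∫ z, Real.log (A - phiQ ρ q z) ∂gam

/-- Gibbs weights. -/
noncomputable def gibbs (v : S → ℝ) (s : S) : ℝ := Real.exp (v s) / ∑ x, Real.exp (v x)

lemma gibbs_nonneg [Nonempty S] (v : S → ℝ) (s : S) : 0 ≤ gibbs v s := by
  unfold gibbs
  have : 0 < ∑ x, Real.exp (v x) :=
    Finset.sum_pos (fun x _ => Real.exp_pos _) Finset.univ_nonempty
  positivity

lemma gibbs_sum [Nonempty S] (v : S → ℝ) : ∑ s, gibbs v s = 1 := by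
  unfold gibbs
  have : 0 < ∑ x, Real.exp (v x) :=
    Finset.sum_pos (fun x _ => Real.exp_pos _) Finset.univ_nonempty
  rw [← Finset.sum_div, div_self this.ne']

/-- The replica-symmetric bound for one new pattern. -/
theorem rs_pattern_bound [Nonempty S] {A : ℝ} (hA : ρ.real Set.univ < A) {Y : S → κ → ℝ}
    (hY : ∀ s, ∑ k, Y s k ^ 2 = 1) (v : S → ℝ) :
    op (fA ρ A) Y LS v ≤ LS v + bigPhi ρ A (qOf (gibbs v) Y) := by
  have h00 : 0 ≤ ρ.real Set.univ := measureReal_nonneg
  have hApos : 0 < A := lt_of_le_of_lt h00 hA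
  have hw0 := gibbs_nonneg v
  have hw1 := gibbs_sum v
  set w := gibbs v with hw
  set q := qOf w Y with hq
  have hq1 : q ≤ 1 := qOf_le_one hw0 hw1 hY
  have hWpos : 0 < ∑ x, Real.exp (v x) :=
    Finset.sum_pos (fun x _ => Real.exp_pos _) Finset.univ_nonempty
  set W := ∑ x, Real.exp (v x) with hW
  -- rewrite the pattern average with normalized weights
  have hT : ∀ g, T ρ (fun x => Real.exp (v x)) Y g / (A * W) = T ρ w Y g / A := by
    intro g
    have : T ρ (fun x => Real.exp (v x)) Y g = W * T ρ w Y g := by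
      unfold T
      rw [Finset.mul_sum]
      refine Finset.sum_congr rfl fun x _ => ?_
      simp only [hw, gibbs, ← hW]
      field_simp
    rw [this]
    field_simp
  rw [op_LS_eq ρ hA Y v, ← hW]
  simp_rw [hT]
  have hsumw : (∑ x, w x) * ρ.real Set.univ < A := by rw [hw1, one_mul]; exact hA
  have hs1 := hasSum_log ρ w hw0 Y hApos hsumw
  have hs2 := hasSum_log_line (phiQ_continuous ρ hq1) hApos hA (phiQ_abs_le ρ hq1)
  have hle : -∫ z, Real.log (1 - phiQ ρ q z / A) ∂gam ≤ -∫ g, Real.log (1 - T ρ w Y g / A) ∂(stdG κ) := by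
    refine hasSum_le (fun n => ?_) hs2 hs1
    have h := rs_moment ρ hw0 hw1 hY (n + 1)
    have hpos : 0 < A ^ (n + 1) * ((n : ℝ) + 1) := by positivity
    have e : ∀ a : ℝ, a / A ^ (n + 1) / ((n : ℝ) + 1) = a / (A ^ (n + 1) * ((n : ℝ) + 1)) := by
      intro a; rw [div_div]
    rw [e, e]
    apply div_le_div_of_nonneg_right _ hpos.le
    have hM : Mom ρ w Y [] (n + 1) = ∫ g, (T ρ w Y g) ^ (n + 1) ∂(stdG κ) := by
      simp [Mom, cosP_nil]
    rw [hM]
    exact h
  have hlogA : bigPhi ρ A q = Real.log A + ∫ z, Real.log (1 - phiQ ρ q z / A) ∂gam := by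
    unfold bigPhi
    have hlt : ∀ z, 0 < 1 - phiQ ρ q z / A := by
      intro z
      have h1 := (abs_le.1 (phiQ_abs_le ρ hq1 z)).2
      have : phiQ ρ q z / A < 1 := by
        rw [div_lt_one hApos]; linarith
      linarith
    have e : ∀ z, Real.log (A - phiQ ρ q z) = Real.log A + Real.log (1 - phiQ ρ q z / A) := by
      intro z
      rw [← Real.log_mul hApos.ne' (hlt z).ne']
      congr 1
      field_simp
    simp_rw [e]
    have hi : Integrable (fun z => Real.log (1 - phiQ ρ q z / A)) gam := by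
      have hcont : Continuous (fun z => Real.log (1 - phiQ ρ q z / A)) :=
        Continuous.log (continuous_const.sub ((phiQ_continuous ρ hq1).div_const A))
          fun z => (hlt z).ne'
      set θ := ρ.real Set.univ / A with hθ
      have hθ1 : θ < 1 := (div_lt_one hApos).2 hA
      have hθ0 : 0 ≤ θ := by positivity
      refine Integrable.of_bound hcont.aestronglyMeasurable
        (|Real.log (1 - θ)| + |Real.log (1 + θ)|) (Filter.Eventually.of_forall fun z => ?_)
      have h1 := abs_le.1 (phiQ_abs_le ρ hq1 z)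
      have h2 : |phiQ ρ q z / A| ≤ θ := by
        rw [abs_div, abs_of_pos hApos]
        exact div_le_div_of_nonneg_right (phiQ_abs_le ρ hq1 z) hApos.le
      have h3 := abs_le.1 h2
      rw [Real.norm_eq_abs, abs_le]
      have l1 : Real.log (1 - θ) ≤ Real.log (1 - phiQ ρ q z / A) :=
        Real.log_le_log (by linarith) (by linarith)
      have l2 : Real.log (1 - phiQ ρ q z / A) ≤ Real.log (1 + θ) :=
        Real.log_le_log (hlt z) (by linarith)
      constructor
      · have := neg_abs_le (Real.log (1 - θ))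
        have := abs_nonneg (Real.log (1 + θ))
        linarith
      · have := le_abs_self (Real.log (1 + θ))
        have := abs_nonneg (Real.log (1 - θ))
        linarith
    rw [integral_add (integrable_const _) hi]
    simp
  rw [hlogA]
  have hLS : LS v = Real.log W := rfl
  rw [hLS, Real.log_mul hApos.ne' hWpos.ne']
  linarith

end Vale.Agent.Lib.P157
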