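import Vale.Agent.Lib.P157.Conc
import Vale.Agent.Lib.P157.Overlap

open MeasureTheory ProbabilityTheory Real Filter Topology

namespace Vale.Agent.Lib.P157

variable (ρ : Measure ℝ) [IsFiniteMeasure ρ]

/-- The Gaussian mean of `phi`. -/
noncomputable def mOf : ℝ := ∫ ξ, Real.exp (-(ξ ^ 2) / 2) ∂ρ

/-- The excess of the two-point function of the potential, as a function of the overlap. -/
noncomputable def psiR (R : ℝ) : ℝ :=
  ∫ p : ℝ × ℝ, Real.exp (-(p.1 ^ 2 + p.2 ^ 2) / 2) * (Real.cosh (p.1 * p.2 * R) - 1) ∂(ρ.prod ρ)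

lemma gauss_cosh_le (a b : ℝ) {R : ℝ} (hR : |R| ≤ 1) :
    Real.exp (-(a ^ 2 + b ^ 2) / 2) * Real.cosh (a * b * R) ≤ 1 := by
  have h1 : Real.cosh (a * b * R) ≤ Real.exp |a * b * R| := by
    rw [← Real.cosh_abs, Real.cosh_eq]
    have : Real.exp (-|a * b * R|) ≤ Real.exp |a * b * R| :=
      Real.exp_le_exp.2 (by linarith [abs_nonneg (a * b * R)])
    linarith
  have h2 : |a * b * R| ≤ (a ^ 2 + b ^ 2) / 2 := by
    rw [abs_mul, abs_mul]
    have h3 : |a| * |b| * |R| ≤ |a| * |b| * 1 :=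
      mul_le_mul_of_nonneg_left hR (by positivity)
    have h4 : |a| ^ 2 = a ^ 2 := sq_abs a
    have h5 : |b| ^ 2 = b ^ 2 := sq_abs b
    nlinarith [sq_nonneg (|a| - |b|)]
  calc Real.exp (-(a ^ 2 + b ^ 2) / 2) * Real.cosh (a * b * R)
      ≤ Real.exp (-(a ^ 2 + b ^ 2) / 2) * Real.exp ((a ^ 2 + b ^ 2) / 2) :=
        mul_le_mul_of_nonneg_left (h1.trans (Real.exp_le_exp.2 h2)) (Real.exp_pos _).le
    _ = 1 := by
        rw [← Real.exp_add]
        have : -(a ^ 2 + b ^ 2) / 2 + (a ^ 2 + b ^ 2) / 2 = 0 := by ring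
        rw [this, Real.exp_zero]

lemma gc_continuous (R : ℝ) : Continuous (fun p : ℝ × ℝ =>
    Real.exp (-(p.1 ^ 2 + p.2 ^ 2) / 2) * Real.cosh (p.1 * p.2 * R)) := by
  fun_prop

lemma gc_integrable {R : ℝ} (hR : |R| ≤ 1) : Integrable (fun p : ℝ × ℝ =>
    Real.exp (-(p.1 ^ 2 + p.2 ^ 2) / 2) * Real.cosh (p.1 * p.2 * R)) (ρ.prod ρ) := by
  refine Integrable.of_bound (gc_continuous R).aestronglyMeasurable 1
    (Filter.Eventually.of_forall fun p => ?_)
  rw [Real.norm_eq_abs, abs_of_pos (mul_pos (Real.exp_pos _) (Real.cosh_pos _))]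
  exact gauss_cosh_le p.1 p.2 hR

lemma g0_integrable : Integrable (fun p : ℝ × ℝ =>
    Real.exp (-(p.1 ^ 2 + p.2 ^ 2) / 2)) (ρ.prod ρ) := by
  have := gc_integrable ρ (R := 0) (by simp)
  simpa using this

lemma mOf_sq : mOf ρ ^ 2 = ∫ p : ℝ × ℝ, Real.exp (-(p.1 ^ 2 + p.2 ^ 2) / 2) ∂(ρ.prod ρ) := by
  have h := integral_prod_mul (μ := ρ) (ν := ρ) (fun ξ => Real.exp (-(ξ ^ 2) / 2))
    (fun ξ => Real.exp (-(ξ ^ 2) / 2))
  unfold mOf
  rw [sq, ← h]
  refine integral_congr_ae (Filter.Eventually.of_forall fun p => ?_)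
  simp only
  rw [← Real.exp_add]
  congr 1
  ring

lemma psiR_eq {R : ℝ} (hR : |R| ≤ 1) :
    psiR ρ R = (∫ p : ℝ × ℝ, Real.exp (-(p.1 ^ 2 + p.2 ^ 2) / 2) * Real.cosh (p.1 * p.2 * R)
      ∂(ρ.prod ρ)) - mOf ρ ^ 2 := by
  unfold psiR
  rw [mOf_sq, ← integral_sub (gc_integrable ρ hR) (g0_integrable ρ)]
  refine integral_congr_ae (Filter.Eventually.of_forall fun p => ?_)
  simp only
  ring

lemma psiR_nonneg (R : ℝ) : 0 ≤ psiR ρ R := by
  unfold psiR
  refine integral_nonneg fun p => mul_nonneg (Real.exp_pos _).le ?_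
  linarith [Real.one_le_cosh (p.1 * p.2 * R)]

variable {κ : Type*} [Fintype κ]

lemma phi_dot_fubini (d : κ → ℝ) :
    Integrable (Function.uncurry fun (g : κ → ℝ) (ξ : ℝ) => Real.cos (ξ * ∑ k, g k * d k))
      ((stdG κ).prod ρ) := by
  refine Integrable.of_bound (C := 1) ?_ ?_
  · apply Continuous.aestronglyMeasurable
    apply Real.continuous_cos.comp
    apply Continuous.mul continuous_snd
    fun_prop
  · refine Filter.Eventually.of_forall fun p => ?_
    rcases p with ⟨g, ξ⟩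
    simpa using Real.abs_cos_le_one _

lemma integral_phi_dot (d : κ → ℝ) (hd : ∑ k, d k ^ 2 = 1) :
    ∫ g : κ → ℝ, phi ρ (∑ k, g k * d k) ∂(stdG κ) = mOf ρ := by
  unfold phi mOf
  rw [integral_integral_swap (phi_dot_fubini ρ d)]
  refine integral_congr_ae (Filter.Eventually.of_forall fun ξ => ?_)
  have h := integral_cos_dot (κ := κ) (fun k => ξ * d k)
  have e1 : ∀ g : κ → ℝ, ∑ k, g k * (ξ * d k) = ξ * ∑ k, g k * d k := by
    intro g
    rw [Finset.mul_sum]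
    exact Finset.sum_congr rfl fun k _ => by ring
  simp_rw [e1] at h
  have e2 : ∑ k, (ξ * d k) ^ 2 = ξ ^ 2 := by
    simp_rw [mul_pow]
    rw [← Finset.mul_sum, hd, mul_one]
  rw [e2] at h
  exact h

lemma phi_phi_eq (y y' : ℝ) :
    phi ρ y * phi ρ y' = ∫ p : ℝ × ℝ, Real.cos (p.1 * y) * Real.cos (p.2 * y') ∂(ρ.prod ρ) := by
  unfold phi
  rw [← integral_prod_mul (μ := ρ) (ν := ρ) (fun ξ => Real.cos (ξ * y))
    (fun ξ => Real.cos (ξ * y'))]

lemma phi_phi_fubini (d d' : κ → ℝ) :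
    Integrable (Function.uncurry fun (g : κ → ℝ) (p : ℝ × ℝ) =>
      Real.cos (p.1 * ∑ k, g k * d k) * Real.cos (p.2 * ∑ k, g k * d' k))
      ((stdG κ).prod (ρ.prod ρ)) := by
  refine Integrable.of_bound (C := 1) ?_ ?_
  · apply Continuous.aestronglyMeasurable
    show Continuous fun q : (κ → ℝ) × (ℝ × ℝ) =>
      Real.cos (q.2.1 * ∑ k, q.1 k * d k) * Real.cos (q.2.2 * ∑ k, q.1 k * d' k)
    fun_prop
  · refine Filter.Eventually.of_forall fun q => ?_
    rcases q with ⟨g, p⟩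
    rw [Real.norm_eq_abs]
    simp only [Function.uncurry_apply_pair, abs_mul]
    calc _ ≤ (1:ℝ) * 1 := mul_le_mul (Real.abs_cos_le_one _) (Real.abs_cos_le_one _)
          (abs_nonneg _) zero_le_one
      _ = 1 := by ring

lemma integral_cos_cos (d d' : κ → ℝ) (hd : ∑ k, d k ^ 2 = 1) (hd' : ∑ k, d' k ^ 2 = 1) (a b : ℝ) :
    ∫ g : κ → ℝ, Real.cos (a * ∑ k, g k * d k) * Real.cos (b * ∑ k, g k * d' k) ∂(stdG κ)
      = Real.exp (-(a ^ 2 + b ^ 2) / 2) * Real.cosh (a * b * ∑ k, d k * d' k) := by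
  set R : ℝ := ∑ k, d k * d' k with hR
  have hpm : ∀ s : ℝ, ∫ g : κ → ℝ, Real.cos (a * ∑ k, g k * d k + s * (b * ∑ k, g k * d' k)) ∂(stdG κ)
      = Real.exp (-(a ^ 2 + s ^ 2 * b ^ 2 + 2 * s * a * b * R) / 2) := by
    intro s
    have h := integral_cos_dot (κ := κ) (fun k => a * d k + s * (b * d' k))
    have e1 : ∀ g : κ → ℝ, ∑ k, g k * (a * d k + s * (b * d' k))
        = a * ∑ k, g k * d k + s * (b * ∑ k, g k * d' k) := by
      intro g
      rw [Finset.mul_sum, Finset.mul_sum, Finset.mul_sum, ← Finset.sum_add_distrib]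
      exact Finset.sum_congr rfl fun k _ => by ring
    simp_rw [e1] at h
    rw [h]
    congr 2
    have e2 : ∀ k, (a * d k + s * (b * d' k)) ^ 2
        = a ^ 2 * d k ^ 2 + s ^ 2 * b ^ 2 * d' k ^ 2 + 2 * s * a * b * (d k * d' k) := by
      intro k; ring
    simp_rw [e2]
    rw [Finset.sum_add_distrib, Finset.sum_add_distrib, ← Finset.mul_sum, ← Finset.mul_sum,
      ← Finset.mul_sum, hd, hd', ← hR]
    ring
  have hint : ∀ s : ℝ, Integrable
      (fun g : κ → ℝ => Real.cos (a * ∑ k, g k * d k + s * (b * ∑ k, g k * d' k))) (stdG κ) := by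
    intro s
    refine Integrable.of_bound (C := 1) (Continuous.aestronglyMeasurable (by fun_prop)) ?_
    exact Filter.Eventually.of_forall fun g => by simpa using Real.abs_cos_le_one _
  have hcc : ∀ g : κ → ℝ, Real.cos (a * ∑ k, g k * d k) * Real.cos (b * ∑ k, g k * d' k)
      = (1 / 2) * Real.cos (a * ∑ k, g k * d k + 1 * (b * ∑ k, g k * d' k))
        + (1 / 2) * Real.cos (a * ∑ k, g k * d k + (-1) * (b * ∑ k, g k * d' k)) := by
    intro g
    have e1 : a * ∑ k, g k * d k + (-1) * (b * ∑ k, g k * d' k)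
        = a * ∑ k, g k * d k - (b * ∑ k, g k * d' k) := by ring
    rw [one_mul, e1, Real.cos_add, Real.cos_sub]
    ring
  simp_rw [hcc]
  rw [integral_add ((hint 1).const_mul _) ((hint (-1)).const_mul _), integral_const_mul,
    integral_const_mul, hpm, hpm, Real.cosh_eq]
  have e3 : -(a ^ 2 + (1:ℝ) ^ 2 * b ^ 2 + 2 * 1 * a * b * R) / 2
      = -(a ^ 2 + b ^ 2) / 2 + (-(a * b * R)) := by ring
  have e4 : -(a ^ 2 + (-1:ℝ) ^ 2 * b ^ 2 + 2 * (-1) * a * b * R) / 2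
      = -(a ^ 2 + b ^ 2) / 2 + (a * b * R) := by ring
  rw [e3, e4, Real.exp_add, Real.exp_add]
  ring

lemma integral_phi_phi (d d' : κ → ℝ) (hd : ∑ k, d k ^ 2 = 1) (hd' : ∑ k, d' k ^ 2 = 1) :
    ∫ g : κ → ℝ, phi ρ (∑ k, g k * d k) * phi ρ (∑ k, g k * d' k) ∂(stdG κ)
      = ∫ p : ℝ × ℝ, Real.exp (-(p.1 ^ 2 + p.2 ^ 2) / 2) *
          Real.cosh (p.1 * p.2 * ∑ k, d k * d' k) ∂(ρ.prod ρ) := by
  simp_rw [phi_phi_eq]
  rw [integral_integral_swap (phi_phi_fubini ρ d d')]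
  refine integral_congr_ae (Filter.Eventually.of_forall fun p => ?_)
  exact integral_cos_cos d d' hd hd' p.1 p.2

lemma abs_dot_le (d d' : κ → ℝ) (hd : ∑ k, d k ^ 2 = 1) (hd' : ∑ k, d' k ^ 2 = 1) :
    |∑ k, d k * d' k| ≤ 1 := by
  have h := Finset.sum_mul_sq_le_sq_mul_sq Finset.univ d d'
  rw [hd, hd', one_mul] at h
  exact abs_le_one_iff_mul_self_le_one.2 (by rw [← sq]; exact h)

lemma phi_dot_integrable (d : κ → ℝ) :
    Integrable (fun g : κ → ℝ => phi ρ (∑ k, g k * d k)) (stdG κ) := by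
  refine Integrable.of_bound (C := ρ.real Set.univ)
    (((phi_continuous ρ).comp (by fun_prop)).aestronglyMeasurable)
    (Filter.Eventually.of_forall fun g => ?_)
  simpa using phi_abs_le ρ _

lemma phi_phi_integrable (d d' : κ → ℝ) :
    Integrable (fun g : κ → ℝ => phi ρ (∑ k, g k * d k) * phi ρ (∑ k, g k * d' k)) (stdG κ) := by
  refine Integrable.of_bound (C := ρ.real Set.univ * ρ.real Set.univ)
    (Continuous.aestronglyMeasurable (((phi_continuous ρ).comp (by fun_prop)).mul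
      ((phi_continuous ρ).comp (by fun_prop))))
    (Filter.Eventually.of_forall fun g => ?_)
  rw [Real.norm_eq_abs, abs_mul]
  exact mul_le_mul (phi_abs_le ρ _) (phi_abs_le ρ _) (abs_nonneg _) measureReal_nonneg

/-- The two-point function of the weight `A - phi`. -/
lemma integral_U_U (A : ℝ) (d d' : κ → ℝ) (hd : ∑ k, d k ^ 2 = 1) (hd' : ∑ k, d' k ^ 2 = 1) :
    ∫ g : κ → ℝ, (A - phi ρ (∑ k, g k * d k)) * (A - phi ρ (∑ k, g k * d' k)) ∂(stdG κ)
      = (A - mOf ρ) ^ 2 + psiR ρ (∑ k, d k * d' k) := by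
  have e : ∀ g : κ → ℝ, (A - phi ρ (∑ k, g k * d k)) * (A - phi ρ (∑ k, g k * d' k))
      = A ^ 2 - A * phi ρ (∑ k, g k * d k) - A * phi ρ (∑ k, g k * d' k)
        + phi ρ (∑ k, g k * d k) * phi ρ (∑ k, g k * d' k) := by
    intro g; ring
  simp_rw [e]
  have h1 := (phi_dot_integrable ρ d).const_mul A
  have h2 := (phi_dot_integrable ρ d').const_mul A
  have h3 := phi_phi_integrable ρ d d'
  have h12 : Integrable (fun g : κ → ℝ => A ^ 2 - A * phi ρ (∑ k, g k * d k)) (stdG κ) :=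
    (integrable_const _).sub h1
  have h123 : Integrable (fun g : κ → ℝ => A ^ 2 - A * phi ρ (∑ k, g k * d k)
      - A * phi ρ (∑ k, g k * d' k)) (stdG κ) := h12.sub h2
  rw [integral_add h123 h3, integral_sub h12 h2, integral_sub (integrable_const _) h1,
    integral_const, integral_const_mul, integral_const_mul, integral_phi_dot ρ d hd,
    integral_phi_dot ρ d' hd', integral_phi_phi ρ d d' hd hd', psiR_eq ρ (abs_dot_le d d' hd hd')]
  simp
  ring

lemma integral_U (A : ℝ) (d : κ → ℝ) (hd : ∑ k, d k ^ 2 = 1) :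
    ∫ g : κ → ℝ, (A - phi ρ (∑ k, g k * d k)) ∂(stdG κ) = A - mOf ρ := by
  rw [integral_sub (integrable_const _) (phi_dot_integrable ρ d), integral_const,
    integral_phi_dot ρ d hd]
  simp

end Vale.Agent.Lib.P157
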