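import Vale.Agent.Lib.P157.PhiExp

open MeasureTheory ProbabilityTheory Real Filter Topology

namespace Vale.Agent.Lib.P157

variable {ρ : Measure ℝ} [IsFiniteMeasure ρ] {A : ℝ}

/-- The sixth-order Gaussian constant in the remainder. -/
noncomputable def C7 : ℝ := ∫ z, (1 + z ^ 2) ^ 3 ∂gam

lemma integrable_C7 : Integrable (fun z : ℝ => (1 + z ^ 2) ^ 3) gam := by
  have h0 : Integrable (fun _ : ℝ => (1:ℝ)) gam := integrable_const _
  have h1 := (integrable_pow_gam 2).const_mul 3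
  have h2 := (integrable_pow_gam 4).const_mul 3
  have h3 := integrable_pow_gam 6
  have h : Integrable (fun z : ℝ => 1 + 3 * z ^ 2 + 3 * z ^ 4 + z ^ 6) gam :=
    ((h0.add h1).add h2).add h3
  refine h.congr (Filter.Eventually.of_forall fun z => ?_)
  simp only
  ring

lemma C7_nonneg : 0 ≤ C7 := integral_nonneg fun z => by positivity

/-- The sharp expansion of the replica-symmetric functional for small `q`. -/
lemma bigPhi_le_sharp (hA : ρ.real Set.univ < A) {q : ℝ} (hq0 : 0 ≤ q) (hq1 : q ≤ 1 / 2) :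
    bigPhi ρ A q ≤ Real.log (A - mOf ρ) - psiR ρ q / (2 * (A - mOf ρ) ^ 2)
      + (1 / 3) * ((2 * ρ.real Set.univ / (A - mOf ρ)) ^ 3 * C7) * q ^ 3 := by
  have hU := Ubar_pos (ρ := ρ) hA
  have hq1' : q ≤ 1 := by linarith
  have hρ0 : 0 ≤ ρ.real Set.univ := measureReal_nonneg
  rw [bigPhi_eq hA hq1']
  have hpt : ∀ z, Real.log (1 + uOf ρ A q z)
      ≤ uOf ρ A q z - uOf ρ A q z ^ 2 / 2 + |uOf ρ A q z| ^ 3 / 3 :=
    fun z => log_one_add_le_cubic (uOf_gt hA hq1' z)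
  have hi1 := uOf_integrable hA hq1'
  have hi2 := (uOf_sq_integrable hA hq1').div_const 2
  have hi3 := (uOf_cube_integrable hA hq1').div_const 3
  have hi12 : Integrable (fun z => uOf ρ A q z - uOf ρ A q z ^ 2 / 2) gam := hi1.sub hi2
  have hi123 : Integrable (fun z => uOf ρ A q z - uOf ρ A q z ^ 2 / 2 + |uOf ρ A q z| ^ 3 / 3) gam :=
    hi12.add hi3
  have h := integral_mono (log_uOf_integrable hA hq1') hi123 hpt
  rw [integral_add hi12 hi3, integral_sub hi1 hi2, integral_div, integral_div,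
    integral_uOf hA hq0 hq1', integral_uOf_sq hA hq0 hq1'] at h
  -- the third moment
  have hcube : ∫ z, |uOf ρ A q z| ^ 3 ∂gam
      ≤ (2 * ρ.real Set.univ / (A - mOf ρ)) ^ 3 * C7 * q ^ 3 := by
    have hpt3 : ∀ z, |uOf ρ A q z| ^ 3
        ≤ (2 * ρ.real Set.univ / (A - mOf ρ)) ^ 3 * q ^ 3 * (1 + z ^ 2) ^ 3 := by
      intro z
      have h1 : |uOf ρ A q z| ≤ (2 * ρ.real Set.univ / (A - mOf ρ)) * q * (1 + z ^ 2) := by
        unfold uOf
        rw [abs_div, abs_of_pos hU, abs_sub_comm, div_le_iff₀ hU]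
        refine (phiQ_sub_mOf_abs_le hq0 hq1 z).trans (le_of_eq ?_)
        field_simp
      calc _ ≤ ((2 * ρ.real Set.univ / (A - mOf ρ)) * q * (1 + z ^ 2)) ^ 3 :=
            pow_le_pow_left₀ (abs_nonneg _) h1 3
        _ = _ := by ring
    have h2 := integral_mono (uOf_cube_integrable hA hq1') (integrable_C7.const_mul _) hpt3
    rw [integral_const_mul] at h2
    refine h2.trans (le_of_eq ?_)
    unfold C7
    ring
  have e : psiR ρ q / (2 * (A - mOf ρ) ^ 2) = psiR ρ q / (A - mOf ρ) ^ 2 / 2 := by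
    field_simp
  rw [e]
  linarith

/-- The global quadratic bound for the replica-symmetric functional. -/
lemma bigPhi_le_global (hA : ρ.real Set.univ < A) {q : ℝ} (hq0 : 0 ≤ q) (hq1 : q ≤ 1) :
    bigPhi ρ A q ≤ Real.log (A - mOf ρ)
      - psiR ρ q / (A - mOf ρ) ^ 2 / (2 * (1 + 2 * ρ.real Set.univ / (A - mOf ρ))) := by
  have hU := Ubar_pos (ρ := ρ) hA
  have hρ0 : 0 ≤ ρ.real Set.univ := measureReal_nonneg
  set B : ℝ := 2 * ρ.real Set.univ / (A - mOf ρ) with hB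
  have hB0 : 0 ≤ B := by positivity
  rw [bigPhi_eq hA hq1]
  have hpt : ∀ z, Real.log (1 + uOf ρ A q z)
      ≤ uOf ρ A q z - uOf ρ A q z ^ 2 / (2 * (1 + B)) :=
    fun z => log_one_add_le_quad hB0 (uOf_gt hA hq1 z) (uOf_le hA hq1 z)
  have hi1 := uOf_integrable hA hq1
  have hi2 := (uOf_sq_integrable hA hq1).div_const (2 * (1 + B))
  have hi12 : Integrable (fun z => uOf ρ A q z - uOf ρ A q z ^ 2 / (2 * (1 + B))) gam := hi1.sub hi2
  have h := integral_mono (log_uOf_integrable hA hq1) hi12 hpt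
  rw [integral_sub hi1 hi2, integral_div, integral_uOf hA hq0 hq1,
    integral_uOf_sq hA hq0 hq1] at h
  linarith

/-- The strict inequality above the threshold. -/
theorem strict_above (hA : ρ.real Set.univ < A) {α : ℝ} (hα : 0 < α)
    (hth : (A - mOf ρ) ^ 2 < α * aTwo ρ ^ 2) :
    ∃ L : ℝ, Tendsto (fun N : ℕ => expectedPressure (fA ρ A) α N) atTop (𝓝 L) ∧
      L < α * Real.log (A - mOf ρ) := by
  have hU := Ubar_pos (ρ := ρ) hA
  have hρ0 : 0 ≤ ρ.real Set.univ := measureReal_nonneg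
  set Ub := A - mOf ρ with hUb
  set a2 := aTwo ρ ^ 2 with ha2
  have ha2pos : 0 < a2 := by
    have : 0 < α * a2 := lt_trans (by positivity) hth
    exact (pos_iff_pos_of_mul_pos this).1 hα
  set θ : ℝ := Ub ^ 2 / (α * a2) with hθ
  have hθ0 : 0 < θ := by positivity
  have hθ1 : θ < 1 := by
    rw [hθ, div_lt_one (by positivity)]
    exact hth
  -- the constants
  set κ₀ : ℝ := a2 / (4 * Ub ^ 2) with hκ₀
  have hκ₀pos : 0 < κ₀ := by positivity
  set ε : ℝ := (1 - θ) / 2 with hε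
  have hεpos : 0 < ε := by rw [hε]; linarith
  set C₃ : ℝ := (1 / 3) * ((2 * ρ.real Set.univ / Ub) ^ 3 * C7) with hC₃
  have hC₃0 : 0 ≤ C₃ := by
    have := C7_nonneg
    positivity
  set q₁ : ℝ := min (1 / 2) (ε * κ₀ / (C₃ + 1)) with hq₁
  have hq₁pos : 0 < q₁ := lt_min (by norm_num) (by positivity)
  have hq₁half : q₁ ≤ 1 / 2 := min_le_left _ _
  have hq₁small : C₃ * q₁ ≤ ε * κ₀ := by
    have h1 : q₁ ≤ ε * κ₀ / (C₃ + 1) := min_le_right _ _
    have h2 : C₃ * q₁ ≤ (C₃ + 1) * (ε * κ₀ / (C₃ + 1)) := by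
      refine mul_le_mul (by linarith) h1 hq₁pos.le (by linarith)
    have h3 : (C₃ + 1) * (ε * κ₀ / (C₃ + 1)) = ε * κ₀ := by
      field_simp
    linarith
  set b : ℝ := α * ((1 - ε) * κ₀) with hb
  have h1ε : 0 < 1 - ε := by rw [hε]; linarith
  have hbpos : 0 < b := by positivity
  -- the bound for small q
  have hsmall : ∀ q, 0 ≤ q → q ≤ q₁ → α * bigPhi ρ A q ≤ α * Real.log Ub - b * q ^ 2 := by
    intro q hq0 hq
    have hq12 : q ≤ 1 / 2 := hq.trans hq₁half
    have hq1' : |q| ≤ 1 := by rw [abs_of_nonneg hq0]; linarith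
    have h1 := bigPhi_le_sharp hA hq0 hq12
    have h2 := psiR_ge (ρ := ρ) hq1'
    have h3 : κ₀ * q ^ 2 ≤ psiR ρ q / (2 * Ub ^ 2) := by
      rw [le_div_iff₀ (by positivity)]
      refine le_trans (le_of_eq ?_) h2
      rw [hκ₀]
      field_simp
      ring
    have h4 : C₃ * q ^ 3 ≤ ε * κ₀ * q ^ 2 := by
      have e : q ^ 3 = q * q ^ 2 := by ring
      rw [e]
      have h5 : C₃ * q ≤ ε * κ₀ := le_trans (mul_le_mul_of_nonneg_left hq hC₃0) hq₁small
      have := mul_le_mul_of_nonneg_right h5 (sq_nonneg q)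
      linarith
    have h5 : bigPhi ρ A q ≤ Real.log Ub - (1 - ε) * κ₀ * q ^ 2 := by
      have e : (1 / 3) * ((2 * ρ.real Set.univ / Ub) ^ 3 * C7) * q ^ 3 = C₃ * q ^ 3 := rfl
      rw [e] at h1
      linarith
    have h6 := mul_le_mul_of_nonneg_left h5 hα.le
    refine h6.trans (le_of_eq ?_)
    rw [hb]
    ring
  -- the bound for large q
  set B : ℝ := 2 * ρ.real Set.univ / Ub with hB
  have hB0 : 0 ≤ B := by positivity
  set δ : ℝ := α * ((q₁ ^ 2 / 2 * a2) / Ub ^ 2 / (2 * (1 + B))) with hδ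
  have hδpos : 0 < δ := by positivity
  have hlarge : ∀ q, q₁ ≤ q → q ≤ 1 → α * bigPhi ρ A q ≤ α * Real.log Ub - δ := by
    intro q hq hq1
    have hq0 : 0 ≤ q := hq₁pos.le.trans hq
    have hq1' : |q| ≤ 1 := by rw [abs_of_nonneg hq0]; exact hq1
    have h1 := bigPhi_le_global hA hq0 hq1
    have h2 := psiR_ge (ρ := ρ) hq1'
    have h3 : q₁ ^ 2 / 2 * a2 ≤ psiR ρ q := by
      refine le_trans ?_ h2
      have : q₁ ^ 2 ≤ q ^ 2 := pow_le_pow_left₀ hq₁pos.le hq 2
      have h4 : 0 ≤ a2 := ha2pos.le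
      nlinarith
    have h4 : (q₁ ^ 2 / 2 * a2) / Ub ^ 2 / (2 * (1 + B))
        ≤ psiR ρ q / Ub ^ 2 / (2 * (1 + B)) := by
      apply div_le_div_of_nonneg_right _ (by positivity)
      exact div_le_div_of_nonneg_right h3 (by positivity)
    have h5 := mul_le_mul_of_nonneg_left (h1.trans (by linarith :
      Real.log Ub - psiR ρ q / Ub ^ 2 / (2 * (1 + B))
        ≤ Real.log Ub - (q₁ ^ 2 / 2 * a2) / Ub ^ 2 / (2 * (1 + B)))) hα.le
    refine h5.trans (le_of_eq ?_)
    rw [hδ]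
    ring
  -- the final choice of r
  set c₅ : ℝ := (1 - θ) / (4 * (1 + θ)) with hc₅
  have hc₅pos : 0 < c₅ := by
    rw [hc₅]
    exact div_pos (by linarith) (by positivity)
  have hC6 := C6_nonneg
  set r : ℝ := min (2 * δ) (c₅ / (2 * (C6 / 45 + 1))) with hr
  have hrpos : 0 < r := lt_min (by positivity) (by positivity)
  have hr1 : r ≤ 2 * δ := min_le_left _ _
  have hr2 : C6 / 45 * r ≤ c₅ / 2 := by
    have h1 : r ≤ c₅ / (2 * (C6 / 45 + 1)) := min_le_right _ _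
    have h2 : C6 / 45 * r ≤ (C6 / 45 + 1) * (c₅ / (2 * (C6 / 45 + 1))) := by
      refine mul_le_mul (by linarith) h1 hrpos.le (by positivity)
    have h3 : (C6 / 45 + 1) * (c₅ / (2 * (C6 / 45 + 1))) = c₅ / 2 := by
      field_simp
    linarith
  set C₁ : ℝ := α * Real.log Ub + r ^ 2 / (16 * b) - r / 2 with hC₁
  have hCq : ∀ q, 0 ≤ q → q ≤ 1 → α * bigPhi ρ A q - (r / 2) * (1 - q) ≤ C₁ := by
    intro q hq0 hq1
    rw [hC₁]
    have hr16 : 0 < r ^ 2 / (16 * b) := by positivity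
    rcases le_or_gt q q₁ with h | h
    · have h1 := hsmall q hq0 h
      have h2 : r / 2 * q - b * q ^ 2 ≤ r ^ 2 / (16 * b) := by
        have h3 : 0 ≤ (4 * b * q - r) ^ 2 / (16 * b) := by positivity
        have h4 : (4 * b * q - r) ^ 2 / (16 * b) = r ^ 2 / (16 * b) - (r / 2 * q - b * q ^ 2) := by
          field_simp
          ring
        linarith
      linarith
    · have h1 := hlarge q h.le hq1
      have h2 : r / 2 * q ≤ δ := by
        have : r / 2 * q ≤ r / 2 * 1 := mul_le_mul_of_nonneg_left hq1 (by positivity)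
        linarith
      linarith
  obtain ⟨L, hL, hLle⟩ := rs_upper_limit hA hα hrpos.le hCq
  refine ⟨L, hL, ?_⟩
  have hlc := lcG_le hrpos.le
  have hsmallr : 1 / (16 * b) - 1 / 4 = -c₅ := by
    have hb16 : 16 * b = 4 * α * (1 - ε) * a2 / Ub ^ 2 := by
      rw [hb, hκ₀]
      field_simp
      ring
    have h1ε' : 1 - ε = (1 + θ) / 2 := by
      rw [hε]; ring
    have hαa : α * a2 = Ub ^ 2 / θ := by
      rw [hθ]
      field_simp
    have hb16' : 16 * b = 2 * (1 + θ) / θ := by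
      rw [hb16, h1ε']
      have e1 : 4 * α * ((1 + θ) / 2) * a2 / Ub ^ 2 = 2 * (1 + θ) * (α * a2) / Ub ^ 2 := by
        ring
      rw [e1, hαa]
      field_simp
    rw [hb16', hc₅]
    field_simp
    ring
  have hfinal : C₁ + lcG r ≤ α * Real.log Ub - r ^ 2 * (c₅ / 2) := by
    rw [hC₁]
    have e1 : r ^ 2 / (16 * b) = r ^ 2 * (1 / 4 - c₅) := by
      have : 1 / (16 * b) = 1 / 4 - c₅ := by linarith
      rw [← this]
      ring
    rw [e1]
    have h3 : C6 / 45 * r ^ 3 ≤ r ^ 2 * (c₅ / 2) := by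
      have e2 : C6 / 45 * r ^ 3 = r ^ 2 * (C6 / 45 * r) := by ring
      rw [e2]
      exact mul_le_mul_of_nonneg_left hr2 (by positivity)
    have e3 : r ^ 2 * (1 / 4 - c₅) = r ^ 2 / 4 - r ^ 2 * c₅ := by ring
    have e4 : r ^ 2 * (c₅ / 2) = r ^ 2 * c₅ / 2 := by ring
    rw [e3, e4]
    rw [e4] at h3
    linarith
  have hpos : 0 < r ^ 2 * (c₅ / 2) := by positivity
  linarith

end Vale.Agent.Lib.P157
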